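import Vale.Agent.P037.Transfer

/-! The removal bound over `Fin n`, with real parameters. -/

namespace Vale.Agent.P037

open Finset

theorem removal_id (n : ℕ) (ε : ℝ) (A : Matrix (Fin n) (Fin n) Bool) (hn : 1 ≤ n) (h0 : 0 < ε)
    (h1 : ε < 1)
    (hfar : ∀ B : Matrix (Fin n) (Fin n) Bool, numCopies idPat B = 0 →
      ε * (n : ℝ) ^ 2 ≤ (entryDist A B : ℝ)) :
    (ε / 136) ^ 44 * (n : ℝ) ^ 4 ≤ (numCopies idPat A : ℝ) := by
  set K := ⌈1 / ε⌉₊ with hKdef
  have hinv : 0 < 1 / ε := by positivity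
  have hK : 0 < K := Nat.ceil_pos.mpr hinv
  have hK1 : 1 / ε ≤ (K : ℝ) := Nat.le_ceil _
  have hK2 : (K : ℝ) ≤ 2 / ε := by
    have a1 : (K : ℝ) < 1 / ε + 1 := Nat.ceil_lt_add_one (le_of_lt hinv)
    have a2 : 1 ≤ 1 / ε := by
      rw [le_div_iff₀ h0]
      linarith
    have a3 : 2 / ε = 1 / ε + 1 / ε := by ring
    linarith
  have key := nat_main (ext A) n K hK hn (by
    intro B hB
    have a1 := hfar (res n B) (free_res n B hB)
    have a2 : (entryDist A (res n B) : ℝ)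
        ≤ (((range n ×ˢ range n).filter fun p => ext A p.1 p.2 ≠ B p.1 p.2).card : ℝ) := by
      exact_mod_cast entryDist_le n A B
    have a3 : ((n * n : ℕ) : ℝ)
        ≤ ((K * ((range n ×ˢ range n).filter fun p => ext A p.1 p.2 ≠ B p.1 p.2).card : ℕ) : ℝ) := by
      push_cast
      calc (n : ℝ) * n = (1 / ε) * (ε * (n : ℝ) ^ 2) := by field_simp
        _ ≤ (K : ℝ) * (((range n ×ˢ range n).filter fun p =>
              ext A p.1 p.2 ≠ B p.1 p.2).card : ℝ) := by
            apply mul_le_mul hK1 (le_trans a1 a2) (by positivity) (by positivity)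
    exact_mod_cast a3)
  have key2 : ((n : ℝ)) ^ 4 ≤ (68 * (K : ℝ)) ^ 44 * (cnt (ext A) n : ℝ) := by
    exact_mod_cast key
  have hle : (cnt (ext A) n : ℝ) ≤ (numCopies idPat A : ℝ) := by
    exact_mod_cast cnt_le_numCopies n A
  have hprod : (ε / 136) * (68 * (K : ℝ)) ≤ 1 := by
    calc (ε / 136) * (68 * (K : ℝ)) ≤ (ε / 136) * (68 * (2 / ε)) := by gcongr
      _ = 1 := by field_simp; norm_num
  have hprod0 : 0 ≤ (ε / 136) * (68 * (K : ℝ)) := by positivity
  calc (ε / 136) ^ 44 * (n : ℝ) ^ 4 ≤ (ε / 136) ^ 44 * ((68 * (K : ℝ)) ^ 44 * (cnt (ext A) n : ℝ)) := by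
        gcongr
    _ = ((ε / 136) * (68 * (K : ℝ))) ^ 44 * (cnt (ext A) n : ℝ) := by rw [mul_pow]; ring
    _ ≤ 1 * (cnt (ext A) n : ℝ) := by
        gcongr
        exact pow_le_one₀ hprod0 hprod
    _ = (cnt (ext A) n : ℝ) := one_mul _
    _ ≤ _ := hle

theorem removal_anti (n : ℕ) (ε : ℝ) (A : Matrix (Fin n) (Fin n) Bool) (hn : 1 ≤ n) (h0 : 0 < ε)
    (h1 : ε < 1)
    (hfar : ∀ B : Matrix (Fin n) (Fin n) Bool, numCopies antiPat B = 0 →
      ε * (n : ℝ) ^ 2 ≤ (entryDist A B : ℝ)) :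
    (ε / 136) ^ 44 * (n : ℝ) ^ 4 ≤ (numCopies antiPat A : ℝ) := by
  have h := removal_id n ε (compl A) hn h0 h1 (by
    intro B hB
    have a1 : numCopies antiPat (compl B) = 0 := by
      rw [← compl_idPat, numCopies_compl]
      exact hB
    have a2 := hfar (compl B) a1
    have a3 : entryDist (compl A) B = entryDist A (compl B) := by
      rw [← entryDist_compl A (compl B), compl_compl]
    rw [a3]
    exact a2)
  have e : numCopies idPat (compl A) = numCopies antiPat A := by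
    rw [← compl_idPat, ← numCopies_compl idPat (compl A), compl_compl]
  rw [e] at h
  exact h

end Vale.Agent.P037
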