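import Mathlib

/-! Parameter arithmetic for the pattern `[[1,1],[1,0]]`. -/

namespace Vale.Agent.P037

theorem arithG (Ke Z u n N D h0 R dd add t l : ℕ) (hZ : Z = 128 * Ke) (hK : 0 < Ke) (hu : 0 < u)
    (h1 : Z ^ 10 * u ≤ n) (h2 : n < 2 * (Z ^ 10 * u)) (ht : t ≤ 2 * Z ^ 2) (hl : l ≤ Z)
    (hD : D ≤ n * (Z ^ 9 * u) + n * (h0 + R * (Z ^ 4 * u)) + n * (8 * (Z ^ 9 * u) + dd + Z ^ 9 * u)
      + add)
    (hfar : n * n ≤ Ke * D)
    (hh0 : u * u * (Z ^ 4 * u * h0) ≤ 2 * N)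
    (hR : R ≤ 4 * Z * (t * l))
    (hdd : u * dd ≤ R * R * (u * u + u * u))
    (hadd : Z ^ 9 * u * add ≤ n * n * (Z ^ 8 * u)) :
    n ^ 4 ≤ Z ^ 40 * N := by
  have hZpos : 0 < Z := by omega
  have hZ128 : 128 ≤ Z := by omega
  have hn : 0 < n := lt_of_lt_of_le (by positivity) h1
  have hR8 : R ≤ 8 * Z ^ 4 := by
    calc R ≤ 4 * Z * (t * l) := hR
      _ ≤ 4 * Z * ((2 * Z ^ 2) * Z) := by gcongr
      _ = 8 * Z ^ 4 := by ring
  have t1 : Z * (n * (Z ^ 9 * u)) ≤ n * n := by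
    calc Z * (n * (Z ^ 9 * u)) = n * (Z ^ 10 * u) := by ring
      _ ≤ n * n := by gcongr
  have t2 : Z * (n * (R * (Z ^ 4 * u))) ≤ n * n := by
    calc Z * (n * (R * (Z ^ 4 * u))) ≤ Z * (n * ((8 * Z ^ 4) * (Z ^ 4 * u))) := by gcongr
      _ = n * (8 * (Z ^ 9 * u)) := by ring
      _ ≤ n * (Z * (Z ^ 9 * u)) := by gcongr; omega
      _ = n * (Z ^ 10 * u) := by ring
      _ ≤ n * n := by gcongr
  have t3a : dd ≤ 128 * Z ^ 8 * u := by
    have : u * dd ≤ u * (128 * Z ^ 8 * u) := by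
      calc u * dd ≤ R * R * (u * u + u * u) := hdd
        _ ≤ (8 * Z ^ 4) * (8 * Z ^ 4) * (u * u + u * u) := by gcongr
        _ = u * (128 * Z ^ 8 * u) := by ring
    exact Nat.le_of_mul_le_mul_left this hu
  have t3 : Z * (n * dd) ≤ n * n := by
    calc Z * (n * dd) ≤ Z * (n * (128 * Z ^ 8 * u)) := by gcongr
      _ = n * (128 * (Z ^ 9 * u)) := by ring
      _ ≤ n * (Z * (Z ^ 9 * u)) := by gcongr
      _ = n * (Z ^ 10 * u) := by ring
      _ ≤ n * n := by gcongr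
  have t4 : Z * add ≤ n * n := by
    have : Z ^ 8 * u * (Z * add) ≤ Z ^ 8 * u * (n * n) := by
      calc Z ^ 8 * u * (Z * add) = Z ^ 9 * u * add := by ring
        _ ≤ n * n * (Z ^ 8 * u) := hadd
        _ = _ := by ring
    exact Nat.le_of_mul_le_mul_left this (by positivity)
  have c1 : Z * D ≤ 13 * (n * n) + Z * (n * h0) := by
    calc Z * D ≤ Z * (n * (Z ^ 9 * u) + n * (h0 + R * (Z ^ 4 * u))
          + n * (8 * (Z ^ 9 * u) + dd + Z ^ 9 * u) + add) := by gcongr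
      _ = 10 * (Z * (n * (Z ^ 9 * u))) + Z * (n * (R * (Z ^ 4 * u))) + Z * (n * dd) + Z * add
          + Z * (n * h0) := by ring
      _ ≤ 10 * (n * n) + n * n + n * n + n * n + Z * (n * h0) := by gcongr
      _ = _ := by ring
  have c2 : Ke * (128 * (n * n)) ≤ Ke * (13 * (n * n) + Z * (n * h0)) := by
    calc Ke * (128 * (n * n)) = Z * (n * n) := by rw [hZ]; ring
      _ ≤ Z * (Ke * D) := by gcongr
      _ = Ke * (Z * D) := by ring
      _ ≤ _ := by gcongr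
  have c3 : 128 * (n * n) ≤ 13 * (n * n) + Z * (n * h0) := Nat.le_of_mul_le_mul_left c2 hK
  have c4 : n * n ≤ n * (Z * h0) := by
    have e : Z * (n * h0) = n * (Z * h0) := by ring
    omega
  have c5 : n ≤ Z * h0 := Nat.le_of_mul_le_mul_left c4 hn
  have c6 : Z ^ 4 * n ^ 4 ≤ Z ^ 4 * (Z ^ 40 * N) := by
    calc Z ^ 4 * n ^ 4 = Z ^ 4 * (n ^ 3 * n) := by ring
      _ ≤ Z ^ 4 * ((2 * (Z ^ 10 * u)) ^ 3 * (Z * h0)) := by gcongr
      _ = 8 * Z ^ 31 * (u * u * (Z ^ 4 * u * h0)) := by ring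
      _ ≤ 8 * Z ^ 31 * (2 * N) := by gcongr
      _ = Z ^ 4 * (Z ^ 27 * 16 * N) := by ring
      _ ≤ Z ^ 4 * (Z ^ 27 * Z ^ 13 * N) := by
          gcongr
          calc 16 ≤ Z := by omega
            _ = Z ^ 1 := (pow_one Z).symm
            _ ≤ Z ^ 13 := Nat.pow_le_pow_right hZpos (by norm_num)
      _ = _ := by ring
  exact Nat.le_of_mul_le_mul_left c6 (by positivity)

end Vale.Agent.P037
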