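import Mathlib

namespace Vale.Agent.P037

/-- Number of ordered copies of the `k × k` pattern `H` in the `n × n` matrix `A`: choices of
increasing row indices and increasing column indices on which `A` agrees with `H`
(zeros as well as ones). -/
noncomputable def numCopies {k n : ℕ} (H : Matrix (Fin k) (Fin k) Bool)
    (A : Matrix (Fin n) (Fin n) Bool) : ℕ :=
  Nat.card {p : (Fin k → Fin n) × (Fin k → Fin n) //
    StrictMono p.1 ∧ StrictMono p.2 ∧ ∀ i j, A (p.1 i) (p.2 j) = H i j}

/-- Number of entries in which `A` and `B` differ. -/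
def entryDist {n : ℕ} (A B : Matrix (Fin n) (Fin n) Bool) : ℕ :=
  (Finset.univ.filter fun p : Fin n × Fin n => A p.1 p.2 ≠ B p.1 p.2).card

end Vale.Agent.P037
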