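import Vale.Agent.P037.NatMain
import Vale.Agent.P037.Defs

/-! Transfer between matrices over `Fin n` and functions on natural numbers. -/

namespace Vale.Agent.P037

open Finset

def idPat : Matrix (Fin 2) (Fin 2) Bool := !![true, false; false, true]

def antiPat : Matrix (Fin 2) (Fin 2) Bool := !![false, true; true, false]

/-- extension by `false` -/
def ext {n : ℕ} (A : Matrix (Fin n) (Fin n) Bool) : ℕ → ℕ → Bool :=
  fun r c => if h : r < n ∧ c < n then A ⟨r, h.1⟩ ⟨c, h.2⟩ else false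

/-- restriction -/
def res (n : ℕ) (B : ℕ → ℕ → Bool) : Matrix (Fin n) (Fin n) Bool := fun r c => B r.val c.val

theorem ext_val {n : ℕ} (A : Matrix (Fin n) (Fin n) Bool) (r c : Fin n) :
    ext A r.val c.val = A r c := by
  unfold ext
  rw [dif_pos ⟨r.isLt, c.isLt⟩]

theorem ext_mk {n : ℕ} (A : Matrix (Fin n) (Fin n) Bool) (r c : ℕ) (hr : r < n) (hc : c < n) :
    ext A r c = A ⟨r, hr⟩ ⟨c, hc⟩ := by
  unfold ext
  rw [dif_pos ⟨hr, hc⟩]

open Classical in
theorem numCopies_eq_card {k n : ℕ} (H : Matrix (Fin k) (Fin k) Bool)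
    (A : Matrix (Fin n) (Fin n) Bool) :
    numCopies H A = (univ.filter fun p : (Fin k → Fin n) × (Fin k → Fin n) =>
      StrictMono p.1 ∧ StrictMono p.2 ∧ ∀ i j, A (p.1 i) (p.2 j) = H i j).card := by
  unfold numCopies
  rw [Nat.card_eq_fintype_card, Fintype.card_subtype]

theorem free_res (n : ℕ) (B : ℕ → ℕ → Bool) (h : FreeN n B) : numCopies idPat (res n B) = 0 := by
  classical
  rw [numCopies_eq_card, card_eq_zero, filter_eq_empty_iff]
  intro p _ hp
  obtain ⟨h1, h2, h3⟩ := hp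
  have hr : p.1 0 < p.1 1 := h1 (by decide)
  have hc : p.2 0 < p.2 1 := h2 (by decide)
  apply h (p.1 0).val (p.1 1).val (p.2 0).val (p.2 1).val hr (p.1 1).isLt hc (p.2 1).isLt
  have e00 := h3 0 0
  have e01 := h3 0 1
  have e10 := h3 1 0
  have e11 := h3 1 1
  simp only [idPat, res] at e00 e01 e10 e11
  exact ⟨by simpa using e00, by simpa using e01, by simpa using e10, by simpa using e11⟩

theorem entryDist_le (n : ℕ) (A : Matrix (Fin n) (Fin n) Bool) (B : ℕ → ℕ → Bool) :
    entryDist A (res n B)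
      ≤ ((range n ×ˢ range n).filter fun p => ext A p.1 p.2 ≠ B p.1 p.2).card := by
  unfold entryDist
  apply card_le_card_of_injOn (fun p => (p.1.val, p.2.val))
  · intro p hp
    simp only [coe_filter, mem_univ, true_and, Set.mem_ofPred_eq] at hp
    simp only [coe_filter, mem_product, mem_range, Set.mem_ofPred_eq]
    refine ⟨⟨p.1.isLt, p.2.isLt⟩, ?_⟩
    rw [ext_val]
    exact hp
  · intro p _ q _ hpq
    simp only [Prod.mk.injEq] at hpq
    exact Prod.ext (Fin.ext hpq.1) (Fin.ext hpq.2)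

theorem cnt_le_numCopies (n : ℕ) (A : Matrix (Fin n) (Fin n) Bool) :
    cnt (ext A) n ≤ numCopies idPat A := by
  classical
  rw [numCopies_eq_card]
  set Pr := (range n ×ˢ range n).filter fun q => q.1 < q.2 with hPr
  set Vs : ℕ × ℕ → Finset (ℕ × ℕ) := fun q =>
    (typ (ext A) (range n) q.1 q.2 ×ˢ typ (ext A) (range n) q.2 q.1).filter fun x => x.1 < x.2
    with hVs
  have h1 : cnt (ext A) n = (Pr.sigma Vs).card := by
    rw [card_sigma, hPr, sum_filter]
    rfl
  rw [h1]
  have hsub : Pr.sigma Vs ⊆ (univ.filter fun p : (Fin 2 → Fin n) × (Fin 2 → Fin n) =>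
      StrictMono p.1 ∧ StrictMono p.2 ∧ ∀ i j, A (p.1 i) (p.2 j) = idPat i j).image
      (fun p => (⟨((p.2 0).val, (p.2 1).val), ((p.1 0).val, (p.1 1).val)⟩ :
        Sigma fun _ : ℕ × ℕ => ℕ × ℕ)) := by
    intro x hx
    obtain ⟨⟨c1, c2⟩, ⟨r1, r2⟩⟩ := x
    simp only [mem_sigma, hPr, hVs, typ, mem_filter, mem_product, mem_range] at hx
    obtain ⟨⟨⟨hc1, hc2⟩, hc⟩, ⟨⟨hr1, a11, a12⟩, ⟨hr2, a22, a21⟩⟩, hr⟩ := hx
    simp only [mem_image, mem_filter, mem_univ, true_and]
    refine ⟨(![⟨r1, hr1⟩, ⟨r2, hr2⟩], ![⟨c1, hc1⟩, ⟨c2, hc2⟩]), ⟨?_, ?_, ?_⟩, ?_⟩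
    · intro i j hij
      fin_cases i <;> fin_cases j <;> simp_all
    · intro i j hij
      fin_cases i <;> fin_cases j <;> simp_all
    · rw [ext_mk A _ _ hr1 hc1] at a11
      rw [ext_mk A _ _ hr1 hc2] at a12
      rw [ext_mk A _ _ hr2 hc1] at a21
      rw [ext_mk A _ _ hr2 hc2] at a22
      intro i j
      fin_cases i <;> fin_cases j <;> simp [idPat, a11, a12, a21, a22]
    · simp
  exact le_trans (card_le_card hsub) card_image_le

/-- entrywise complement -/
def compl {k l : ℕ} (A : Matrix (Fin k) (Fin l) Bool) : Matrix (Fin k) (Fin l) Bool :=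
  fun r c => !(A r c)

theorem bnot_eq (a b : Bool) : ((!a) = !b) ↔ a = b := by
  cases a <;> cases b <;> simp

theorem compl_compl {k l : ℕ} (A : Matrix (Fin k) (Fin l) Bool) : compl (compl A) = A := by
  funext r c
  simp [compl]

theorem numCopies_compl {k n : ℕ} (H : Matrix (Fin k) (Fin k) Bool)
    (A : Matrix (Fin n) (Fin n) Bool) : numCopies (compl H) (compl A) = numCopies H A := by
  unfold numCopies
  apply Nat.card_congr
  apply Equiv.subtypeEquivRight
  intro p
  have h : ∀ i j, (compl A (p.1 i) (p.2 j) = compl H i j ↔ A (p.1 i) (p.2 j) = H i j) := by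
    intro i j
    exact bnot_eq _ _
  simp only [h]

theorem entryDist_compl {n : ℕ} (A B : Matrix (Fin n) (Fin n) Bool) :
    entryDist (compl A) (compl B) = entryDist A B := by
  unfold entryDist
  congr 1
  apply filter_congr
  intro p _
  exact not_congr (bnot_eq _ _)

theorem compl_idPat : compl idPat = antiPat := by
  funext i j
  fin_cases i <;> fin_cases j <;> simp [compl, idPat, antiPat]

end Vale.Agent.P037
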