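import Vale.Agent.P037.GCore
import Vale.Agent.P037.GArith
import Vale.Agent.P037.Transfer

/-! The removal bound for the pattern `[[1,1],[1,0]]`. -/

namespace Vale.Agent.P037

open Finset

theorem cntG_pos_of_copy (A : ℕ → ℕ → Bool) (n r1 r2 c1 c2 : ℕ) (hr : r1 < r2) (hr2 : r2 < n)
    (hc : c1 < c2) (hc2 : c2 < n)
    (h : A r1 c1 = true ∧ A r1 c2 = true ∧ A r2 c1 = true ∧ A r2 c2 = false) : 0 < cntG A n := by
  have h1 : 0 < vpair A n (r1, r2) := by
    unfold vpair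
    rw [if_pos hr]
    unfold viol
    apply card_pos.mpr
    refine ⟨(c1, c2), ?_⟩
    unfold comm only
    simp only [mem_filter, mem_product, mem_range]
    exact ⟨⟨⟨lt_trans hc hc2, h.1, h.2.2.1⟩, ⟨hc2, h.2.1, h.2.2.2⟩⟩, hc⟩
  have h2 : vpair A n (r1, r2) ≤ cntG A n := by
    unfold cntG
    exact single_le_sum (f := fun q => vpair A n q) (fun _ _ => Nat.zero_le _)
      (mem_product.mpr ⟨mem_range.mpr (lt_trans hr hr2), mem_range.mpr hr2⟩)
  omega

theorem nat_mainG (A : ℕ → ℕ → Bool) (n Ke : ℕ) (hK : 0 < Ke) (hn : 0 < n)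
    (hfar : ∀ B : ℕ → ℕ → Bool, FreeG n B →
      n * n ≤ Ke * ((range n ×ˢ range n).filter fun p => A p.1 p.2 ≠ B p.1 p.2).card) :
    n ^ 4 ≤ (128 * Ke) ^ 40 * cntG A n := by
  set Z := 128 * Ke with hZ
  have hZpos : 0 < Z := by omega
  have hZ128 : 128 ≤ Z := by omega
  rcases lt_or_ge n (Z ^ 10) with hsmall | hbig
  · have hpos : 0 < cntG A n := by
      by_contra h0
      have hfree : FreeG n A := by
        intro r1 r2 c1 c2 hr hr2 hc hc2 h
        exact h0 (cntG_pos_of_copy A n r1 r2 c1 c2 hr hr2 hc hc2 h)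
      have := hfar A hfree
      simp only [ne_eq, not_true_eq_false, filter_false, card_empty, mul_zero] at this
      have h3 : 0 < n * n := Nat.mul_pos hn hn
      omega
    calc n ^ 4 ≤ (Z ^ 10) ^ 4 := Nat.pow_le_pow_left (le_of_lt hsmall) 4
      _ = Z ^ 40 * 1 := by ring
      _ ≤ Z ^ 40 * cntG A n := Nat.mul_le_mul_left _ hpos
  · set u := n / Z ^ 10 with hu
    have hZ10 : 0 < Z ^ 10 := by positivity
    have hupos : 0 < u := Nat.div_pos hbig hZ10
    have h1 : Z ^ 10 * u ≤ n := Nat.mul_div_le n (Z ^ 10)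
    have h2 : n < 2 * (Z ^ 10 * u) := by
      have := Nat.lt_mul_div_succ n hZ10
      have e : Z ^ 10 * (n / Z ^ 10 + 1) = Z ^ 10 * u + Z ^ 10 := by rw [← hu]; ring
      have e2 : Z ^ 10 * 1 ≤ Z ^ 10 * u := Nat.mul_le_mul_left _ hupos
      omega
    have hM : 0 < Z ^ 8 * u := by positivity
    have hw : 0 < Z ^ 9 * u := by positivity
    have ht : n / (Z ^ 8 * u) + 1 ≤ 2 * Z ^ 2 := by
      have : n / (Z ^ 8 * u) < 2 * Z ^ 2 := by
        rw [Nat.div_lt_iff_lt_mul hM]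
        calc n < 2 * (Z ^ 10 * u) := h2
          _ = 2 * Z ^ 2 * (Z ^ 8 * u) := by ring
      omega
    have hl : n / (2 * (Z ^ 9 * u)) + 1 ≤ Z := by
      have : n / (2 * (Z ^ 9 * u)) < Z := by
        rw [Nat.div_lt_iff_lt_mul (by positivity)]
        calc n < 2 * (Z ^ 10 * u) := h2
          _ = Z * (2 * (Z ^ 9 * u)) := by ring
      omega
    have hK1 : 2 * n ≤ Z ^ 9 * u * (4 * Z) := by
      have e : Z ^ 9 * u * (4 * Z) = 4 * (Z ^ 10 * u) := by ring
      omega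
    have hK2 : 4 * Z * (4 * Z) * (u * u) < 2 * (Z ^ 9 * u) * n := by
      have h8 : 8 < Z ^ 17 := by
        calc 8 < Z := by omega
          _ = Z ^ 1 := (pow_one Z).symm
          _ ≤ Z ^ 17 := Nat.pow_le_pow_right hZpos (by norm_num)
      calc 4 * Z * (4 * Z) * (u * u) = 8 * (2 * Z ^ 2 * (u * u)) := by ring
        _ < Z ^ 17 * (2 * Z ^ 2 * (u * u)) := Nat.mul_lt_mul_of_pos_right h8 (by positivity)
        _ = 2 * (Z ^ 9 * u) * (Z ^ 10 * u) := by ring
        _ ≤ 2 * (Z ^ 9 * u) * n := Nat.mul_le_mul_left _ h1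
    obtain ⟨B, h0, R, dd, add, hfree, hD, hh0, hR, hdd, hadd⟩ :=
      coreG A n (Z ^ 8 * u) (Z ^ 9 * u) (u * u) (Z ^ 4 * u) u (Z ^ 9 * u) (4 * Z) hw hM hK1 hK2
    exact arithG Ke Z u n (cntG A n) _ h0 R dd add _ _ hZ hK hupos h1 h2 ht hl hD (hfar B hfree)
      hh0 hR hdd hadd

def gamPat : Matrix (Fin 2) (Fin 2) Bool := !![true, true; true, false]

theorem free_resG (n : ℕ) (B : ℕ → ℕ → Bool) (h : FreeG n B) :
    numCopies gamPat (res n B) = 0 := by
  classical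
  rw [numCopies_eq_card, card_eq_zero, filter_eq_empty_iff]
  intro p _ hp
  obtain ⟨h1, h2, h3⟩ := hp
  have hr : p.1 0 < p.1 1 := h1 (by decide)
  have hc : p.2 0 < p.2 1 := h2 (by decide)
  apply h (p.1 0).val (p.1 1).val (p.2 0).val (p.2 1).val hr (p.1 1).isLt hc (p.2 1).isLt
  have e00 := h3 0 0
  have e01 := h3 0 1
  have e10 := h3 1 0
  have e11 := h3 1 1
  simp only [gamPat, res] at e00 e01 e10 e11
  exact ⟨by simpa using e00, by simpa using e01, by simpa using e10, by simpa using e11⟩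

theorem cntG_le_numCopies (n : ℕ) (A : Matrix (Fin n) (Fin n) Bool) :
    cntG (ext A) n ≤ numCopies gamPat A := by
  classical
  rw [numCopies_eq_card]
  set Pr := (range n ×ˢ range n).filter fun q => q.1 < q.2 with hPr
  set Vs : ℕ × ℕ → Finset (ℕ × ℕ) := fun q =>
    (comm (ext A) n q.1 q.2 ×ˢ only (ext A) n q.1 q.2).filter fun x => x.1 < x.2
    with hVs
  have h1 : cntG (ext A) n = (Pr.sigma Vs).card := by
    rw [card_sigma, hPr, sum_filter]
    rfl
  rw [h1]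
  have hsub : Pr.sigma Vs ⊆ (univ.filter fun p : (Fin 2 → Fin n) × (Fin 2 → Fin n) =>
      StrictMono p.1 ∧ StrictMono p.2 ∧ ∀ i j, A (p.1 i) (p.2 j) = gamPat i j).image
      (fun p => (⟨((p.1 0).val, (p.1 1).val), ((p.2 0).val, (p.2 1).val)⟩ :
        Sigma fun _ : ℕ × ℕ => ℕ × ℕ)) := by
    intro x hx
    obtain ⟨⟨r1, r2⟩, ⟨c1, c2⟩⟩ := x
    simp only [mem_sigma, hPr, hVs, comm, only, mem_filter, mem_product, mem_range] at hx
    obtain ⟨⟨⟨hr1, hr2⟩, hr⟩, ⟨⟨hc1, a11, a21⟩, ⟨hc2, a12, a22⟩⟩, hc⟩ := hx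
    simp only [mem_image, mem_filter, mem_univ, true_and]
    refine ⟨(![⟨r1, hr1⟩, ⟨r2, hr2⟩], ![⟨c1, hc1⟩, ⟨c2, hc2⟩]), ⟨?_, ?_, ?_⟩, ?_⟩
    · intro i j hij
      fin_cases i <;> fin_cases j <;> simp_all
    · intro i j hij
      fin_cases i <;> fin_cases j <;> simp_all
    · rw [ext_mk A _ _ hr1 hc1] at a11
      rw [ext_mk A _ _ hr1 hc2] at a12
      rw [ext_mk A _ _ hr2 hc1] at a21
      rw [ext_mk A _ _ hr2 hc2] at a22
      intro i j
      fin_cases i <;> fin_cases j <;> simp [gamPat, a11, a12, a21, a22]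
    · simp
  exact le_trans (card_le_card hsub) card_image_le

theorem removal_gam (n : ℕ) (ε : ℝ) (A : Matrix (Fin n) (Fin n) Bool) (hn : 1 ≤ n) (h0 : 0 < ε)
    (h1 : ε < 1)
    (hfar : ∀ B : Matrix (Fin n) (Fin n) Bool, numCopies gamPat B = 0 →
      ε * (n : ℝ) ^ 2 ≤ (entryDist A B : ℝ)) :
    (ε / 256) ^ 40 * (n : ℝ) ^ 4 ≤ (numCopies gamPat A : ℝ) := by
  set K := ⌈1 / ε⌉₊ with hKdef
  have hinv : 0 < 1 / ε := by positivity
  have hK : 0 < K := Nat.ceil_pos.mpr hinv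
  have hK1 : 1 / ε ≤ (K : ℝ) := Nat.le_ceil _
  have hK2 : (K : ℝ) ≤ 2 / ε := by
    have a1 : (K : ℝ) < 1 / ε + 1 := Nat.ceil_lt_add_one (le_of_lt hinv)
    have a2 : 1 ≤ 1 / ε := by
      rw [le_div_iff₀ h0]
      linarith
    have a3 : 2 / ε = 1 / ε + 1 / ε := by ring
    linarith
  have key := nat_mainG (ext A) n K hK hn (by
    intro B hB
    have a1 := hfar (res n B) (free_resG n B hB)
    have a2 : (entryDist A (res n B) : ℝ)
        ≤ (((range n ×ˢ range n).filter fun p => ext A p.1 p.2 ≠ B p.1 p.2).card : ℝ) := by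
      exact_mod_cast entryDist_le n A B
    have a3 : ((n * n : ℕ) : ℝ)
        ≤ ((K * ((range n ×ˢ range n).filter fun p => ext A p.1 p.2 ≠ B p.1 p.2).card : ℕ) : ℝ) := by
      push_cast
      calc (n : ℝ) * n = (1 / ε) * (ε * (n : ℝ) ^ 2) := by field_simp
        _ ≤ (K : ℝ) * (((range n ×ˢ range n).filter fun p =>
              ext A p.1 p.2 ≠ B p.1 p.2).card : ℝ) := by
            apply mul_le_mul hK1 (le_trans a1 a2) (by positivity) (by positivity)
    exact_mod_cast a3)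
  have key2 : ((n : ℝ)) ^ 4 ≤ (128 * (K : ℝ)) ^ 40 * (cntG (ext A) n : ℝ) := by
    exact_mod_cast key
  have hle : (cntG (ext A) n : ℝ) ≤ (numCopies gamPat A : ℝ) := by
    exact_mod_cast cntG_le_numCopies n A
  have hprod : (ε / 256) * (128 * (K : ℝ)) ≤ 1 := by
    calc (ε / 256) * (128 * (K : ℝ)) ≤ (ε / 256) * (128 * (2 / ε)) := by gcongr
      _ = 1 := by field_simp; norm_num
  have hprod0 : 0 ≤ (ε / 256) * (128 * (K : ℝ)) := by positivity
  calc (ε / 256) ^ 40 * (n : ℝ) ^ 4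
      ≤ (ε / 256) ^ 40 * ((128 * (K : ℝ)) ^ 40 * (cntG (ext A) n : ℝ)) := by gcongr
    _ = ((ε / 256) * (128 * (K : ℝ))) ^ 40 * (cntG (ext A) n : ℝ) := by rw [mul_pow]; ring
    _ ≤ 1 * (cntG (ext A) n : ℝ) := by
        gcongr
        exact pow_le_one₀ hprod0 hprod
    _ = (cntG (ext A) n : ℝ) := one_mul _
    _ ≤ _ := hle

end Vale.Agent.P037
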