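import Vale.Agent.P037.EqRows2
import Vale.Agent.P037.GNatMain
import Vale.Agent.P037.Final

/-! All sixteen `2 × 2` patterns. -/

namespace Vale.Agent.P037

theorem rem_id : Removal idPat 256 44 :=
  Removal.mono (a := 136) (C := 44) removal_id (by norm_num) (by norm_num) (le_refl _)

theorem rem_gam : Removal gamPat 256 44 :=
  Removal.mono (a := 256) (C := 40) removal_gam (by norm_num) (le_refl _) (by norm_num)

theorem rem_eq (a b : Bool) : Removal (eqPat a b) 256 44 :=
  Removal.mono (removal_eq a b) (by norm_num) (by norm_num) (by norm_num)

theorem rem_congr {H H' : Matrix (Fin 2) (Fin 2) Bool} (h : ∀ i j, H i j = H' i j)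
    (hr : Removal H' 256 44) : Removal H 256 44 := by
  have e : H = H' := by
    funext i j
    exact h i j
  rw [e]
  exact hr

theorem rem_all16 (a b c d : Bool) : Removal !![a, b; c, d] 256 44 := by
  cases a <;> cases b <;> cases c <;> cases d
  · exact rem_congr (H' := eqPat false false)
      (by intro i j; fin_cases i <;> fin_cases j <;> rfl) (rem_eq _ _)
  · exact rem_congr (H' := compl gamPat)
      (by intro i j; fin_cases i <;> fin_cases j <;> rfl) rem_gam.compl
  · exact rem_congr (H' := compl (revC gamPat))
      (by intro i j; fin_cases i <;> fin_cases j <;> rfl) rem_gam.revC.compl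
  · exact rem_congr (H' := trp (eqPat false true))
      (by intro i j; fin_cases i <;> fin_cases j <;> rfl) (rem_eq _ _).trp
  · exact rem_congr (H' := compl (revR gamPat))
      (by intro i j; fin_cases i <;> fin_cases j <;> rfl) rem_gam.revR.compl
  · exact rem_congr (H' := eqPat false true)
      (by intro i j; fin_cases i <;> fin_cases j <;> rfl) (rem_eq _ _)
  · exact rem_congr (H' := compl idPat)
      (by intro i j; fin_cases i <;> fin_cases j <;> rfl) rem_id.compl
  · exact rem_congr (H' := revR (revC gamPat))
      (by intro i j; fin_cases i <;> fin_cases j <;> rfl) rem_gam.revC.revR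
  · exact rem_congr (H' := compl (revR (revC gamPat)))
      (by intro i j; fin_cases i <;> fin_cases j <;> rfl) rem_gam.revC.revR.compl
  · exact rem_congr (H' := idPat)
      (by intro i j; fin_cases i <;> fin_cases j <;> rfl) rem_id
  · exact rem_congr (H' := eqPat true false)
      (by intro i j; fin_cases i <;> fin_cases j <;> rfl) (rem_eq _ _)
  · exact rem_congr (H' := revR gamPat)
      (by intro i j; fin_cases i <;> fin_cases j <;> rfl) rem_gam.revR
  · exact rem_congr (H' := trp (eqPat true false))
      (by intro i j; fin_cases i <;> fin_cases j <;> rfl) (rem_eq _ _).trp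
  · exact rem_congr (H' := revC gamPat)
      (by intro i j; fin_cases i <;> fin_cases j <;> rfl) rem_gam.revC
  · exact rem_congr (H' := gamPat)
      (by intro i j; fin_cases i <;> fin_cases j <;> rfl) rem_gam
  · exact rem_congr (H' := eqPat true true)
      (by intro i j; fin_cases i <;> fin_cases j <;> rfl) (rem_eq _ _)

theorem rem_all (H : Matrix (Fin 2) (Fin 2) Bool) : Removal H 256 44 := by
  have e := Matrix.eta_fin_two H
  rw [e]
  exact rem_all16 _ _ _ _

end Vale.Agent.P037
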