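import Mathlib

/-! Parameter arithmetic. -/

namespace Vale.Agent.P037

theorem arith (K Z u n N D E1 E2 d1 d2 t : ℕ) (hZ : Z = 68 * K) (hK : 0 < K) (hu : 0 < u)
    (h1 : Z ^ 11 * u ≤ n) (h2 : n < 2 * (Z ^ 11 * u)) (ht : t ≤ 2 * Z ^ 4)
    (hD : D ≤ E1 + E2 + n * (d1 + d2)) (hfar : n * n ≤ K * D)
    (hE1 : (Z ^ 6 * u) * (Z ^ 9 * u) * E1
      ≤ t * (2 * n * ((Z ^ 6 * u) * (Z ^ 6 * u)) * (Z ^ 9 * u)
          + 2 * ((Z ^ 7 * u) * (Z ^ 7 * u)) * ((Z ^ 9 * u) * (Z ^ 9 * u)))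
        + 4 * N + 4 * (Z ^ 7 * u) * (Z ^ 7 * u) * (n * n))
    (hE2 : E2 ≤ t * (n * (Z ^ 6 * u)))
    (hd1 : (Z ^ 6 * u) * d1 ≤ 2 * (Z * u) * (t * n))
    (hd2 : (2 * (Z * u)) * (2 * (Z * u)) * u * d2
      ≤ t * t * ((Z + 1) * (Z + 1)) * ((2 * (Z * u)) * (2 * (Z * u)) * u * u + N)) :
    n ^ 4 ≤ Z ^ 44 * N := by
  have hZpos : 0 < Z := by omega
  have hn : 0 < n := lt_of_lt_of_le (by positivity) h1
  -- (1)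
  have b1 : Z ^ 15 * u ^ 3 * E1 ≤ 12 * Z ^ 14 * u ^ 3 * (n * n) + 4 * u * N := by
    have e1 : Z ^ 15 * u ^ 2 * E1 ≤ 12 * Z ^ 14 * u ^ 2 * (n * n) + 4 * N := by
      calc Z ^ 15 * u ^ 2 * E1 = (Z ^ 6 * u) * (Z ^ 9 * u) * E1 := by ring
        _ ≤ _ := hE1
        _ ≤ (2 * Z ^ 4) * (2 * n * ((Z ^ 6 * u) * (Z ^ 6 * u)) * (Z ^ 9 * u)
          + 2 * ((Z ^ 7 * u) * (Z ^ 7 * u)) * ((Z ^ 9 * u) * (Z ^ 9 * u)))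
          + 4 * N + 4 * (Z ^ 7 * u) * (Z ^ 7 * u) * (n * n) := by gcongr
        _ = 4 * Z ^ 14 * u ^ 2 * ((Z ^ 11 * u) * n) + 4 * Z ^ 14 * u ^ 2 * ((Z ^ 11 * u) * (Z ^ 11 * u))
          + 4 * N + 4 * Z ^ 14 * u ^ 2 * (n * n) := by ring
        _ ≤ 4 * Z ^ 14 * u ^ 2 * (n * n) + 4 * Z ^ 14 * u ^ 2 * (n * n)
          + 4 * N + 4 * Z ^ 14 * u ^ 2 * (n * n) := by gcongr
        _ = _ := by ring
    calc Z ^ 15 * u ^ 3 * E1 = u * (Z ^ 15 * u ^ 2 * E1) := by ring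
      _ ≤ u * (12 * Z ^ 14 * u ^ 2 * (n * n) + 4 * N) := by gcongr
      _ = _ := by ring
  -- (2)
  have b2 : Z ^ 15 * u ^ 3 * E2 ≤ 2 * Z ^ 14 * u ^ 3 * (n * n) := by
    calc Z ^ 15 * u ^ 3 * E2 ≤ Z ^ 15 * u ^ 3 * ((2 * Z ^ 4) * (n * (Z ^ 6 * u))) := by
          apply Nat.mul_le_mul_left
          exact le_trans hE2 (by gcongr)
      _ = 2 * Z ^ 14 * u ^ 3 * ((Z ^ 11 * u) * n) := by ring
      _ ≤ _ := by gcongr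
  -- (3)
  have b3 : Z ^ 15 * u ^ 3 * (n * d1) ≤ 4 * Z ^ 14 * u ^ 3 * (n * n) := by
    calc Z ^ 15 * u ^ 3 * (n * d1) = Z ^ 9 * u ^ 2 * n * ((Z ^ 6 * u) * d1) := by ring
      _ ≤ Z ^ 9 * u ^ 2 * n * (2 * (Z * u) * ((2 * Z ^ 4) * n)) := by
          apply Nat.mul_le_mul_left
          exact le_trans hd1 (by gcongr)
      _ = _ := by ring
  -- (4)
  have b4 : Z ^ 15 * u ^ 3 * (n * d2) ≤ 16 * Z ^ 14 * u ^ 3 * (n * n) + 4 * Z ^ 23 * n * N := by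
    have hZ1 : Z + 1 ≤ 2 * Z := by omega
    have e4 : 4 * (Z ^ 2 * u ^ 3 * d2) ≤ 4 * (16 * Z ^ 12 * u ^ 4 + 4 * Z ^ 10 * N) := by
      calc 4 * (Z ^ 2 * u ^ 3 * d2) = (2 * (Z * u)) * (2 * (Z * u)) * u * d2 := by ring
        _ ≤ _ := hd2
        _ ≤ (2 * Z ^ 4) * (2 * Z ^ 4) * ((2 * Z) * (2 * Z))
            * ((2 * (Z * u)) * (2 * (Z * u)) * u * u + N) := by gcongr
        _ = _ := by ring
    have e4' : Z ^ 2 * u ^ 3 * d2 ≤ 16 * Z ^ 12 * u ^ 4 + 4 * Z ^ 10 * N := by omega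
    calc Z ^ 15 * u ^ 3 * (n * d2) = Z ^ 13 * n * (Z ^ 2 * u ^ 3 * d2) := by ring
      _ ≤ Z ^ 13 * n * (16 * Z ^ 12 * u ^ 4 + 4 * Z ^ 10 * N) := by gcongr
      _ = 16 * Z ^ 14 * u ^ 3 * ((Z ^ 11 * u) * n) + 4 * Z ^ 23 * n * N := by ring
      _ ≤ _ := by gcongr
  -- combine
  have c1 : Z ^ 15 * u ^ 3 * D ≤ 34 * Z ^ 14 * u ^ 3 * (n * n) + (4 * u + 4 * Z ^ 23 * n) * N := by
    calc Z ^ 15 * u ^ 3 * D ≤ Z ^ 15 * u ^ 3 * (E1 + E2 + n * (d1 + d2)) := by gcongr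
      _ = Z ^ 15 * u ^ 3 * E1 + Z ^ 15 * u ^ 3 * E2 + Z ^ 15 * u ^ 3 * (n * d1)
          + Z ^ 15 * u ^ 3 * (n * d2) := by ring
      _ ≤ (12 * Z ^ 14 * u ^ 3 * (n * n) + 4 * u * N) + 2 * Z ^ 14 * u ^ 3 * (n * n)
          + 4 * Z ^ 14 * u ^ 3 * (n * n) + (16 * Z ^ 14 * u ^ 3 * (n * n) + 4 * Z ^ 23 * n * N) := by
          gcongr
      _ = _ := by ring
  have c2 : 2 * (Z ^ 15 * u ^ 3 * (n * n))
      ≤ Z ^ 15 * u ^ 3 * (n * n) + 2 * K * (4 * u + 4 * Z ^ 23 * n) * N := by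
    calc 2 * (Z ^ 15 * u ^ 3 * (n * n)) ≤ 2 * (Z ^ 15 * u ^ 3 * (K * D)) := by gcongr
      _ = 2 * K * (Z ^ 15 * u ^ 3 * D) := by ring
      _ ≤ 2 * K * (34 * Z ^ 14 * u ^ 3 * (n * n) + (4 * u + 4 * Z ^ 23 * n) * N) := by gcongr
      _ = (68 * K) * Z ^ 14 * u ^ 3 * (n * n) + 2 * K * (4 * u + 4 * Z ^ 23 * n) * N := by ring
      _ = _ := by rw [← hZ]; ring
  have c3 : Z ^ 15 * u ^ 3 * (n * n) ≤ 2 * K * (4 * u + 4 * Z ^ 23 * n) * N := by omega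
  have hun : u ≤ Z ^ 23 * n := by
    calc u = 1 * u := (one_mul u).symm
      _ ≤ Z ^ 11 * u := by gcongr; exact Nat.one_le_pow _ _ hZpos
      _ ≤ n := h1
      _ = 1 * n := (one_mul n).symm
      _ ≤ Z ^ 23 * n := by gcongr; exact Nat.one_le_pow _ _ hZpos
  have c4 : n * (Z ^ 15 * u ^ 3 * n) ≤ n * (16 * K * Z ^ 23 * N) := by
    calc n * (Z ^ 15 * u ^ 3 * n) = Z ^ 15 * u ^ 3 * (n * n) := by ring
      _ ≤ _ := c3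
      _ ≤ 2 * K * (4 * (Z ^ 23 * n) + 4 * Z ^ 23 * n) * N := by gcongr
      _ = _ := by ring
  have c5 : Z ^ 15 * u ^ 3 * n ≤ 16 * K * Z ^ 23 * N := Nat.le_of_mul_le_mul_left c4 hn
  have c6 : Z ^ 15 * n ^ 4 ≤ Z ^ 15 * (Z ^ 44 * N) := by
    calc Z ^ 15 * n ^ 4 = Z ^ 15 * (n ^ 3 * n) := by ring
      _ ≤ Z ^ 15 * ((2 * (Z ^ 11 * u)) ^ 3 * n) := by gcongr
      _ = 8 * Z ^ 33 * (Z ^ 15 * u ^ 3 * n) := by ring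
      _ ≤ 8 * Z ^ 33 * (16 * K * Z ^ 23 * N) := by gcongr
      _ = Z ^ 15 * (Z ^ 41 * (128 * K) * N) := by ring
      _ ≤ Z ^ 15 * (Z ^ 41 * (Z ^ 3) * N) := by
          gcongr
          calc 128 * K ≤ 68 * K * 2 := by omega
            _ = Z * 2 := by rw [hZ]
            _ ≤ Z * Z := by gcongr; omega
            _ = Z * Z * 1 := by ring
            _ ≤ Z * Z * Z := by gcongr; omega
            _ = Z ^ 3 := by ring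
      _ = _ := by ring
  exact Nat.le_of_mul_le_mul_left c6 (by positivity)

end Vale.Agent.P037
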