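import Vale.Agent.P037.Quad2

/-! Exact tie-closure: a matrix on pivot rows avoiding `[[1,1],[1,0]]` can be changed a little so that
it avoids the pattern even when rows of a common strip are regarded as tied. -/

namespace Vale.Agent.P037

open Finset

open Classical in
theorem tie_closure (Pi : Finset ℕ) (n M th : ℕ) (E' : ℕ → ℕ → Bool)
    (hG : ∀ p ∈ Pi, ∀ p' ∈ Pi, p < p' → ∀ c1 c2, c1 < c2 → c2 < n →
      E' p c1 = true → E' p c2 = true → E' p' c1 = true → E' p' c2 = true) :
    ∃ BP : ℕ → ℕ → Bool,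
      (∀ p1 ∈ Pi, ∀ p2 ∈ Pi, p1 / M ≤ p2 / M → ∀ c1 c2, c1 < c2 → c2 < n →
        BP p1 c1 = true → BP p1 c2 = true → BP p2 c1 = true → BP p2 c2 = true) ∧
      (∀ p ∈ Pi, ((Finset.range n).filter fun c => E' p c = true ∧ BP p c = false).card ≤ th) ∧
      (∀ y, y < n → th * ((Pi.filter fun p => BP p y = true ∧ E' p y = false).image
        (fun p => p / M)).card ≤ n) := by
  set os : ℕ → Finset ℕ := fun p => (range n).filter fun c => E' p c = true with hos
  set E : ℕ → ℕ → Bool := fun p c => E' p c && decide (th ≤ ((os p).filter fun y => y < c).card)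
    with hE
  have hE1 : ∀ p c, E p c = true ↔ (E' p c = true ∧ th ≤ ((os p).filter fun y => y < c).card) := by
    intro p c
    simp only [hE, Bool.and_eq_true, decide_eq_true_eq]
  set TR : ℕ → ℕ → ℕ ⊕ ℕ → ℕ ⊕ ℕ → Prop := fun i y =>
    QReach E (fun x => x ∈ Pi ∧ x / M ≤ i) (fun x => x ≤ y) with hTR
  set BP : ℕ → ℕ → Bool := fun p y => decide (TR (p / M) y (Sum.inl p) (Sum.inr y)) with hBP
  have hBP1 : ∀ p y, BP p y = true ↔ TR (p / M) y (Sum.inl p) (Sum.inr y) := by
    intro p y
    simp only [hBP, decide_eq_true_eq]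
  refine ⟨BP, ?_, ?_, ?_⟩
  · intro p1 _ p2 _ hdiv c1 c2 hc _ h11 h12 h21
    rw [hBP1] at h11 h12 h21 ⊢
    have m11 : TR (p2 / M) c2 (Sum.inl p1) (Sum.inr c1) :=
      QReach_mono (fun x (h : x ∈ Pi ∧ x / M ≤ p1 / M) => ⟨h.1, le_trans h.2 hdiv⟩)
        (fun x (h : x ≤ c1) => by omega) (fun _ _ h => h) h11
    have m12 : TR (p2 / M) c2 (Sum.inl p1) (Sum.inr c2) :=
      QReach_mono (fun x (h : x ∈ Pi ∧ x / M ≤ p1 / M) => ⟨h.1, le_trans h.2 hdiv⟩)
        (fun _ h => h) (fun _ _ h => h) h12
    have m21 : TR (p2 / M) c2 (Sum.inl p2) (Sum.inr c1) :=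
      QReach_mono (fun _ h => h) (fun x (h : x ≤ c1) => by omega) (fun _ _ h => h) h21
    exact QReach_trans E _ _ m21 (QReach_trans E _ _ (QReach_symm E _ _ m11) m12)
  · intro p hp
    have hsub : ((range n).filter fun c => E' p c = true ∧ BP p c = false) ⊆ xlo (os p) th := by
      intro c hc
      simp only [mem_filter] at hc
      obtain ⟨hcn, hc1, hc2⟩ := hc
      unfold xlo
      refine mem_filter.mpr ⟨mem_filter.mpr ⟨hcn, hc1⟩, ?_⟩
      by_contra hlt
      have hEc : E p c = true := (hE1 p c).mpr ⟨hc1, not_lt.mp hlt⟩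
      have : BP p c = true :=
        (hBP1 p c).mpr (QReach_edge E _ _ ⟨hp, le_refl _⟩ (le_refl c) hEc)
      rw [this] at hc2
      exact absurd hc2 (by simp)
    exact le_trans (card_le_card hsub) (card_xlo_le _ _)
  · intro y hy
    set Wt := Pi.filter fun p => BP p y = true ∧ E' p y = false with hWt
    set I := Wt.image fun p => p / M with hI
    have hwit : ∀ i ∈ I, ∃ p, p ∈ Wt ∧ p / M = i := by
      intro i hi
      obtain ⟨p, hp, rfl⟩ := mem_image.mp hi
      exact ⟨p, hp, rfl⟩
    set wit : ℕ → ℕ := fun i => if h : i ∈ I then Classical.choose (hwit i h) else 0 with hwitdef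
    have hwit1 : ∀ i ∈ I, wit i ∈ Wt ∧ wit i / M = i := by
      intro i hi
      simp only [hwitdef, dif_pos hi]
      exact Classical.choose_spec (hwit i hi)
    -- every witness has an edge
    have hedge : ∀ p ∈ Wt, ∃ c1, c1 ≤ y ∧ E p c1 = true := by
      intro p hp
      have hp1 := (mem_filter.mp hp).2.1
      rw [hBP1] at hp1
      rcases Relation.ReflTransGen.cases_head hp1 with h | ⟨z, hz, _⟩
      · exact absurd h (by simp)
      · cases z with
        | inl x => simp [QAdj] at hz
        | inr x => exact ⟨x, hz.2.1, hz.2.2⟩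
    have hcardF : ∀ i ∈ I, (xlo (os (wit i)) th).card = th := by
      intro i hi
      obtain ⟨c1, _, hc1⟩ := hedge _ (hwit1 i hi).1
      have h1 := ((hE1 _ _).mp hc1).2
      have h2 : th ≤ (os (wit i)).card := le_trans h1 (card_filter_le _ _)
      exact card_rk_lt_eq (os (wit i)) id (Set.injOn_id _) h2
    have hdisj_lt : ∀ i ∈ I, ∀ i' ∈ I, i < i' →
        Disjoint (xlo (os (wit i)) th) (xlo (os (wit i')) th) := by
      intro i hi i' hi' hlt
      rw [disjoint_left]
      intro c hc hc'
      obtain ⟨hpW, hpi⟩ := hwit1 i hi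
      obtain ⟨hpW', hpi'⟩ := hwit1 i' hi'
      set p := wit i with hp
      set p' := wit i' with hp'
      have hpPi : p ∈ Pi := (mem_filter.mp hpW).1
      have hpPi' : p' ∈ Pi := (mem_filter.mp hpW').1
      have hdivlt : ∀ x, x / M ≤ i → x < p' := by
        intro x hx
        by_contra hcon
        have := Nat.div_le_div_right (c := M) (not_lt.mp hcon)
        omega
      have hpp' : p < p' := hdivlt p (le_of_eq hpi)
      unfold xlo at hc hc'
      have hc1 := mem_filter.mp hc
      have hc1' := mem_filter.mp hc'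
      have hEc : E' p c = true := (mem_filter.mp hc1.1).2
      have hEc' : E' p' c = true := (mem_filter.mp hc1'.1).2
      obtain ⟨c1, hc1y, hEc1⟩ := hedge p hpW
      have hEc1' := (hE1 _ _).mp hEc1
      have hcc1 : c < c1 := by
        by_contra hcon
        have : ((os p).filter fun y => y < c1).card ≤ ((os p).filter fun y => y < c).card := by
          apply card_le_card
          intro z hz
          simp only [mem_filter] at hz ⊢
          exact ⟨hz.1, lt_of_lt_of_le hz.2 (not_lt.mp hcon)⟩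
        have := hc1.2
        omega
      have hnew : E' p' c1 = true :=
        hG p hpPi p' hpPi' hpp' c c1 hcc1 (lt_of_le_of_lt hc1y hy) hEc hEc1'.1 hEc'
      have hreach : TR (p / M) y (Sum.inl p) (Sum.inr y) := (hBP1 p y).mp (mem_filter.mp hpW).2.1
      have hreach2 : QReach E' (fun x => x ∈ Pi ∧ x ≤ p') (fun x => x ≤ y) (Sum.inl p) (Sum.inr y) :=
        QReach_mono
          (fun x (h : x ∈ Pi ∧ x / M ≤ p / M) => ⟨h.1, le_of_lt (hdivlt x (by rw [← hpi]; exact h.2))⟩)
          (fun _ h => h) (fun a b h => ((hE1 a b).mp h).1) hreach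
      have q1 : QReach E' (fun x => x ∈ Pi ∧ x ≤ p') (fun x => x ≤ y) (Sum.inl p') (Sum.inr c1) :=
        QReach_edge E' _ _ ⟨hpPi', le_refl _⟩ hc1y hnew
      have q2 : QReach E' (fun x => x ∈ Pi ∧ x ≤ p') (fun x => x ≤ y) (Sum.inl p) (Sum.inr c1) :=
        QReach_edge E' _ _ ⟨hpPi, le_of_lt hpp'⟩ hc1y hEc1'.1
      have q3 := QReach_trans E' _ _ q1 (QReach_trans E' _ _ (QReach_symm E' _ _ q2) hreach2)
      have := quad_adj E' Pi n hG (p' + y) p' y rfl hpPi' hy q3
      rw [(mem_filter.mp hpW').2.2] at this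
      exact absurd this (by simp)
    have hdisj : ∀ i ∈ I, ∀ i' ∈ I, i ≠ i' →
        Disjoint (xlo (os (wit i)) th) (xlo (os (wit i')) th) := by
      intro i hi i' hi' hne
      rcases lt_or_gt_of_ne hne with h | h
      · exact hdisj_lt i hi i' hi' h
      · exact (hdisj_lt i' hi' i hi h).symm
    have hcard : (I.biUnion fun i => xlo (os (wit i)) th).card = ∑ i ∈ I, (xlo (os (wit i)) th).card :=
      card_biUnion hdisj
    have hsubn : (I.biUnion fun i => xlo (os (wit i)) th) ⊆ range n := by
      intro c hc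
      obtain ⟨i, _, hci⟩ := mem_biUnion.mp hc
      unfold xlo at hci
      exact (mem_filter.mp (mem_filter.mp hci).1).1
    calc th * I.card = ∑ _i ∈ I, th := by rw [sum_const, smul_eq_mul]; ring
      _ = ∑ i ∈ I, (xlo (os (wit i)) th).card := by
          apply sum_congr rfl
          intro i hi
          exact (hcardF i hi).symm
      _ = (I.biUnion fun i => xlo (os (wit i)) th).card := hcard.symm
      _ ≤ (range n).card := card_le_card hsubn
      _ = n := card_range n

end Vale.Agent.P037
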