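import Vale.Agent.P037.Cross

/-! Assembly: every matrix is close to a pattern-free matrix, up to a multiple of the number of
copies. -/

namespace Vale.Agent.P037

open Finset

variable (A : ℕ → ℕ → Bool)

def key (n r : ℕ) : ℕ := (n - rowsz A (range n) r) * n + r

theorem rowsz_le (n r : ℕ) : rowsz A (range n) r ≤ n := by
  unfold rowsz
  calc _ ≤ (range n).card := card_filter_le _ _
    _ = n := card_range n

theorem key_injOn (n : ℕ) (S : Finset ℕ) (hS : S ⊆ range n) : Set.InjOn (key A n) S := by
  intro x hx y hy hxy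
  have hx' := mem_range.mp (hS hx)
  have hy' := mem_range.mp (hS hy)
  unfold key at hxy
  have h := congrArg (fun z => z % n) hxy
  simp only [Nat.mul_add_mod_self_right, Nat.mod_eq_of_lt hx', Nat.mod_eq_of_lt hy'] at h
  exact h

theorem key_mono (n r r' : ℕ) (hr : r < n) (h : key A n r' < key A n r) :
    rowsz A (range n) r ≤ rowsz A (range n) r' := by
  by_contra hh
  unfold key at h
  have h1 := rowsz_le A n r
  have h2 : (n - rowsz A (range n) r) + 1 ≤ n - rowsz A (range n) r' := by omega
  have h3 := Nat.mul_le_mul_right n h2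
  rw [Nat.add_mul, Nat.one_mul] at h3
  omega

theorem card_strip_le (n M i : ℕ) (hM : 0 < M) : (strip n M i).card ≤ M :=
  card_filter_div_le M hM (range n) i

theorem E1_bound (n M t t1 t2 : ℕ) (hM : 0 < M) :
    t1 * t2 * (∑ i ∈ range t, mis A (strip n M i) (range n) (key A n))
      ≤ t * (2 * n * (t1 * t1) * t2 + 2 * (M * M) * (t2 * t2)) + 4 * cnt A n
        + 4 * M * M * (n * n) := by
  rw [mul_sum]
  calc _ ≤ ∑ i ∈ range t, ((2 * n * (t1 * t1) * t2 + 2 * (M * M) * (t2 * t2))
            + 2 * conf A (strip n M i) (range n)) := by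
        apply sum_le_sum
        intro i _
        have h := sort_bound A (strip n M i) (range n) (key A n)
          (key_injOn A n _ (strip_subset n M i))
          (fun r hr r' _ hk => key_mono A n r r' (mem_range.mp (strip_subset n M i hr)) hk) t1 t2
        rw [card_range] at h
        have h2 := card_strip_le n M i hM
        have h3 : (strip n M i).card * (strip n M i).card ≤ M * M := Nat.mul_le_mul h2 h2
        have h4 := Nat.mul_le_mul_right (t2 * t2) (Nat.mul_le_mul_left 2 h3)
        omega
    _ = t * (2 * n * (t1 * t1) * t2 + 2 * (M * M) * (t2 * t2))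
          + 2 * ∑ i ∈ range t, conf A (strip n M i) (range n) := by
        rw [sum_add_distrib, sum_const, card_range, smul_eq_mul, mul_sum]
    _ ≤ _ := by
        have := conf_sum_bound A n M t hM
        have e : 2 * (2 * M * M * (n * n)) = 4 * M * M * (n * n) := by ring
        omega

theorem card_filter_strips (n M : ℕ) (q : ℕ → Prop) [DecidablePred q] :
    ((range n).filter q).card = ∑ i ∈ range (n / M + 1), ((strip n M i).filter q).card := by
  rw [card_eq_sum_card_fiberwise (f := fun r => r / M) (t := range (n / M + 1))]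
  · apply sum_congr rfl
    intro i _
    unfold strip
    rw [filter_comm]
  · intro r hr
    simp only [coe_filter, Set.mem_ofPred_eq, mem_range] at hr
    simp only [coe_range, Set.mem_Iio]
    have := Nat.div_le_div_right (c := M) (le_of_lt hr.1)
    omega

theorem mism_eq (n M : ℕ) (U V : ℕ → ℕ → ℕ → Bool) :
    ((range n ×ˢ range n).filter fun p => U (p.1 / M) p.1 p.2 ≠ V (p.1 / M) p.1 p.2).card
      = ∑ i ∈ range (n / M + 1), ∑ c ∈ range n,
          ((strip n M i).filter fun r => U i r c ≠ V i r c).card := by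
  rw [card_filter_product_eq_sum, sum_comm]
  apply sum_congr rfl
  intro c _
  rw [card_filter_strips n M]
  apply sum_congr rfl
  intro i _
  congr 1
  apply filter_congr
  intro r hr
  unfold strip at hr
  rw [(mem_filter.mp hr).2]

theorem E2_col (S : Finset ℕ) (f : ℕ → ℕ) (hf : Set.InjOn f S) (g b w : ℕ) (hg : 0 < g) :
    (S.filter fun r => decide (rk S f r < w) ≠ decide (lev g b (rk S f r) < lev g b w)).card
      ≤ g := by
  have hsub : (S.filter fun r => decide (rk S f r < w) ≠ decide (lev g b (rk S f r) < lev g b w))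
      ⊆ S.filter fun r => w - g ≤ rk S f r ∧ rk S f r < w := by
    intro r hr
    simp only [mem_filter] at hr ⊢
    refine ⟨hr.1, ?_⟩
    by_cases h : rk S f r < w
    · refine ⟨?_, h⟩
      have h2 : ¬ lev g b (rk S f r) < lev g b w := by
        intro h3
        apply hr.2
        rw [decide_eq_true h, decide_eq_true h3]
      unfold lev at h2
      have a1 := Nat.div_add_mod (w + b) g
      have a2 := Nat.div_add_mod (rk S f r + b) g
      have a3 := Nat.mod_lt (w + b) hg
      have a4 := Nat.mul_le_mul_left g (not_lt.mp h2)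
      omega
    · exfalso
      have h2 : ¬ lev g b (rk S f r) < lev g b w := not_lt.mpr (lev_mono g b (not_lt.mp h))
      apply hr.2
      rw [decide_eq_false h, decide_eq_false h2]
  calc _ ≤ _ := card_le_card hsub
    _ ≤ w - (w - g) := card_rk_Ico_le S f hf _ _
    _ ≤ g := by omega

/-- columns of type X for the index `t = ((i, j), (k, k'))` -/
def colX (G : Finset ℕ) (l : ℕ → ℕ → ℕ) (t : (ℕ × ℕ) × (ℕ × ℕ)) : Finset ℕ :=
  G.filter fun c => t.2.1 < l t.1.1 c ∧ l t.1.2 c ≤ t.2.2

def colY (G : Finset ℕ) (l : ℕ → ℕ → ℕ) (t : (ℕ × ℕ) × (ℕ × ℕ)) : Finset ℕ :=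
  G.filter fun c => l t.1.1 c ≤ t.2.1 ∧ t.2.2 < l t.1.2 c

def idx (t L : ℕ) : Finset ((ℕ × ℕ) × (ℕ × ℕ)) :=
  ((range t ×ˢ range t) ×ˢ (range L ×ˢ range L)).filter fun x => x.1.1 < x.1.2

def dtwo (G : Finset ℕ) (l : ℕ → ℕ → ℕ) (t L th : ℕ) : Finset ℕ :=
  (idx t L).biUnion fun x => xlo (colX G l x) th ∪ yhi (colX G l x) (colY G l x) th

theorem card_idx_le (t L : ℕ) : (idx t L).card ≤ t * t * (L * L) := by
  unfold idx
  calc _ ≤ ((range t ×ˢ range t) ×ˢ (range L ×ˢ range L)).card := card_filter_le _ _
    _ = _ := by simp only [card_product, card_range]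

theorem dtwo_bound (G : Finset ℕ) (l : ℕ → ℕ → ℕ) (t L th m N : ℕ)
    (h : ∀ x ∈ idx t L, m * ((colX G l x ×ˢ colY G l x).filter fun q => q.1 < q.2).card ≤ N) :
    m * th * (dtwo G l t L th).card ≤ t * t * (L * L) * (m * th * th + N) := by
  have h1 : (dtwo G l t L th).card
      ≤ ∑ x ∈ idx t L, ((xlo (colX G l x) th).card + (yhi (colX G l x) (colY G l x) th).card) := by
    unfold dtwo
    calc _ ≤ ∑ x ∈ idx t L, (xlo (colX G l x) th ∪ yhi (colX G l x) (colY G l x) th).card :=
          card_biUnion_le
      _ ≤ _ := sum_le_sum fun x _ => card_union_le _ _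
  calc m * th * (dtwo G l t L th).card
      ≤ m * th * ∑ x ∈ idx t L,
          ((xlo (colX G l x) th).card + (yhi (colX G l x) (colY G l x) th).card) :=
        Nat.mul_le_mul_left _ h1
    _ = ∑ x ∈ idx t L, (m * th * (xlo (colX G l x) th).card
          + m * (th * (yhi (colX G l x) (colY G l x) th).card)) := by
        rw [mul_sum]
        apply sum_congr rfl
        intro x _
        ring
    _ ≤ ∑ _x ∈ idx t L, (m * th * th + N) := by
        apply sum_le_sum
        intro x hx
        have a1 := Nat.mul_le_mul_left (m * th) (card_xlo_le (colX G l x) th)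
        have a2 := Nat.mul_le_mul_left m (card_yhi_le (colX G l x) (colY G l x) th)
        have a3 := h x hx
        omega
    _ = (idx t L).card * (m * th * th + N) := by rw [sum_const, smul_eq_mul]
    _ ≤ _ := Nat.mul_le_mul_right _ (card_idx_le t L)

end Vale.Agent.P037
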