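import Vale.Agent.P037.Strips

/-! Levels, margins, the shift pigeonhole and the removal of bad column pairs. -/

namespace Vale.Agent.P037

open Finset

def lev (g b x : ℕ) : ℕ := (x + b) / g

def near (g b m x : ℕ) : Prop := (x + b) % g < m ∨ g ≤ (x + b) % g + m

instance (g b m x : ℕ) : Decidable (near g b m x) := by unfold near; infer_instance

theorem lev_mono (g b : ℕ) {x y : ℕ} (h : x ≤ y) : lev g b x ≤ lev g b y :=
  Nat.div_le_div_right (Nat.add_le_add_right h b)

theorem near_count (g m x : ℕ) (hg : 0 < g) :
    ((range g).filter fun b => near g b m x).card ≤ 2 * m := by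
  have h : ((range g).filter fun b => near g b m x).card
      ≤ (range m ∪ Finset.Ico (g - m) g).card := by
    apply card_le_card_of_injOn (fun b => (x + b) % g)
    · intro b hb
      simp only [coe_filter, Set.mem_ofPred_eq, mem_range] at hb
      simp only [coe_union, coe_range, coe_Ico, Set.mem_union, Set.mem_Iio, Set.mem_Ico]
      have h2 := Nat.mod_lt (x + b) hg
      rcases hb.2 with h1 | h1
      · left; exact h1
      · right; omega
    · intro b hb b' hb' hbb
      simp only [coe_filter, Set.mem_ofPred_eq, mem_range] at hb hb'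
      have h1 : x + b ≡ x + b' [MOD g] := hbb
      have h2 : b ≡ b' [MOD g] := Nat.ModEq.add_left_cancel' x h1
      exact Nat.ModEq.eq_of_lt_of_lt h2 hb.1 hb'.1
  calc _ ≤ (range m ∪ Finset.Ico (g - m) g).card := h
    _ ≤ (range m).card + (Finset.Ico (g - m) g).card := card_union_le _ _
    _ ≤ 2 * m := by
      simp only [card_range, Nat.card_Ico]
      omega

theorem gap (g b m x y : ℕ) (hx : ¬ near g b m x) (hy : ¬ near g b m y)
    (h : lev g b y < lev g b x) : y + 2 * m ≤ x := by
  unfold near at hx hy
  unfold lev at h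
  have h1 := Nat.div_add_mod (x + b) g
  have h2 := Nat.div_add_mod (y + b) g
  have h3 : g * ((y + b) / g) + g ≤ g * ((x + b) / g) := by
    have := Nat.mul_le_mul_left g (Nat.succ_le_of_lt h)
    rw [Nat.mul_succ] at this
    exact this
  omega

theorem shift_exists {ι : Type*} (I : Finset ι) (w : ι → ℕ) (g m : ℕ) (hg : 0 < g) :
    ∃ b ∈ range g, g * (I.filter fun x => near g b m (w x)).card ≤ 2 * m * I.card := by
  have hne : (range g).Nonempty := ⟨0, mem_range.mpr hg⟩
  apply exists_le_of_sum_le hne
  rw [← mul_sum, sum_const, card_range, smul_eq_mul]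
  apply Nat.mul_le_mul_left
  rw [sum_card_swap (range g) I (fun b x => near g b m (w x))]
  calc _ ≤ ∑ _x ∈ I, 2 * m := sum_le_sum fun x _ => near_count g m (w x) hg
    _ = _ := by rw [sum_const, smul_eq_mul]; ring

/-- the first `t` elements of `X` -/
def xlo (X : Finset ℕ) (t : ℕ) : Finset ℕ := X.filter fun c => (X.filter fun y => y < c).card < t

/-- the elements of `Y` preceded by at least `t` elements of `X` -/
def yhi (X Y : Finset ℕ) (t : ℕ) : Finset ℕ := Y.filter fun c => t ≤ (X.filter fun y => y < c).card

theorem card_xlo_le (X : Finset ℕ) (t : ℕ) : (xlo X t).card ≤ t :=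
  card_rk_lt_le X id (Set.injOn_id _) t

theorem card_yhi_le (X Y : Finset ℕ) (t : ℕ) :
    t * (yhi X Y t).card ≤ ((X ×ˢ Y).filter fun x => x.1 < x.2).card := by
  rw [card_filter_product_eq_sum]
  calc t * (yhi X Y t).card = ∑ _c ∈ yhi X Y t, t := by rw [sum_const, smul_eq_mul]; ring
    _ ≤ ∑ c ∈ yhi X Y t, (X.filter fun y => y < c).card := by
        apply sum_le_sum
        intro c hc
        unfold yhi at hc
        exact (mem_filter.mp hc).2
    _ ≤ ∑ c ∈ Y, (X.filter fun y => y < c).card := sum_le_sum_of_subset (filter_subset _ _)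

theorem xlo_or_yhi (X Y : Finset ℕ) (t : ℕ) {c1 c2 : ℕ} (h1 : c1 ∈ X) (h2 : c2 ∈ Y)
    (h : c1 < c2) : c1 ∈ xlo X t ∨ c2 ∈ yhi X Y t := by
  by_cases hh : t ≤ (X.filter fun y => y < c2).card
  · right
    exact mem_filter.mpr ⟨h2, hh⟩
  · left
    refine mem_filter.mpr ⟨h1, ?_⟩
    have : (X.filter fun y => y < c1).card ≤ (X.filter fun y => y < c2).card := by
      apply card_le_card
      intro y hy
      simp only [mem_filter] at hy ⊢
      exact ⟨hy.1, lt_trans hy.2 h⟩
    omega

variable (A : ℕ → ℕ → Bool)

theorem colw_le (S : Finset ℕ) (c c' : ℕ) : colw A S c ≤ (typ A S c c').card + colw A S c' := by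
  unfold colw typ
  rw [← card_union_of_disjoint]
  · apply card_le_card
    intro r hr
    simp only [mem_filter, mem_union] at hr ⊢
    by_cases h : A r c' = true
    · right; exact ⟨hr.1, h⟩
    · left; exact ⟨hr.1, hr.2, by simpa using h⟩
  · rw [disjoint_filter]
    intro r _ h1 h2
    rw [h2] at h1
    exact absurd h1.2 (by simp)

theorem strip_subset (n M i : ℕ) : strip n M i ⊆ range n := filter_subset _ _

theorem typ_mono {S S' : Finset ℕ} (h : S ⊆ S') (c c' : ℕ) : typ A S c c' ⊆ typ A S' c c' :=
  filter_subset_filter _ h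

theorem vcount_ge (n M i j c1 c2 m : ℕ) (hij : i < j) (hc : c1 < c2)
    (h1 : colw A (strip n M i) c2 + m ≤ colw A (strip n M i) c1)
    (h2 : colw A (strip n M j) c1 + m ≤ colw A (strip n M j) c2) :
    m * m ≤ vcount A n (c1, c2) := by
  have e1 : m ≤ (typ A (strip n M i) c1 c2).card := by
    have := colw_le A (strip n M i) c1 c2
    omega
  have e2 : m ≤ (typ A (strip n M j) c2 c1).card := by
    have := colw_le A (strip n M j) c2 c1
    omega
  unfold vcount
  rw [if_pos hc]
  calc m * m ≤ (typ A (strip n M i) c1 c2).card * (typ A (strip n M j) c2 c1).card :=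
        Nat.mul_le_mul e1 e2
    _ = (typ A (strip n M i) c1 c2 ×ˢ typ A (strip n M j) c2 c1).card := (card_product _ _).symm
    _ ≤ _ := by
      apply card_le_card
      intro x hx
      simp only [mem_product] at hx
      simp only [mem_filter, mem_product]
      refine ⟨⟨typ_mono A (strip_subset n M i) _ _ hx.1, typ_mono A (strip_subset n M j) _ _ hx.2⟩, ?_⟩
      have a1 : x.1 / M = i := by
        have := hx.1
        unfold typ strip at this
        simp only [mem_filter] at this
        exact this.1.2
      have a2 : x.2 / M = j := by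
        have := hx.2
        unfold typ strip at this
        simp only [mem_filter] at this
        exact this.1.2
      by_contra h
      have := Nat.div_le_div_right (c := M) (not_lt.mp h)
      omega

end Vale.Agent.P037
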