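import Vale.Agent.P037.Defs

/-! Rectangular patterns and the counting lemma behind the duplication of a row. -/

namespace Vale.Agent.P037

open Finset

/-- ordered copies of an `s × t` pattern in an `n × n` matrix, as a finset -/
noncomputable def rcopies {s t n : ℕ} (H : Matrix (Fin s) (Fin t) Bool)
    (A : Matrix (Fin n) (Fin n) Bool) : Finset ((Fin s → Fin n) × (Fin t → Fin n)) := by
  classical
  exact univ.filter fun p =>
    StrictMono p.1 ∧ StrictMono p.2 ∧ ∀ i j, A (p.1 i) (p.2 j) = H i j

theorem mem_rcopies {s t n : ℕ} {H : Matrix (Fin s) (Fin t) Bool}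
    {A : Matrix (Fin n) (Fin n) Bool} {p : (Fin s → Fin n) × (Fin t → Fin n)} :
    p ∈ rcopies H A ↔ StrictMono p.1 ∧ StrictMono p.2 ∧ ∀ i j, A (p.1 i) (p.2 j) = H i j := by
  classical
  simp [rcopies]

/-- number of ordered copies of a rectangular pattern -/
noncomputable def rnum {s t n : ℕ} (H : Matrix (Fin s) (Fin t) Bool)
    (A : Matrix (Fin n) (Fin n) Bool) : ℕ := (rcopies H A).card

theorem numCopies_eq_rnum {k n : ℕ} (H : Matrix (Fin k) (Fin k) Bool)
    (A : Matrix (Fin n) (Fin n) Bool) : numCopies H A = rnum H A := by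
  classical
  unfold numCopies rnum rcopies
  rw [Nat.card_eq_fintype_card, Fintype.card_subtype]

/-- the pattern `H` with row `i` written twice (in adjacent positions) -/
def dupRow {s t : ℕ} (i : Fin s) (H : Matrix (Fin s) (Fin t) Bool) :
    Matrix (Fin (s + 1)) (Fin t) Bool := fun a b => H (i.predAbove a) b

theorem rnum_dupRow_eq_zero {s t n : ℕ} (i : Fin s) (H : Matrix (Fin s) (Fin t) Bool)
    (A : Matrix (Fin n) (Fin n) Bool) (h : rnum H A = 0) : rnum (dupRow i H) A = 0 := by
  unfold rnum at h ⊢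
  rw [card_eq_zero] at h ⊢
  rw [eq_empty_iff_forall_notMem] at h ⊢
  intro q hq
  rw [mem_rcopies] at hq
  apply h (fun a => q.1 (i.castSucc.succAbove a), q.2)
  rw [mem_rcopies]
  refine ⟨hq.1.comp (Fin.strictMono_succAbove _), hq.2.1, ?_⟩
  intro a j
  have := hq.2.2 (i.castSucc.succAbove a) j
  simpa [dupRow] using this

theorem predAbove_succ_succAbove {s : ℕ} (i : Fin s) (a : Fin s) :
    i.predAbove (i.succ.succAbove a) = a := by
  have h : i.succ.succAbove a ≠ i.succ := Fin.succAbove_ne _ _
  have := Fin.succ_succAbove_predAbove h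
  exact Fin.succAbove_right_injective this

section count

variable {s t n : ℕ}

/-- forget the `i`-th row of a copy -/
def ctx (i : Fin (s + 1)) (p : (Fin (s + 1) → Fin n) × (Fin t → Fin n)) :
    (Fin s → Fin n) × (Fin t → Fin n) := (fun a => p.1 (i.succAbove a), p.2)

theorem ctx_ext (i : Fin (s + 1)) {x y : (Fin (s + 1) → Fin n) × (Fin t → Fin n)}
    (h : ctx i x = ctx i y) (hi : x.1 i = y.1 i) : x = y := by
  have h1 : ∀ a, x.1 (i.succAbove a) = y.1 (i.succAbove a) := fun a =>
    congrFun (congrArg Prod.fst h) a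
  have h2 : x.2 = y.2 := (Prod.ext_iff.mp h).2
  refine Prod.ext ?_ h2
  funext b
  induction b using Fin.succAboveCases i with
  | x => exact hi
  | p a => exact h1 a

/-- glue two copies which agree outside row `i` -/
def glue (i : Fin (s + 1))
    (xy : ((Fin (s + 1) → Fin n) × (Fin t → Fin n)) × ((Fin (s + 1) → Fin n) × (Fin t → Fin n))) :
    (Fin (s + 2) → Fin n) × (Fin t → Fin n) :=
  (Fin.insertNth (α := fun _ => Fin n) i.succ (xy.2.1 i) xy.1.1, xy.1.2)

theorem glue_mem (i : Fin (s + 1)) (H : Matrix (Fin (s + 1)) (Fin t) Bool)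
    (A : Matrix (Fin n) (Fin n) Bool)
    {x y : (Fin (s + 1) → Fin n) × (Fin t → Fin n)}
    (hx : x ∈ rcopies H A) (hy : y ∈ rcopies H A) (h : ctx i x = ctx i y)
    (hlt : x.1 i < y.1 i) : glue i (x, y) ∈ rcopies (dupRow i H) A := by
  rw [mem_rcopies] at hx hy ⊢
  have h1 : ∀ a, x.1 (i.succAbove a) = y.1 (i.succAbove a) := fun a =>
    congrFun (congrArg Prod.fst h) a
  have h2 : x.2 = y.2 := (Prod.ext_iff.mp h).2
  refine ⟨?_, hx.2.1, ?_⟩
  · show StrictMono (Fin.insertNth (α := fun _ => Fin n) i.succ (y.1 i) x.1)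
    rw [Fin.strictMono_insertNth_iff]
    refine ⟨hx.1, ?_, ?_⟩
    · intro a ha
      have : a ≤ i := by
        rw [Fin.castSucc_lt_succ_iff] at ha
        exact ha
      exact lt_of_le_of_lt (hx.1.monotone this) hlt
    · intro a ha
      have hia : i < a := by
        rw [Fin.succ_le_castSucc_iff] at ha
        exact ha
      have hne : a ≠ i := ne_of_gt hia
      obtain ⟨a', rfl⟩ := Fin.exists_succAbove_eq hne
      rw [h1 a']
      exact hy.1 hia
  · intro b j
    show A (Fin.insertNth (α := fun _ => Fin n) i.succ (y.1 i) x.1 b) (x.2 j) = dupRow i H b j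
    induction b using Fin.succAboveCases i.succ with
    | x =>
      rw [Fin.insertNth_apply_same, h2]
      simpa [dupRow] using hy.2.2 i j
    | p a =>
      rw [Fin.insertNth_apply_succAbove]
      unfold dupRow
      rw [predAbove_succ_succAbove]
      exact hx.2.2 a j

theorem glue_inj (i : Fin (s + 1))
    {x y x' y' : (Fin (s + 1) → Fin n) × (Fin t → Fin n)}
    (h : ctx i x = ctx i y) (h' : ctx i x' = ctx i y')
    (hg : glue i (x, y) = glue i (x', y')) : x = x' ∧ y = y' := by
  have g1 : Fin.insertNth (α := fun _ => Fin n) i.succ (y.1 i) x.1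
      = Fin.insertNth (α := fun _ => Fin n) i.succ (y'.1 i) x'.1 := congrArg Prod.fst hg
  have g2 : x.2 = x'.2 := (Prod.ext_iff.mp hg).2
  have e1 : y.1 i = y'.1 i := by
    have := congrFun g1 i.succ
    simpa using this
  have e2 : x.1 = x'.1 := by
    funext a
    have := congrFun g1 (i.succ.succAbove a)
    simpa using this
  have ex : x = x' := Prod.ext e2 g2
  refine ⟨ex, ?_⟩
  apply ctx_ext i _ e1
  rw [← h, ← h', ex]

end count

end Vale.Agent.P037
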