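import Vale.Agent.P037.Dup

/-! Cauchy-Schwarz: many copies of `H` give many copies of `H` with a duplicated row. -/

namespace Vale.Agent.P037

open Finset

theorem pairs_cs {α β : Type*} [DecidableEq α] [DecidableEq β] [Fintype β] (S : Finset α)
    (f : α → β) :
    S.card ^ 2 ≤ Fintype.card β * ((S ×ˢ S).filter fun xy => f xy.1 = f xy.2).card := by
  have h1 : S.card = ∑ κ, (S.filter fun x => f x = κ).card :=
    card_eq_sum_card_fiberwise (f := f) (t := univ) (fun x _ => mem_univ _)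
  have h2 : (∑ κ, (S.filter fun x => f x = κ).card) ^ 2 ≤ (univ : Finset β).card
      * ∑ κ, (S.filter fun x => f x = κ).card ^ 2 := sq_sum_le_card_mul_sum_sq
  have h4 : ∑ κ, (S.filter fun x => f x = κ).card ^ 2
      = ((S ×ˢ S).filter fun xy => f xy.1 = f xy.2).card := by
    have e : ((S ×ˢ S).filter fun xy => f xy.1 = f xy.2).card
        = ∑ κ, (((S ×ˢ S).filter fun xy => f xy.1 = f xy.2).filter fun xy => f xy.1 = κ).card :=
      card_eq_sum_card_fiberwise (f := fun xy : α × α => f xy.1) (t := univ)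
        (fun x _ => mem_univ _)
    rw [e]
    apply sum_congr rfl
    intro κ _
    have : (((S ×ˢ S).filter fun xy => f xy.1 = f xy.2).filter fun xy => f xy.1 = κ)
        = (S.filter fun x => f x = κ) ×ˢ (S.filter fun x => f x = κ) := by
      ext ⟨x, y⟩
      simp only [mem_filter, mem_product]
      constructor
      · rintro ⟨⟨⟨a, b⟩, c⟩, e⟩
        exact ⟨⟨a, e⟩, ⟨b, by rw [← c]; exact e⟩⟩
      · rintro ⟨⟨a, e⟩, ⟨b, c⟩⟩
        exact ⟨⟨⟨a, b⟩, by rw [e, c]⟩, e⟩
    rw [this, card_product, sq]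
  rw [← h4, ← card_univ]
  calc S.card ^ 2 = (∑ κ, (S.filter fun x => f x = κ).card) ^ 2 := by rw [← h1]
    _ ≤ _ := h2

theorem pairs_split {α β γ : Type*} [DecidableEq α] [DecidableEq β] [LinearOrder γ]
    (S : Finset α) (f : α → β) (g : α → γ)
    (hinj : ∀ x y, f x = f y → g x = g y → x = y) :
    ((S ×ˢ S).filter fun xy => f xy.1 = f xy.2).card
      ≤ 2 * ((S ×ˢ S).filter fun xy => f xy.1 = f xy.2 ∧ g xy.1 < g xy.2).card + S.card := by
  have h5 : ((S ×ˢ S).filter fun xy => f xy.1 = f xy.2)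
      ⊆ (((S ×ˢ S).filter fun xy => f xy.1 = f xy.2 ∧ g xy.1 < g xy.2)
        ∪ ((S ×ˢ S).filter fun xy => f xy.1 = f xy.2 ∧ g xy.2 < g xy.1))
        ∪ ((S ×ˢ S).filter fun xy => f xy.1 = f xy.2 ∧ g xy.1 = g xy.2) := by
    intro xy hxy
    simp only [mem_union, mem_filter] at hxy ⊢
    rcases lt_trichotomy (g xy.1) (g xy.2) with h | h | h
    · exact Or.inl (Or.inl ⟨hxy.1, hxy.2, h⟩)
    · exact Or.inr ⟨hxy.1, hxy.2, h⟩
    · exact Or.inl (Or.inr ⟨hxy.1, hxy.2, h⟩)
  have h6 : ((S ×ˢ S).filter fun xy => f xy.1 = f xy.2 ∧ g xy.2 < g xy.1).card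
      ≤ ((S ×ˢ S).filter fun xy => f xy.1 = f xy.2 ∧ g xy.1 < g xy.2).card := by
    apply card_le_card_of_injOn Prod.swap
    · intro xy hxy
      have hxy' := mem_filter.mp (mem_coe.mp hxy)
      rw [mem_product] at hxy'
      apply mem_coe.mpr
      rw [mem_filter, mem_product]
      exact ⟨⟨hxy'.1.2, hxy'.1.1⟩, hxy'.2.1.symm, hxy'.2.2⟩
    · exact Prod.swap_injective.injOn
  have h7 : ((S ×ˢ S).filter fun xy => f xy.1 = f xy.2 ∧ g xy.1 = g xy.2).card ≤ S.card := by
    apply card_le_card_of_injOn Prod.fst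
    · intro xy hxy
      have hxy' := mem_filter.mp (mem_coe.mp hxy)
      rw [mem_product] at hxy'
      exact mem_coe.mpr hxy'.1.1
    · intro xy hxy xy' hxy' e
      have a := mem_filter.mp (mem_coe.mp hxy)
      have a' := mem_filter.mp (mem_coe.mp hxy')
      have b := hinj _ _ a.2.1 a.2.2
      have b' := hinj _ _ a'.2.1 a'.2.2
      exact Prod.ext e (by rw [← b, ← b', e])
  have h8 := card_le_card h5
  have h9 := card_union_le
    (((S ×ˢ S).filter fun xy => f xy.1 = f xy.2 ∧ g xy.1 < g xy.2)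
        ∪ ((S ×ˢ S).filter fun xy => f xy.1 = f xy.2 ∧ g xy.2 < g xy.1))
    ((S ×ˢ S).filter fun xy => f xy.1 = f xy.2 ∧ g xy.1 = g xy.2)
  have h10 := card_union_le
    ((S ×ˢ S).filter fun xy => f xy.1 = f xy.2 ∧ g xy.1 < g xy.2)
    ((S ×ˢ S).filter fun xy => f xy.1 = f xy.2 ∧ g xy.2 < g xy.1)
  omega

variable {s t n : ℕ}

theorem dup_count (i : Fin (s + 1)) (H : Matrix (Fin (s + 1)) (Fin t) Bool)
    (A : Matrix (Fin n) (Fin n) Bool) :
    (rnum H A) ^ 2 ≤ n ^ (s + t) * (2 * rnum (dupRow i H) A + rnum H A) := by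
  classical
  have h1 := pairs_cs (rcopies H A) (ctx i)
  have h2 := pairs_split (rcopies H A) (ctx i) (fun x => x.1 i) (fun x y h h' => ctx_ext i h h')
  have h3 : Fintype.card ((Fin s → Fin n) × (Fin t → Fin n)) = n ^ (s + t) := by
    rw [Fintype.card_prod, Fintype.card_fun, Fintype.card_fun]
    simp [pow_add]
  have h8 : ((rcopies H A ×ˢ rcopies H A).filter
      fun xy => ctx i xy.1 = ctx i xy.2 ∧ xy.1.1 i < xy.2.1 i).card ≤ rnum (dupRow i H) A := by
    unfold rnum
    apply card_le_card_of_injOn (glue i)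
    · intro xy hxy
      have a := mem_filter.mp (mem_coe.mp hxy)
      rw [mem_product] at a
      exact mem_coe.mpr (glue_mem i H A a.1.1 a.1.2 a.2.1 a.2.2)
    · intro xy hxy xy' hxy' e
      have a := mem_filter.mp (mem_coe.mp hxy)
      have a' := mem_filter.mp (mem_coe.mp hxy')
      have := glue_inj i (x := xy.1) (y := xy.2) (x' := xy'.1) (y' := xy'.2) a.2.1 a'.2.1 e
      exact Prod.ext this.1 this.2
  rw [h3] at h1
  have h10 : rnum H A = (rcopies H A).card := rfl
  rw [h10]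
  refine le_trans h1 (Nat.mul_le_mul_left _ ?_)
  refine le_trans h2 ?_
  have := Nat.mul_le_mul_left 2 h8
  omega

end Vale.Agent.P037
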