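import Vale.Agent.P037.Dup2

/-! Polynomial removal bounds survive the duplication of a row of the pattern. -/

namespace Vale.Agent.P037

open Finset

/-- the removal bound for a rectangular pattern, with constants `a ^ (-C)` and `C` -/
def RRem {s t : ℕ} (H : Matrix (Fin s) (Fin t) Bool) (a : ℝ) (C : ℕ) : Prop :=
  ∀ (n : ℕ) (ε : ℝ) (A : Matrix (Fin n) (Fin n) Bool), 1 ≤ n → 0 < ε → ε < 1 →
    (∀ B : Matrix (Fin n) (Fin n) Bool, rnum H B = 0 →
      ε * (n : ℝ) ^ 2 ≤ (entryDist A B : ℝ)) →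
    (ε / a) ^ C * (n : ℝ) ^ (s + t) ≤ (rnum H A : ℝ)

theorem entryDist_self {n : ℕ} (A : Matrix (Fin n) (Fin n) Bool) : entryDist A A = 0 := by
  unfold entryDist
  simp

theorem dup_arith (δ x X N M : ℝ) (m : ℕ) (hδ0 : 0 < δ) (hδ1 : δ ≤ 1) (hx : 1 ≤ x) (hX : 0 < X)
    (hN : δ * (x * X) ≤ N) (hM : 1 ≤ M) (hc : N ^ 2 ≤ X * (2 * M + N))
    (hXm : X = x ^ m) :
    (δ / 2) ^ (m + 2) * (x ^ 2 * X) ≤ M := by
  have hx0 : 0 < x := by linarith
  have hN0 : 0 < N := lt_of_lt_of_le (by positivity) hN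
  have hd2 : δ / 2 ≤ 1 := by linarith
  have hd0 : 0 ≤ δ / 2 := by positivity
  by_cases hcase : 2 ≤ δ * x
  · -- large n
    have h1 : N * (δ * x) ≤ 2 * M + N := by
      have : N * (δ * (x * X)) ≤ X * (2 * M + N) := by
        calc N * (δ * (x * X)) ≤ N * N := mul_le_mul_of_nonneg_left hN hN0.le
          _ = N ^ 2 := by ring
          _ ≤ _ := hc
      have h' : X * (N * (δ * x)) ≤ X * (2 * M + N) := by
        calc X * (N * (δ * x)) = N * (δ * (x * X)) := by ring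
          _ ≤ _ := this
      exact le_of_mul_le_mul_left h' hX
    have h2 : N * (δ * x) / 4 ≤ M := by
      have : N * 2 ≤ N * (δ * x) := mul_le_mul_of_nonneg_left hcase hN0.le
      linarith
    have h3 : δ * (x * X) * (δ * x) / 4 ≤ N * (δ * x) / 4 := by
      have : δ * (x * X) * (δ * x) ≤ N * (δ * x) :=
        mul_le_mul_of_nonneg_right hN (by positivity)
      linarith
    have h4 : (δ / 2) ^ (m + 2) ≤ (δ / 2) ^ 2 :=
      pow_le_pow_of_le_one hd0 hd2 (by omega)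
    calc (δ / 2) ^ (m + 2) * (x ^ 2 * X) ≤ (δ / 2) ^ 2 * (x ^ 2 * X) :=
          mul_le_mul_of_nonneg_right h4 (by positivity)
      _ = δ * (x * X) * (δ * x) / 4 := by ring
      _ ≤ M := le_trans h3 h2
  · -- small n
    rw [not_le] at hcase
    have h1 : (δ / 2) ^ (m + 2) * (x ^ 2 * X) = (δ * x / 2) ^ (m + 2) := by
      rw [hXm]
      have : δ * x / 2 = (δ / 2) * x := by ring
      rw [this, mul_pow]
      ring
    rw [h1]
    have h2 : δ * x / 2 ≤ 1 := by linarith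
    have h3 : 0 ≤ δ * x / 2 := by positivity
    exact le_trans (pow_le_one₀ h3 h2) hM

theorem RRem.dupRow {s t : ℕ} {H : Matrix (Fin (s + 1)) (Fin t) Bool} {a : ℝ} {C : ℕ}
    (h : RRem H a C) (ha : 1 ≤ a) (hC : 1 ≤ C) (i : Fin (s + 1)) :
    RRem (dupRow i H) (2 * a) (C * (s + t + 2)) := by
  intro n ε A hn h0 h1 hfar
  have ha0 : 0 < a := by linarith
  have hN := h n ε A hn h0 h1 (fun B hB => hfar B (rnum_dupRow_eq_zero i H B hB))
  have hx : (1 : ℝ) ≤ (n : ℝ) := by exact_mod_cast hn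
  have hpos : 1 ≤ rnum (Vale.Agent.P037.dupRow i H) A := by
    by_contra hcon
    have hz : rnum (Vale.Agent.P037.dupRow i H) A = 0 := by omega
    have := hfar A hz
    rw [entryDist_self] at this
    have h2 : 0 < ε * (n : ℝ) ^ 2 := by positivity
    simp only [Nat.cast_zero] at this
    linarith
  have hcount := dup_count i H A
  have hcountR : ((rnum H A : ℕ) : ℝ) ^ 2
      ≤ (n : ℝ) ^ (s + t) * (2 * (rnum (Vale.Agent.P037.dupRow i H) A : ℝ) + (rnum H A : ℝ)) := by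
    exact_mod_cast hcount
  have hδ0 : 0 < (ε / a) ^ C := by positivity
  have hea : ε / a ≤ 1 := by
    rw [div_le_one ha0]
    linarith
  have hδ1 : (ε / a) ^ C ≤ 1 := pow_le_one₀ (by positivity) hea
  have hN' : (ε / a) ^ C * ((n : ℝ) * (n : ℝ) ^ (s + t)) ≤ (rnum H A : ℝ) := by
    have : (n : ℝ) * (n : ℝ) ^ (s + t) = (n : ℝ) ^ (s + 1 + t) := by ring
    rw [this]
    exact hN
  have key := dup_arith ((ε / a) ^ C) (n : ℝ) ((n : ℝ) ^ (s + t)) (rnum H A : ℝ)
    (rnum (Vale.Agent.P037.dupRow i H) A : ℝ) (s + t) hδ0 hδ1 hx (by positivity) hN'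
    (by exact_mod_cast hpos) hcountR rfl
  have e1 : (n : ℝ) ^ (s + 1 + 1 + t) = (n : ℝ) ^ 2 * (n : ℝ) ^ (s + t) := by ring
  rw [e1]
  refine le_trans (mul_le_mul_of_nonneg_right ?_ (by positivity)) key
  rw [pow_mul]
  apply pow_le_pow_left₀ (by positivity)
  have e2 : ε / (2 * a) = (ε / a) * (1 / 2) := by
    field_simp
  rw [e2, mul_pow]
  have e3 : ((1 : ℝ) / 2) ^ C ≤ 1 / 2 := by
    calc ((1 : ℝ) / 2) ^ C ≤ (1 / 2) ^ 1 := pow_le_pow_of_le_one (by norm_num) (by norm_num) hC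
      _ = 1 / 2 := by norm_num
  calc (ε / a) ^ C * (1 / 2) ^ C ≤ (ε / a) ^ C * (1 / 2) :=
        mul_le_mul_of_nonneg_left e3 hδ0.le
    _ = (ε / a) ^ C / 2 := by ring

end Vale.Agent.P037
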