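import Vale.Agent.P037.Dup3

/-! Polynomial removal bounds pass to all monotone blow-ups of a pattern. -/

namespace Vale.Agent.P037

open Finset

theorem rnum_transpose {s t n : ℕ} (H : Matrix (Fin s) (Fin t) Bool)
    (A : Matrix (Fin n) (Fin n) Bool) : rnum H.transpose A.transpose = rnum H A := by
  unfold rnum
  apply card_nbij' Prod.swap Prod.swap
  · intro p hp
    have h := mem_rcopies.mp (mem_coe.mp hp)
    apply mem_coe.mpr
    rw [mem_rcopies]
    exact ⟨h.2.1, h.1, fun i j => h.2.2 j i⟩
  · intro p hp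
    have h := mem_rcopies.mp (mem_coe.mp hp)
    apply mem_coe.mpr
    rw [mem_rcopies]
    exact ⟨h.2.1, h.1, fun i j => h.2.2 j i⟩
  · intro p _
    rfl
  · intro p _
    rfl

theorem entryDist_transpose {n : ℕ} (A B : Matrix (Fin n) (Fin n) Bool) :
    entryDist A.transpose B.transpose = entryDist A B := by
  unfold entryDist
  apply card_nbij' Prod.swap Prod.swap
  · intro p hp
    have h := mem_filter.mp (mem_coe.mp hp)
    apply mem_coe.mpr
    rw [mem_filter]
    exact ⟨mem_univ _, h.2⟩
  · intro p hp
    have h := mem_filter.mp (mem_coe.mp hp)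
    apply mem_coe.mpr
    rw [mem_filter]
    exact ⟨mem_univ _, h.2⟩
  · intro p _
    rfl
  · intro p _
    rfl

theorem RRem.transpose {s t : ℕ} {H : Matrix (Fin s) (Fin t) Bool} {a : ℝ} {C : ℕ}
    (h : RRem H a C) : RRem H.transpose a C := by
  intro n ε A hn h0 h1 hfar
  have h2 := h n ε A.transpose hn h0 h1 (by
    intro B hB
    have a1 : rnum H.transpose B.transpose = 0 := by rw [rnum_transpose]; exact hB
    have a2 := hfar B.transpose a1
    have a3 : entryDist A.transpose B = entryDist A B.transpose := by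
      rw [← entryDist_transpose A B.transpose, Matrix.transpose_transpose]
    rw [a3]
    exact a2)
  have e : rnum H A.transpose = rnum H.transpose A := by
    rw [← rnum_transpose H A.transpose, Matrix.transpose_transpose]
  rw [e, add_comm s t] at h2
  exact h2

/-- a polynomial removal bound holds for the rectangular pattern `H` -/
def PolyRem {s t : ℕ} (H : Matrix (Fin s) (Fin t) Bool) : Prop :=
  ∃ (a : ℝ) (C : ℕ), 1 ≤ a ∧ 1 ≤ C ∧ RRem H a C

theorem PolyRem.transpose {s t : ℕ} {H : Matrix (Fin s) (Fin t) Bool} (h : PolyRem H) :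
    PolyRem H.transpose := by
  obtain ⟨a, C, ha, hC, hr⟩ := h
  exact ⟨a, C, ha, hC, hr.transpose⟩

theorem PolyRem.dupRow {s t : ℕ} {H : Matrix (Fin s) (Fin t) Bool} (h : PolyRem H)
    (i : Fin s) : PolyRem (dupRow i H) := by
  obtain ⟨a, C, ha, hC, hr⟩ := h
  cases s with
  | zero => exact i.elim0
  | succ s =>
    refine ⟨2 * a, C * (s + t + 2), by linarith, ?_, hr.dupRow ha hC i⟩
    exact Nat.one_le_iff_ne_zero.mpr (Nat.mul_ne_zero (by omega) (by omega))

theorem exists_adjacent_eq {m s : ℕ} (ρ : Fin (m + 1) → Fin s) (hmono : Monotone ρ)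
    (hlt : s < m + 1) : ∃ a : Fin m, ρ a.castSucc = ρ a.succ := by
  by_contra hcon
  rw [not_exists] at hcon
  have hs : StrictMono ρ := by
    rw [Fin.strictMono_iff_lt_succ]
    intro a
    exact lt_of_le_of_ne (hmono (Fin.castSucc_le_succ a)) (hcon a)
  have := Fintype.card_le_of_injective ρ hs.injective
  simp only [Fintype.card_fin] at this
  omega

theorem PolyRem.rows : ∀ (d : ℕ) {s t : ℕ} (G : Matrix (Fin s) (Fin t) Bool), PolyRem G →
    ∀ ρ : Fin (s + d) → Fin s, Monotone ρ → Function.Surjective ρ →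
      PolyRem (fun a b => G (ρ a) b : Matrix (Fin (s + d)) (Fin t) Bool) := by
  intro d
  induction d with
  | zero =>
    intro s t G hG ρ hmono hsurj
    have hinj : Function.Injective ρ := Finite.injective_iff_surjective.mpr hsurj
    have hid : ρ = id := (hmono.strictMono_of_injective hinj).eq_id
    rw [hid]
    exact hG
  | succ d ih =>
    intro s t G hG ρ hmono hsurj
    obtain ⟨a, ha⟩ := exists_adjacent_eq (m := s + d) ρ hmono (by omega)
    have hfac : ∀ b, ρ b = ρ (a.castSucc.succAbove (a.predAbove b)) := by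
      intro b
      by_cases hb : b = a.castSucc
      · rw [hb, Fin.predAbove_castSucc_self, Fin.succAbove_castSucc_self, ha]
      · rw [Fin.succAbove_predAbove hb]
    have h1 := ih G hG (fun c => ρ (a.castSucc.succAbove c))
      (hmono.comp (Fin.strictMono_succAbove _).monotone) (by
        intro y
        obtain ⟨b, hb⟩ := hsurj y
        exact ⟨a.predAbove b, (hfac b).symm.trans hb⟩)
    have h2 := h1.dupRow a
    have e : (fun x b => G (ρ x) b : Matrix (Fin (s + (d + 1))) (Fin t) Bool)
        = Vale.Agent.P037.dupRow a (fun c b => G (ρ (a.castSucc.succAbove c)) b) := by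
      funext x b
      show G (ρ x) b = G (ρ (a.castSucc.succAbove (a.predAbove x))) b
      rw [← hfac x]
    rw [e]
    exact h2

theorem PolyRem.blowup {s t s' t' : ℕ} (G : Matrix (Fin s) (Fin t) Bool) (hG : PolyRem G)
    (ρ : Fin s' → Fin s) (γ : Fin t' → Fin t) (hρ : Monotone ρ) (hρs : Function.Surjective ρ)
    (hγ : Monotone γ) (hγs : Function.Surjective γ) :
    PolyRem (fun a b => G (ρ a) (γ b) : Matrix (Fin s') (Fin t') Bool) := by
  have c1 : s ≤ s' := by
    have := Fintype.card_le_of_surjective ρ hρs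
    simpa using this
  have c2 : t ≤ t' := by
    have := Fintype.card_le_of_surjective γ hγs
    simpa using this
  obtain ⟨d, rfl⟩ := Nat.exists_eq_add_of_le c1
  obtain ⟨e, rfl⟩ := Nat.exists_eq_add_of_le c2
  have h1 := PolyRem.rows d G hG ρ hρ hρs
  have h2 := PolyRem.rows e _ h1.transpose γ hγ hγs
  exact h2.transpose

end Vale.Agent.P037
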