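import Vale.Agent.P037.Defs

namespace Vale.Agent.P037

/-- The statement of the conjecture for one `k × k` pattern `H`: there are constants `c > 0` and `C`
such that every `n × n` matrix `A` whose distance to every `H`-free matrix is at least `ε n ^ 2`
contains at least `c ε ^ C n ^ (2 k)` ordered copies of `H`. -/
def PolyRemoval {k : ℕ} (H : Matrix (Fin k) (Fin k) Bool) : Prop :=
  ∃ (c : ℝ) (C : ℕ), 0 < c ∧
    ∀ (n : ℕ) (ε : ℝ) (A : Matrix (Fin n) (Fin n) Bool), 1 ≤ n → 0 < ε → ε < 1 →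
      (∀ B : Matrix (Fin n) (Fin n) Bool, numCopies H B = 0 →
        ε * (n : ℝ) ^ 2 ≤ (entryDist A B : ℝ)) →
      c * ε ^ C * (n : ℝ) ^ (2 * k) ≤ (numCopies H A : ℝ)

end Vale.Agent.P037
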