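import Vale.Agent.P037.Dup4
import Vale.Agent.P037.PolyDef
import Vale.Agent.P037.All2

/-! Translation between the two forms of the removal bound, and the block patterns. -/

namespace Vale.Agent.P037

theorem PolyRemoval.toRem {k : ℕ} {H : Matrix (Fin k) (Fin k) Bool} (h : PolyRemoval H) :
    PolyRem H := by
  obtain ⟨c, C, hc, hr⟩ := h
  refine ⟨max 1 (1 / c), C + 1, le_max_left _ _, by omega, ?_⟩
  intro n ε A hn h0 h1 hfar
  have h2 := hr n ε A hn h0 h1 (by
    intro B hB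
    exact hfar B (by rw [← numCopies_eq_rnum]; exact hB))
  rw [numCopies_eq_rnum, two_mul] at h2
  refine le_trans (mul_le_mul_of_nonneg_right ?_ (by positivity)) h2
  set a := max 1 (1 / c) with ha
  have ha1 : 1 ≤ a := le_max_left _ _
  have ha0 : 0 < a := by linarith
  have hac : 1 / c ≤ a := le_max_right _ _
  have hca : 1 / a ≤ c := by
    rw [div_le_iff₀ ha0]
    rw [div_le_iff₀ hc] at hac
    linarith
  rw [div_pow]
  have e1 : ε ^ (C + 1) ≤ ε ^ C := pow_le_pow_of_le_one h0.le h1.le (by omega)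
  have e2 : a ≤ a ^ (C + 1) := by
    calc a = a ^ 1 := (pow_one a).symm
      _ ≤ a ^ (C + 1) := pow_le_pow_right₀ ha1 (by omega)
  have e3 : 1 / a ^ (C + 1) ≤ 1 / a := one_div_le_one_div_of_le ha0 e2
  calc ε ^ (C + 1) / a ^ (C + 1) = ε ^ (C + 1) * (1 / a ^ (C + 1)) := by ring
    _ ≤ ε ^ C * c := by
        apply mul_le_mul e1 (le_trans e3 hca) (by positivity) (by positivity)
    _ = c * ε ^ C := by ring

theorem PolyRem.toRemoval {k : ℕ} {H : Matrix (Fin k) (Fin k) Bool} (h : PolyRem H) :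
    PolyRemoval H := by
  obtain ⟨a, C, ha, _, hr⟩ := h
  have ha0 : 0 < a := by linarith
  refine ⟨(1 / a) ^ C, C, by positivity, ?_⟩
  intro n ε A hn h0 h1 hfar
  have h2 := hr n ε A hn h0 h1 (by
    intro B hB
    exact hfar B (by rw [numCopies_eq_rnum]; exact hB))
  rw [numCopies_eq_rnum, two_mul]
  have e : (1 / a) ^ C * ε ^ C = (ε / a) ^ C := by
    rw [← mul_pow]
    congr 1
    ring
  rw [e]
  exact h2

theorem polyRemoval_two (G : Matrix (Fin 2) (Fin 2) Bool) : PolyRemoval G := by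
  refine ⟨(1 / 256) ^ 44, 44, by positivity, ?_⟩
  intro n ε A hn h0 h1 hfar
  have h := rem_all G n ε A hn h0 h1 hfar
  have e : (1 / 256 : ℝ) ^ 44 * ε ^ 44 * (n : ℝ) ^ (2 * 2) = (ε / 256) ^ 44 * (n : ℝ) ^ 4 := by
    rw [div_pow ε, div_pow 1]
    ring
  rw [e]
  exact h

theorem PolyRemoval.blowup {k₀ k : ℕ} (G : Matrix (Fin k₀) (Fin k₀) Bool) (ρ γ : Fin k → Fin k₀)
    (hρ : Monotone ρ) (hρs : Function.Surjective ρ) (hγ : Monotone γ)
    (hγs : Function.Surjective γ) (hG : PolyRemoval G) :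
    PolyRemoval (fun i j => G (ρ i) (γ j) : Matrix (Fin k) (Fin k) Bool) :=
  (PolyRem.blowup G hG.toRem ρ γ hρ hρs hγ hγs).toRemoval

end Vale.Agent.P037
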