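import Vale.Agent.P037.Cross

/-! The pattern `[[1,1],[1,0]]`: basic counting (violations of row pairs, bad pairs, far rows). -/

namespace Vale.Agent.P037

open Finset

theorem card_filter_product_eq_sum_left {α β : Type*} (s : Finset α) (t : Finset β)
    (p : α × β → Prop) [DecidablePred p] :
    ((s ×ˢ t).filter p).card = ∑ a ∈ s, (t.filter fun b => p (a, b)).card := by
  simp only [card_filter]
  rw [sum_product]

variable (A : ℕ → ℕ → Bool)

def ones (n r : ℕ) : Finset ℕ := (range n).filter fun c => A r c = true

def comm (n r r' : ℕ) : Finset ℕ := (range n).filter fun c => A r c = true ∧ A r' c = true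

def only (n r r' : ℕ) : Finset ℕ := (range n).filter fun c => A r c = true ∧ A r' c = false

/-- copies of the pattern on the rows `r` (upper) and `r'` (lower) -/
def viol (n r r' : ℕ) : ℕ := ((comm A n r r' ×ˢ only A n r r').filter fun x => x.1 < x.2).card

def vpair (n : ℕ) (p : ℕ × ℕ) : ℕ := if p.1 < p.2 then viol A n p.1 p.2 else 0

/-- total number of copies -/
def cntG (n : ℕ) : ℕ := ∑ p ∈ range n ×ˢ range n, vpair A n p

def sdist (n r r' : ℕ) : ℕ := ((range n).filter fun c => A r c ≠ A r' c).card

def bad (n b r r' : ℕ) : Prop := (r < r' ∧ b ≤ viol A n r r') ∨ (r' < r ∧ b ≤ viol A n r' r)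

instance (n b r r' : ℕ) : Decidable (bad A n b r r') := by unfold bad; infer_instance

def bdeg (n b r : ℕ) : ℕ := ((range n).filter fun r' => bad A n b r r').card

theorem bad_symm (n b r r' : ℕ) : bad A n b r r' ↔ bad A n b r' r := by
  unfold bad
  exact or_comm

theorem sdist_comm (n r r' : ℕ) : sdist A n r r' = sdist A n r' r := by
  unfold sdist
  congr 1
  apply filter_congr
  intro c _
  exact ne_comm

theorem sdist_self (n r : ℕ) : sdist A n r r = 0 := by
  unfold sdist
  simp

theorem sdist_eq (n r r' : ℕ) : sdist A n r r' = (only A n r r').card + (only A n r' r).card := by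
  unfold sdist only
  rw [← card_union_of_disjoint]
  · congr 1
    ext c
    simp only [mem_filter, mem_union]
    cases h1 : A r c <;> cases h2 : A r' c <;> simp
  · rw [disjoint_filter]
    intro c _ h1 h2
    rw [h1.1] at h2
    exact absurd h2.2 (by simp)

theorem ones_eq (n r r' : ℕ) : (ones A n r).card = (comm A n r r').card + (only A n r r').card := by
  unfold ones comm only
  rw [← card_union_of_disjoint]
  · congr 1
    ext c
    simp only [mem_filter, mem_union]
    cases h1 : A r c <;> cases h2 : A r' c <;> simp
  · rw [disjoint_filter]
    intro c _ h1 h2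
    rw [h1.2] at h2
    exact absurd h2.2 (by simp)

theorem comm_comm (n r r' : ℕ) : comm A n r r' = comm A n r' r := by
  unfold comm
  apply filter_congr
  intro c _
  exact and_comm

theorem sum_vpair_swap (n : ℕ) :
    ∑ p ∈ range n ×ˢ range n, vpair A n (p.2, p.1) = cntG A n := by
  unfold cntG
  rw [sum_product, sum_product, sum_comm]

theorem sum_bdeg (n b : ℕ) : b * ∑ r ∈ range n, bdeg A n b r ≤ 2 * cntG A n := by
  have h1 : ∑ r ∈ range n, bdeg A n b r
      = ((range n ×ˢ range n).filter fun p => bad A n b p.1 p.2).card := by
    rw [card_filter_product_eq_sum_left]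
    rfl
  rw [h1, card_filter, mul_sum]
  calc ∑ p ∈ range n ×ˢ range n, b * (if bad A n b p.1 p.2 then 1 else 0)
      ≤ ∑ p ∈ range n ×ˢ range n, (vpair A n p + vpair A n (p.2, p.1)) := by
        apply sum_le_sum
        intro p _
        by_cases h : bad A n b p.1 p.2
        · rw [if_pos h]
          unfold vpair
          rcases h with h | h
          · rw [if_pos h.1]
            have := h.2
            omega
          · have e : (if (p.2, p.1).1 < (p.2, p.1).2 then viol A n (p.2, p.1).1 (p.2, p.1).2 else 0)
                = viol A n p.2 p.1 := if_pos h.1
            rw [e]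
            have := h.2
            omega
        · rw [if_neg h]
          simp
    _ = 2 * cntG A n := by
        rw [sum_add_distrib, sum_vpair_swap]
        unfold cntG
        ring

/-- rows of large bad degree are few -/
theorem card_high (n b d : ℕ) :
    b * (d * ((range n).filter fun r => d ≤ bdeg A n b r).card) ≤ 2 * cntG A n := by
  refine le_trans (Nat.mul_le_mul_left b ?_) (sum_bdeg A n b)
  calc d * ((range n).filter fun r => d ≤ bdeg A n b r).card
      = ∑ _r ∈ (range n).filter (fun r => d ≤ bdeg A n b r), d := by
        rw [sum_const, smul_eq_mul]; ring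
    _ ≤ ∑ r ∈ (range n).filter (fun r => d ≤ bdeg A n b r), bdeg A n b r := by
        apply sum_le_sum
        intro r hr
        exact (mem_filter.mp hr).2
    _ ≤ _ := sum_le_sum_of_subset (filter_subset _ _)

/-- first `w` ones of row `r` -/
def pre (n w r : ℕ) : Finset ℕ := xlo (ones A n r) w

theorem pre_subset (n w r : ℕ) : pre A n w r ⊆ ones A n r := filter_subset _ _

theorem card_pre (n w r : ℕ) (h : w ≤ (ones A n r).card) : (pre A n w r).card = w :=
  card_rk_lt_eq (ones A n r) id (Set.injOn_id _) h

theorem inter_pre_small (n w r r' : ℕ) :
    (pre A n w r ∩ pre A n w r').card * ((only A n r r').card - w) ≤ viol A n r r' := by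
  unfold viol
  rw [card_filter_product_eq_sum_left]
  have hsub : pre A n w r ∩ pre A n w r' ⊆ comm A n r r' := by
    intro x hx
    have h1 := pre_subset A n w r (mem_inter.mp hx).1
    have h2 := pre_subset A n w r' (mem_inter.mp hx).2
    unfold ones at h1 h2
    unfold comm
    simp only [mem_filter] at h1 h2 ⊢
    exact ⟨h1.1, h1.2, h2.2⟩
  calc (pre A n w r ∩ pre A n w r').card * ((only A n r r').card - w)
      = ∑ _x ∈ pre A n w r ∩ pre A n w r', ((only A n r r').card - w) := by
        rw [sum_const, smul_eq_mul]
    _ ≤ ∑ x ∈ pre A n w r ∩ pre A n w r', ((only A n r r').filter fun y => x < y).card := by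
        apply sum_le_sum
        intro x hx
        have hx1 : x ∈ pre A n w r := (mem_inter.mp hx).1
        have hxc := hsub hx
        have hlt : ((ones A n r).filter fun y => y < x).card < w := by
          unfold pre xlo at hx1
          exact (mem_filter.mp hx1).2
        have hsplit : (only A n r r').card
            ≤ ((only A n r r').filter fun y => x < y).card
              + ((ones A n r).filter fun y => y < x).card := by
          rw [← card_union_of_disjoint]
          · apply card_le_card
            intro y hy
            have hy' := hy
            unfold only at hy'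
            simp only [mem_filter] at hy'
            simp only [mem_union, mem_filter]
            rcases lt_trichotomy x y with h | h | h
            · left; exact ⟨hy, h⟩
            · exfalso
              unfold comm at hxc
              simp only [mem_filter] at hxc
              rw [h] at hxc
              rw [hxc.2.2] at hy'
              exact absurd hy'.2.2 (by simp)
            · right
              unfold ones
              simp only [mem_filter]
              exact ⟨⟨hy'.1, hy'.2.1⟩, h⟩
          · rw [disjoint_left]
            intro y h1 h2
            simp only [mem_filter] at h1 h2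
            omega
        omega
    _ ≤ _ := sum_le_sum_of_subset hsub

end Vale.Agent.P037
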