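import Vale.Agent.P037.Sym
import Vale.Agent.P037.GBasic

/-! Patterns with two equal rows `[[a,b],[a,b]]`. -/

namespace Vale.Agent.P037

open Finset

variable (A : ℕ → ℕ → Bool) (a b : Bool)

def colsV (n r : ℕ) (v : Bool) : Finset ℕ := (range n).filter fun c => A r c = v

def rowsT (n : ℕ) (q : ℕ × ℕ) : Finset ℕ := (range n).filter fun r => A r q.1 = a ∧ A r q.2 = b

def epair (n : ℕ) (q : ℕ × ℕ) : ℕ :=
  if q.1 < q.2 then ((rowsT A a b n q ×ˢ rowsT A a b n q).filter fun x => x.1 < x.2).card else 0

def cntE (n : ℕ) : ℕ := ∑ q ∈ range n ×ˢ range n, epair A a b n q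

def rinv (n r : ℕ) : ℕ := ((colsV A n r a ×ˢ colsV A n r b).filter fun x => x.1 < x.2).card

def flipS (n t r : ℕ) : Finset ℕ :=
  xlo (colsV A n r a) t ∪ yhi (colsV A n r a) (colsV A n r b) t

def FreeE (n : ℕ) (B : ℕ → ℕ → Bool) : Prop :=
  ∀ r1 r2 c1 c2, r1 < r2 → r2 < n → c1 < c2 → c2 < n →
    ¬ (B r1 c1 = a ∧ B r1 c2 = b ∧ B r2 c1 = a ∧ B r2 c2 = b)

theorem card_flipS (n t r : ℕ) : t * (flipS A a b n t r).card ≤ t * t + rinv A a b n r := by
  unfold flipS rinv
  have a1 := Nat.mul_le_mul_left t (card_xlo_le (colsV A n r a) t)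
  have a2 := card_yhi_le (colsV A n r a) (colsV A n r b) t
  have a3 := Nat.mul_le_mul_left t
    (card_union_le (xlo (colsV A n r a) t) (yhi (colsV A n r a) (colsV A n r b) t))
  rw [Nat.mul_add] at a3
  omega

theorem card_le_xlo_yhi (P : Finset ℕ) (t : ℕ) :
    t * P.card ≤ t * t + ((P ×ˢ P).filter fun x => x.1 < x.2).card := by
  have h1 : P ⊆ xlo P t ∪ yhi P P t := by
    intro x hx
    by_cases h : (P.filter fun y => y < x).card < t
    · exact mem_union_left _ (mem_filter.mpr ⟨hx, h⟩)
    · exact mem_union_right _ (mem_filter.mpr ⟨hx, not_lt.mp h⟩)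
  have a1 := Nat.mul_le_mul_left t (card_xlo_le P t)
  have a2 := card_yhi_le P P t
  have a3 := Nat.mul_le_mul_left t (le_trans (card_le_card h1) (card_union_le _ _))
  rw [Nat.mul_add] at a3
  omega

theorem sum_rinv (n t : ℕ) :
    t * ∑ r ∈ range n, rinv A a b n r ≤ n * n * (t * t) + cntE A a b n := by
  have h1 : ∀ r ∈ range n, rinv A a b n r
      = (((range n ×ˢ range n).filter fun q => q.1 < q.2).filter
          fun q => A r q.1 = a ∧ A r q.2 = b).card := by
    intro r _
    unfold rinv colsV
    congr 1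
    ext q
    simp only [mem_filter, mem_product]
    tauto
  rw [sum_congr rfl h1]
  rw [sum_card_swap (range n) ((range n ×ˢ range n).filter fun q => q.1 < q.2)
    (fun r q => A r q.1 = a ∧ A r q.2 = b), mul_sum]
  calc ∑ q ∈ (range n ×ˢ range n).filter (fun q => q.1 < q.2),
        t * ((range n).filter fun r => A r q.1 = a ∧ A r q.2 = b).card
      ≤ ∑ q ∈ (range n ×ˢ range n).filter (fun q => q.1 < q.2), (t * t + epair A a b n q) := by
        apply sum_le_sum
        intro q hq
        have hlt := (mem_filter.mp hq).2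
        unfold epair
        rw [if_pos hlt]
        exact card_le_xlo_yhi (rowsT A a b n q) t
    _ ≤ ∑ q ∈ range n ×ˢ range n, (t * t + epair A a b n q) :=
        sum_le_sum_of_subset (filter_subset _ _)
    _ = _ := by
        rw [sum_add_distrib, sum_const, card_product, card_range, smul_eq_mul]
        rfl

theorem coreE (n t1 t2 : ℕ) :
    ∃ B : ℕ → ℕ → Bool, FreeE a b n B ∧
      t1 * t2 * ((range n ×ˢ range n).filter fun p => A p.1 p.2 ≠ B p.1 p.2).card
        ≤ n * (t1 * t1) * t2 + n * n * (t2 * t2) + cntE A a b n := by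
  refine ⟨fun r c => if c ∈ flipS A a b n t1 r then !(A r c) else A r c, ?_, ?_⟩
  · intro r1 r2 c1 c2 _ _ hc hc2 hcopy
    obtain ⟨h1, h2, _, _⟩ := hcopy
    set X := colsV A n r1 a with hX
    set Y := colsV A n r1 b with hY
    have hc1n : c1 ∈ range n := mem_range.mpr (lt_trans hc hc2)
    have hc2n : c2 ∈ range n := mem_range.mpr hc2
    have hmono : (X.filter fun y => y < c1).card ≤ (X.filter fun y => y < c2).card := by
      apply card_le_card
      intro y hy
      simp only [mem_filter] at hy ⊢
      exact ⟨hy.1, lt_trans hy.2 hc⟩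
    have memX : ∀ c, c ∈ X ↔ (c ∈ range n ∧ A r1 c = a) := fun c => mem_filter
    have memY : ∀ c, c ∈ Y ↔ (c ∈ range n ∧ A r1 c = b) := fun c => mem_filter
    have mxlo : ∀ c, c ∈ xlo X t1 ↔ (c ∈ X ∧ (X.filter fun y => y < c).card < t1) :=
      fun c => mem_filter
    have myhi : ∀ c, c ∈ yhi X Y t1 ↔ (c ∈ Y ∧ t1 ≤ (X.filter fun y => y < c).card) :=
      fun c => mem_filter
    have mfl : ∀ c, c ∈ flipS A a b n t1 r1 ↔ (c ∈ xlo X t1 ∨ c ∈ yhi X Y t1) :=
      fun c => mem_union
    by_cases f1 : c1 ∈ flipS A a b n t1 r1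
    · simp only [if_pos f1] at h1
      rcases (mfl c1).mp f1 with g1 | g1
      · have := ((memX c1).mp ((mxlo c1).mp g1).1).2
        rw [this] at h1
        cases a <;> simp at h1
      · have g1' := (myhi c1).mp g1
        by_cases f2 : c2 ∈ flipS A a b n t1 r1
        · simp only [if_pos f2] at h2
          rcases (mfl c2).mp f2 with g2 | g2
          · have g2' := (mxlo c2).mp g2
            omega
          · have := ((memY c2).mp ((myhi c2).mp g2).1).2
            rw [this] at h2
            cases b <;> simp at h2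
        · simp only [if_neg f2] at h2
          apply f2
          exact (mfl c2).mpr (Or.inr ((myhi c2).mpr ⟨(memY c2).mpr ⟨hc2n, h2⟩, by omega⟩))
    · simp only [if_neg f1] at h1
      have hc1X : c1 ∈ X := (memX c1).mpr ⟨hc1n, h1⟩
      have hge : t1 ≤ (X.filter fun y => y < c1).card := by
        by_contra hlt
        exact f1 ((mfl c1).mpr (Or.inl ((mxlo c1).mpr ⟨hc1X, not_le.mp hlt⟩)))
      by_cases f2 : c2 ∈ flipS A a b n t1 r1
      · simp only [if_pos f2] at h2
        rcases (mfl c2).mp f2 with g2 | g2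
        · have g2' := (mxlo c2).mp g2
          omega
        · have := ((memY c2).mp ((myhi c2).mp g2).1).2
          rw [this] at h2
          cases b <;> simp at h2
      · simp only [if_neg f2] at h2
        apply f2
        exact (mfl c2).mpr (Or.inr ((myhi c2).mpr ⟨(memY c2).mpr ⟨hc2n, h2⟩, by omega⟩))
  · rw [card_filter_product_eq_sum_left]
    have h1 : ∀ r ∈ range n, ((range n).filter fun c =>
        A r c ≠ (if c ∈ flipS A a b n t1 r then !(A r c) else A r c)).card
        ≤ (flipS A a b n t1 r).card := by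
      intro r _
      apply card_le_card
      intro c hc
      have := (mem_filter.mp hc).2
      by_contra hcon
      rw [if_neg hcon] at this
      exact this rfl
    have h2 : t1 * ∑ r ∈ range n, ((range n).filter fun c =>
        A r c ≠ (if c ∈ flipS A a b n t1 r then !(A r c) else A r c)).card
        ≤ n * (t1 * t1) + ∑ r ∈ range n, rinv A a b n r := by
      rw [mul_sum]
      calc _ ≤ ∑ r ∈ range n, (t1 * t1 + rinv A a b n r) := by
            apply sum_le_sum
            intro r hr
            exact le_trans (Nat.mul_le_mul_left t1 (h1 r hr)) (card_flipS A a b n t1 r)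
        _ = _ := by rw [sum_add_distrib, sum_const, card_range, smul_eq_mul]
    have h3 := sum_rinv A a b n t2
    have h4 := Nat.mul_le_mul_left t2 h2
    calc t1 * t2 * _ = t2 * (t1 * ∑ r ∈ range n, ((range n).filter fun c =>
          A r c ≠ (if c ∈ flipS A a b n t1 r then !(A r c) else A r c)).card) := by ring
      _ ≤ t2 * (n * (t1 * t1) + ∑ r ∈ range n, rinv A a b n r) := h4
      _ = n * (t1 * t1) * t2 + t2 * ∑ r ∈ range n, rinv A a b n r := by ring
      _ ≤ _ := by omega

end Vale.Agent.P037
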