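import Vale.Agent.P037.EqRows

/-! Removal bound for the patterns with two equal rows. -/

namespace Vale.Agent.P037

open Finset

theorem arithE (Ke Z u n N D : ℕ) (hZ : Z = 4 * Ke) (hK : 0 < Ke)
    (h1 : Z ^ 2 * u ≤ n) (h2 : n < 2 * (Z ^ 2 * u))
    (hD : (Z * u) * u * D ≤ n * ((Z * u) * (Z * u)) * u + n * n * (u * u) + N)
    (hfar : n * n ≤ Ke * D) : n ^ 4 ≤ Z ^ 8 * N := by
  have hZpos : 0 < Z := by omega
  have c1 : Z * (u * u) * D ≤ 2 * (n * n * (u * u)) + N := by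
    calc Z * (u * u) * D = (Z * u) * u * D := by ring
      _ ≤ n * ((Z * u) * (Z * u)) * u + n * n * (u * u) + N := hD
      _ = n * (Z ^ 2 * u) * (u * u) + n * n * (u * u) + N := by ring
      _ ≤ n * n * (u * u) + n * n * (u * u) + N := by gcongr
      _ = _ := by ring
  have c2 : Ke * (4 * (n * n * (u * u))) ≤ Ke * (2 * (n * n * (u * u)) + N) := by
    calc Ke * (4 * (n * n * (u * u))) = Z * (u * u) * (n * n) := by rw [hZ]; ring
      _ ≤ Z * (u * u) * (Ke * D) := by gcongr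
      _ = Ke * (Z * (u * u) * D) := by ring
      _ ≤ _ := by gcongr
  have c3 := Nat.le_of_mul_le_mul_left c2 hK
  have c4 : 2 * (n * n * (u * u)) ≤ N := by omega
  calc n ^ 4 = n * n * (n * n) := by ring
    _ ≤ n * n * ((2 * (Z ^ 2 * u)) * (2 * (Z ^ 2 * u))) := by gcongr
    _ = 2 * Z ^ 4 * (2 * (n * n * (u * u))) := by ring
    _ ≤ 2 * Z ^ 4 * N := by gcongr
    _ ≤ Z ^ 4 * Z ^ 4 * N := by
        gcongr
        calc 2 ≤ Z := by omega
          _ = Z ^ 1 := (pow_one Z).symm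
          _ ≤ Z ^ 4 := Nat.pow_le_pow_right hZpos (by norm_num)
    _ = _ := by ring

theorem cntE_pos_of_copy (A : ℕ → ℕ → Bool) (a b : Bool) (n r1 r2 c1 c2 : ℕ) (hr : r1 < r2)
    (hr2 : r2 < n) (hc : c1 < c2) (hc2 : c2 < n)
    (h : A r1 c1 = a ∧ A r1 c2 = b ∧ A r2 c1 = a ∧ A r2 c2 = b) : 0 < cntE A a b n := by
  have h1 : 0 < epair A a b n (c1, c2) := by
    unfold epair
    rw [if_pos hc]
    apply card_pos.mpr
    refine ⟨(r1, r2), ?_⟩
    unfold rowsT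
    simp only [mem_filter, mem_product, mem_range]
    exact ⟨⟨⟨lt_trans hr hr2, h.1, h.2.1⟩, ⟨hr2, h.2.2.1, h.2.2.2⟩⟩, hr⟩
  have h2 : epair A a b n (c1, c2) ≤ cntE A a b n := by
    unfold cntE
    exact single_le_sum (f := fun q => epair A a b n q) (fun _ _ => Nat.zero_le _)
      (mem_product.mpr ⟨mem_range.mpr (lt_trans hc hc2), mem_range.mpr hc2⟩)
  omega

theorem nat_mainE (A : ℕ → ℕ → Bool) (a b : Bool) (n Ke : ℕ) (hK : 0 < Ke) (hn : 0 < n)
    (hfar : ∀ B : ℕ → ℕ → Bool, FreeE a b n B →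
      n * n ≤ Ke * ((range n ×ˢ range n).filter fun p => A p.1 p.2 ≠ B p.1 p.2).card) :
    n ^ 4 ≤ (4 * Ke) ^ 8 * cntE A a b n := by
  set Z := 4 * Ke with hZ
  have hZpos : 0 < Z := by omega
  rcases lt_or_ge n (Z ^ 2) with hsmall | hbig
  · have hpos : 0 < cntE A a b n := by
      by_contra h0
      have hfree : FreeE a b n A := by
        intro r1 r2 c1 c2 hr hr2 hc hc2 h
        exact h0 (cntE_pos_of_copy A a b n r1 r2 c1 c2 hr hr2 hc hc2 h)
      have := hfar A hfree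
      simp only [ne_eq, not_true_eq_false, filter_false, card_empty, mul_zero] at this
      have h3 : 0 < n * n := Nat.mul_pos hn hn
      omega
    calc n ^ 4 ≤ (Z ^ 2) ^ 4 := Nat.pow_le_pow_left (le_of_lt hsmall) 4
      _ = Z ^ 8 * 1 := by ring
      _ ≤ Z ^ 8 * cntE A a b n := Nat.mul_le_mul_left _ hpos
  · set u := n / Z ^ 2 with hu
    have hZ2 : 0 < Z ^ 2 := by positivity
    have hupos : 0 < u := Nat.div_pos hbig hZ2
    have h1 : Z ^ 2 * u ≤ n := Nat.mul_div_le n (Z ^ 2)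
    have h2 : n < 2 * (Z ^ 2 * u) := by
      have := Nat.lt_mul_div_succ n hZ2
      have e : Z ^ 2 * (n / Z ^ 2 + 1) = Z ^ 2 * u + Z ^ 2 := by rw [← hu]; ring
      have e2 : Z ^ 2 * 1 ≤ Z ^ 2 * u := Nat.mul_le_mul_left _ hupos
      omega
    obtain ⟨B, hfree, hD⟩ := coreE A a b n (Z * u) u
    exact arithE Ke Z u n _ _ hZ hK h1 h2 hD (hfar B hfree)

def eqPat (a b : Bool) : Matrix (Fin 2) (Fin 2) Bool := !![a, b; a, b]

theorem free_resE (a b : Bool) (n : ℕ) (B : ℕ → ℕ → Bool) (h : FreeE a b n B) :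
    numCopies (eqPat a b) (res n B) = 0 := by
  classical
  rw [numCopies_eq_card, card_eq_zero, filter_eq_empty_iff]
  intro p _ hp
  obtain ⟨h1, h2, h3⟩ := hp
  have hr : p.1 0 < p.1 1 := h1 (by decide)
  have hc : p.2 0 < p.2 1 := h2 (by decide)
  apply h (p.1 0).val (p.1 1).val (p.2 0).val (p.2 1).val hr (p.1 1).isLt hc (p.2 1).isLt
  have e00 := h3 0 0
  have e01 := h3 0 1
  have e10 := h3 1 0
  have e11 := h3 1 1
  simp only [eqPat, res] at e00 e01 e10 e11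
  exact ⟨by simpa using e00, by simpa using e01, by simpa using e10, by simpa using e11⟩

theorem cntE_le_numCopies (a b : Bool) (n : ℕ) (A : Matrix (Fin n) (Fin n) Bool) :
    cntE (ext A) a b n ≤ numCopies (eqPat a b) A := by
  classical
  rw [numCopies_eq_card]
  set Pr := (range n ×ˢ range n).filter fun q => q.1 < q.2 with hPr
  set Vs : ℕ × ℕ → Finset (ℕ × ℕ) := fun q =>
    (rowsT (ext A) a b n q ×ˢ rowsT (ext A) a b n q).filter fun x => x.1 < x.2
    with hVs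
  have h1 : cntE (ext A) a b n = (Pr.sigma Vs).card := by
    rw [card_sigma, hPr, sum_filter]
    rfl
  rw [h1]
  have hsub : Pr.sigma Vs ⊆ (univ.filter fun p : (Fin 2 → Fin n) × (Fin 2 → Fin n) =>
      StrictMono p.1 ∧ StrictMono p.2 ∧ ∀ i j, A (p.1 i) (p.2 j) = eqPat a b i j).image
      (fun p => (⟨((p.2 0).val, (p.2 1).val), ((p.1 0).val, (p.1 1).val)⟩ :
        Sigma fun _ : ℕ × ℕ => ℕ × ℕ)) := by
    intro x hx
    obtain ⟨⟨c1, c2⟩, ⟨r1, r2⟩⟩ := x
    simp only [mem_sigma, hPr, hVs, rowsT, mem_filter, mem_product, mem_range] at hx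
    obtain ⟨⟨⟨hc1, hc2⟩, hc⟩, ⟨⟨hr1, a11, a12⟩, ⟨hr2, a21, a22⟩⟩, hr⟩ := hx
    simp only [mem_image, mem_filter, mem_univ, true_and]
    refine ⟨(![⟨r1, hr1⟩, ⟨r2, hr2⟩], ![⟨c1, hc1⟩, ⟨c2, hc2⟩]), ⟨?_, ?_, ?_⟩, ?_⟩
    · intro i j hij
      fin_cases i <;> fin_cases j <;> simp_all
    · intro i j hij
      fin_cases i <;> fin_cases j <;> simp_all
    · rw [ext_mk A _ _ hr1 hc1] at a11
      rw [ext_mk A _ _ hr1 hc2] at a12
      rw [ext_mk A _ _ hr2 hc1] at a21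
      rw [ext_mk A _ _ hr2 hc2] at a22
      intro i j
      fin_cases i <;> fin_cases j <;> simp [eqPat, a11, a12, a21, a22]
    · simp
  exact le_trans (card_le_card hsub) card_image_le

theorem removal_eq (a b : Bool) : Removal (eqPat a b) 8 8 := by
  intro n ε A hn h0 h1 hfar
  set K := ⌈1 / ε⌉₊ with hKdef
  have hinv : 0 < 1 / ε := by positivity
  have hK : 0 < K := Nat.ceil_pos.mpr hinv
  have hK1 : 1 / ε ≤ (K : ℝ) := Nat.le_ceil _
  have hK2 : (K : ℝ) ≤ 2 / ε := by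
    have a1 : (K : ℝ) < 1 / ε + 1 := Nat.ceil_lt_add_one (le_of_lt hinv)
    have a2 : 1 ≤ 1 / ε := by
      rw [le_div_iff₀ h0]
      linarith
    have a3 : 2 / ε = 1 / ε + 1 / ε := by ring
    linarith
  have key := nat_mainE (ext A) a b n K hK hn (by
    intro B hB
    have a1 := hfar (res n B) (free_resE a b n B hB)
    have a2 : (entryDist A (res n B) : ℝ)
        ≤ (((range n ×ˢ range n).filter fun p => ext A p.1 p.2 ≠ B p.1 p.2).card : ℝ) := by
      exact_mod_cast entryDist_le n A B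
    have a3 : ((n * n : ℕ) : ℝ)
        ≤ ((K * ((range n ×ˢ range n).filter fun p => ext A p.1 p.2 ≠ B p.1 p.2).card : ℕ) : ℝ) := by
      push_cast
      calc (n : ℝ) * n = (1 / ε) * (ε * (n : ℝ) ^ 2) := by field_simp
        _ ≤ (K : ℝ) * (((range n ×ˢ range n).filter fun p =>
              ext A p.1 p.2 ≠ B p.1 p.2).card : ℝ) := by
            apply mul_le_mul hK1 (le_trans a1 a2) (by positivity) (by positivity)
    exact_mod_cast a3)
  have key2 : ((n : ℝ)) ^ 4 ≤ (4 * (K : ℝ)) ^ 8 * (cntE (ext A) a b n : ℝ) := by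
    exact_mod_cast key
  have hle : (cntE (ext A) a b n : ℝ) ≤ (numCopies (eqPat a b) A : ℝ) := by
    exact_mod_cast cntE_le_numCopies a b n A
  have hprod : (ε / 8) * (4 * (K : ℝ)) ≤ 1 := by
    calc (ε / 8) * (4 * (K : ℝ)) ≤ (ε / 8) * (4 * (2 / ε)) := by gcongr
      _ = 1 := by field_simp; norm_num
  have hprod0 : 0 ≤ (ε / 8) * (4 * (K : ℝ)) := by positivity
  calc (ε / 8) ^ 8 * (n : ℝ) ^ 4
      ≤ (ε / 8) ^ 8 * ((4 * (K : ℝ)) ^ 8 * (cntE (ext A) a b n : ℝ)) := by gcongr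
    _ = ((ε / 8) * (4 * (K : ℝ))) ^ 8 * (cntE (ext A) a b n : ℝ) := by rw [mul_pow]; ring
    _ ≤ 1 * (cntE (ext A) a b n : ℝ) := by
        gcongr
        exact pow_le_one₀ hprod0 hprod
    _ = (cntE (ext A) a b n : ℝ) := one_mul _
    _ ≤ _ := hle

end Vale.Agent.P037
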