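import Vale.Agent.P037.GBasic

/-! Few pairwise far, pairwise good rows of comparable size. -/

namespace Vale.Agent.P037

open Finset

variable (A : ℕ → ℕ → Bool)

theorem pre_inter_lt (n w b r r' : ℕ) (hv : viol A n r r' < b) (hd : 8 * w ≤ sdist A n r r')
    (hs : (ones A n r').card < (ones A n r).card + 2 * w) :
    2 * w * (pre A n w r ∩ pre A n w r').card ≤ b := by
  have h1 := sdist_eq A n r r'
  have h2 := ones_eq A n r r'
  have h3 := ones_eq A n r' r
  rw [comm_comm A n r' r] at h3
  have h4 : 2 * w ≤ (only A n r r').card - w := by omega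
  have h5 := inter_pre_small A n w r r'
  calc 2 * w * (pre A n w r ∩ pre A n w r').card
      = (pre A n w r ∩ pre A n w r').card * (2 * w) := Nat.mul_comm _ _
    _ ≤ (pre A n w r ∩ pre A n w r').card * ((only A n r r').card - w) := Nat.mul_le_mul_left _ h4
    _ ≤ viol A n r r' := h5
    _ ≤ b := le_of_lt hv

theorem two_mul_le_one_add_sq (d : ℕ) : 2 * d ≤ 1 + d * d := by
  rcases Nat.eq_zero_or_pos d with h | h
  · subst h; simp
  · rcases Nat.lt_or_ge d 2 with h2 | h2
    · have : d = 1 := by omega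
      subst this; simp
    · have := Nat.mul_le_mul_right d h2
      omega

theorem cell_count (n w b : ℕ) (S : Finset ℕ)
    (hheavy : ∀ r ∈ S, w ≤ (ones A n r).card)
    (hpair : ∀ r ∈ S, ∀ r' ∈ S, r ≠ r' → 2 * w * (pre A n w r ∩ pre A n w r').card ≤ b) :
    2 * (S.card * (w * w)) ≤ 2 * w * n + S.card * S.card * b := by
  set d : ℕ → ℕ := fun c => (S.filter fun r => c ∈ pre A n w r).card with hd
  have hpre : ∀ r, pre A n w r ⊆ range n := fun r =>
    (pre_subset A n w r).trans (filter_subset _ _)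
  have e1 : ∑ c ∈ range n, d c = S.card * w := by
    rw [hd]
    rw [← sum_card_swap S (range n) (fun r c => c ∈ pre A n w r)]
    calc ∑ r ∈ S, ((range n).filter fun c => c ∈ pre A n w r).card = ∑ _r ∈ S, w := by
          apply sum_congr rfl
          intro r hr
          rw [filter_mem_eq_inter, inter_eq_right.mpr (hpre r)]
          exact card_pre A n w r (hheavy r hr)
      _ = S.card * w := by rw [sum_const, smul_eq_mul]
  have e2 : ∑ c ∈ range n, d c * d c
      = ∑ p ∈ S ×ˢ S, (pre A n w p.1 ∩ pre A n w p.2).card := by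
    have h1 : ∀ p ∈ S ×ˢ S, (pre A n w p.1 ∩ pre A n w p.2).card
        = ((range n).filter fun c => c ∈ pre A n w p.1 ∧ c ∈ pre A n w p.2).card := by
      intro p _
      congr 1
      ext c
      simp only [mem_inter, mem_filter]
      constructor
      · intro h; exact ⟨hpre p.1 h.1, h⟩
      · intro h; exact h.2
    rw [sum_congr rfl h1]
    rw [sum_card_swap (S ×ˢ S) (range n) (fun p c => c ∈ pre A n w p.1 ∧ c ∈ pre A n w p.2)]
    apply sum_congr rfl
    intro c _
    exact (card_filter_prod S S (fun r => c ∈ pre A n w r) (fun r => c ∈ pre A n w r)).symm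
  have e3 : 2 * (S.card * w) ≤ n + ∑ p ∈ S ×ˢ S, (pre A n w p.1 ∩ pre A n w p.2).card := by
    rw [← e1, ← e2, mul_sum]
    calc ∑ c ∈ range n, 2 * d c ≤ ∑ c ∈ range n, (1 + d c * d c) :=
          sum_le_sum fun c _ => two_mul_le_one_add_sq (d c)
      _ = _ := by rw [sum_add_distrib, sum_const, card_range, smul_eq_mul, mul_one]
  have e4 : 2 * w * ∑ p ∈ S ×ˢ S, (pre A n w p.1 ∩ pre A n w p.2).card
      ≤ S.card * (2 * w * w) + S.card * S.card * b := by
    rw [mul_sum]
    calc ∑ p ∈ S ×ˢ S, 2 * w * (pre A n w p.1 ∩ pre A n w p.2).card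
        ≤ ∑ p ∈ S ×ˢ S, ((if p.1 = p.2 then 2 * w * w else 0) + b) := by
          apply sum_le_sum
          intro p hp
          have hp' := mem_product.mp hp
          by_cases h : p.1 = p.2
          · rw [if_pos h, h, inter_self, card_pre A n w p.2 (hheavy _ hp'.2)]
            omega
          · rw [if_neg h]
            have := hpair p.1 hp'.1 p.2 hp'.2 h
            omega
      _ = _ := by
          rw [sum_add_distrib, sum_const, card_product, smul_eq_mul, sum_product]
          congr 1
          calc ∑ x ∈ S, ∑ y ∈ S, (if x = y then 2 * w * w else 0) = ∑ _x ∈ S, 2 * w * w := by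
                apply sum_congr rfl
                intro x hx
                rw [sum_ite_eq, if_pos hx]
            _ = _ := by rw [sum_const, smul_eq_mul]
  have e5 := Nat.mul_le_mul_left (2 * w) e3
  have e6 : 2 * w * (2 * (S.card * w)) = 4 * (S.card * (w * w)) := by ring
  have e7 : 2 * w * (n + ∑ p ∈ S ×ˢ S, (pre A n w p.1 ∩ pre A n w p.2).card)
      = 2 * w * n + 2 * w * ∑ p ∈ S ×ˢ S, (pre A n w p.1 ∩ pre A n w p.2).card := by ring
  have e8 : S.card * (2 * w * w) = 2 * (S.card * (w * w)) := by ring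
  omega

theorem cell_bound (n w b K : ℕ) (S : Finset ℕ)
    (hheavy : ∀ r ∈ S, w ≤ (ones A n r).card)
    (hpair : ∀ r ∈ S, ∀ r' ∈ S, r < r' → viol A n r r' < b ∧ 8 * w ≤ sdist A n r r' ∧
      (ones A n r').card < (ones A n r).card + 2 * w)
    (hK1 : 2 * n ≤ w * K) (hK2 : K * K * b < 2 * w * n) : S.card < K := by
  by_contra hcon
  obtain ⟨S', hS', hcard⟩ := exists_subset_card_eq (not_lt.mp hcon)
  have h := cell_count A n w b S' (fun r hr => hheavy r (hS' hr)) (by
    intro r hr r' hr' hne
    rcases lt_or_gt_of_ne hne with hlt | hlt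
    · obtain ⟨a1, a2, a3⟩ := hpair r (hS' hr) r' (hS' hr') hlt
      exact pre_inter_lt A n w b r r' a1 a2 a3
    · obtain ⟨a1, a2, a3⟩ := hpair r' (hS' hr') r (hS' hr) hlt
      rw [inter_comm]
      exact pre_inter_lt A n w b r' r a1 a2 a3)
  rw [hcard] at h
  have h2 : 2 * w * (2 * n) ≤ 2 * w * (w * K) := Nat.mul_le_mul_left _ hK1
  have e1 : 2 * w * (w * K) = 2 * (K * (w * w)) := by ring
  have e2 : 2 * w * (2 * n) = 2 * (2 * w * n) := by ring
  omega

end Vale.Agent.P037
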