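import Vale.Agent.P037.GSelect
import Vale.Agent.P037.Closure

/-! Assembly for the pattern `[[1,1],[1,0]]`. -/

namespace Vale.Agent.P037

open Finset

variable (A : ℕ → ℕ → Bool)

def FreeG (n : ℕ) (B : ℕ → ℕ → Bool) : Prop :=
  ∀ r1 r2 c1 c2, r1 < r2 → r2 < n → c1 < c2 → c2 < n →
    ¬ (B r1 c1 = true ∧ B r1 c2 = true ∧ B r2 c1 = true ∧ B r2 c2 = false)

def delG (n tc : ℕ) (P : Finset ℕ) : Finset ℕ :=
  ((P ×ˢ P).filter fun x => x.1 < x.2).biUnion fun x =>
    xlo (comm A n x.1 x.2) tc ∪ yhi (comm A n x.1 x.2) (only A n x.1 x.2) tc

theorem card_delG (n tc b : ℕ) (P : Finset ℕ)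
    (h : ∀ p ∈ P, ∀ p' ∈ P, p < p' → viol A n p p' < b) :
    tc * (delG A n tc P).card ≤ P.card * P.card * (tc * tc + b) := by
  unfold delG
  calc tc * _ ≤ tc * ∑ x ∈ (P ×ˢ P).filter (fun x => x.1 < x.2),
          ((xlo (comm A n x.1 x.2) tc).card
            + (yhi (comm A n x.1 x.2) (only A n x.1 x.2) tc).card) := by
        apply Nat.mul_le_mul_left
        exact le_trans card_biUnion_le (sum_le_sum fun x _ => card_union_le _ _)
    _ = ∑ x ∈ (P ×ˢ P).filter (fun x => x.1 < x.2),
          (tc * (xlo (comm A n x.1 x.2) tc).card
            + tc * (yhi (comm A n x.1 x.2) (only A n x.1 x.2) tc).card) := by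
        rw [mul_sum]
        apply sum_congr rfl
        intro x _
        ring
    _ ≤ ∑ _x ∈ (P ×ˢ P).filter (fun x => x.1 < x.2), (tc * tc + b) := by
        apply sum_le_sum
        intro x hx
        simp only [mem_filter, mem_product] at hx
        have a1 := Nat.mul_le_mul_left tc (card_xlo_le (comm A n x.1 x.2) tc)
        have a2 := card_yhi_le (comm A n x.1 x.2) (only A n x.1 x.2) tc
        have a3 := h x.1 hx.1.1 x.2 hx.1.2 hx.2
        unfold viol at a3
        omega
    _ = ((P ×ˢ P).filter fun x => x.1 < x.2).card * (tc * tc + b) := by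
        rw [sum_const, smul_eq_mul]
    _ ≤ _ := by
        apply Nat.mul_le_mul_right
        calc _ ≤ (P ×ˢ P).card := card_filter_le _ _
          _ = _ := card_product _ _

def Asg (n M w : ℕ) (P : Finset ℕ) (r : ℕ) : Prop :=
  ∃ p, p ∈ P ∧ gcell A n M w p = gcell A n M w r ∧ sdist A n r p < 8 * w

open Classical in
noncomputable def piv (n M w : ℕ) (P : Finset ℕ) (r : ℕ) : ℕ :=
  if h : Asg A n M w P r then Classical.choose h else 0

theorem piv_spec (n M w : ℕ) (P : Finset ℕ) (r : ℕ) (h : Asg A n M w P r) :
    piv A n M w P r ∈ P ∧ gcell A n M w (piv A n M w P r) = gcell A n M w r ∧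
      sdist A n r (piv A n M w P r) < 8 * w := by
  unfold piv
  rw [dif_pos h]
  exact Classical.choose_spec h

theorem piv_div (n M w : ℕ) (P : Finset ℕ) (r : ℕ) (h : Asg A n M w P r) :
    piv A n M w P r / M = r / M := by
  have := (piv_spec A n M w P r h).2.1
  unfold gcell at this
  exact (Prod.mk.inj this).1

theorem card_ones_le (n r : ℕ) : (ones A n r).card ≤ n := by
  unfold ones
  calc _ ≤ (range n).card := card_filter_le _ _
    _ = n := card_range n

open Classical in
theorem coreG (n M w b d tc th K : ℕ) (hw : 0 < w) (hM : 0 < M)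
    (hK1 : 2 * n ≤ w * K) (hK2 : K * K * b < 2 * w * n) :
    ∃ (B : ℕ → ℕ → Bool) (h0 R dd add : ℕ), FreeG n B ∧
      ((range n ×ˢ range n).filter fun p => A p.1 p.2 ≠ B p.1 p.2).card
        ≤ n * w + n * (h0 + R * d) + n * (8 * w + dd + th) + add ∧
      b * (d * h0) ≤ 2 * cntG A n ∧
      R ≤ K * ((n / M + 1) * (n / (2 * w) + 1)) ∧
      tc * dd ≤ R * R * (tc * tc + b) ∧
      th * add ≤ n * n * M := by
  obtain ⟨P, hPsub, hPok, hPmax⟩ := exists_pivots A n M w b d hw
  have hviol : ∀ p ∈ P, ∀ p' ∈ P, p < p' → viol A n p p' < b := by
    intro p hp p' hp' hlt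
    by_contra hv
    exact (hPok p hp p' hp' (ne_of_lt hlt)).1 (Or.inl ⟨hlt, not_lt.mp hv⟩)
  set D := delG A n tc P with hD
  set E' : ℕ → ℕ → Bool := fun p c => A p c && decide (c ∉ D) with hE'
  have hE'1 : ∀ p c, E' p c = true ↔ (A p c = true ∧ c ∉ D) := by
    intro p c
    simp only [hE', Bool.and_eq_true, decide_eq_true_eq]
  obtain ⟨BP, hBP1, hBP2, hBP3⟩ := tie_closure P n M th E' (by
    intro p hp p' hp' hlt c1 c2 hc hc2 e1 e2 e3
    rw [hE'1] at e1 e2 e3 ⊢
    refine ⟨?_, e2.2⟩
    by_contra hA
    have hA' : A p' c2 = false := by simpa using hA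
    have m1 : c1 ∈ comm A n p p' := by
      unfold comm
      exact mem_filter.mpr ⟨mem_range.mpr (lt_trans hc hc2), e1.1, e3.1⟩
    have m2 : c2 ∈ only A n p p' := by
      unfold only
      exact mem_filter.mpr ⟨mem_range.mpr hc2, e2.1, hA'⟩
    have hx : (p, p') ∈ (P ×ˢ P).filter fun x => x.1 < x.2 :=
      mem_filter.mpr ⟨mem_product.mpr ⟨hp, hp'⟩, hlt⟩
    rcases xlo_or_yhi (comm A n p p') (only A n p p') tc m1 m2 hc with h | h
    · apply e1.2
      rw [hD]
      unfold delG
      exact mem_biUnion.mpr ⟨(p, p'), hx, mem_union_left _ h⟩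
    · apply e2.2
      rw [hD]
      unfold delG
      exact mem_biUnion.mpr ⟨(p, p'), hx, mem_union_right _ h⟩)
  set π := piv A n M w P with hπ
  set B : ℕ → ℕ → Bool := fun r c => decide (Asg A n M w P r) && BP (π r) c with hB
  have hB1 : ∀ r c, B r c = true ↔ (Asg A n M w P r ∧ BP (π r) c = true) := by
    intro r c
    simp only [hB, Bool.and_eq_true, decide_eq_true_eq]
  set H0 := (range n).filter fun r => d ≤ bdeg A n b r with hH0
  set Pt := P.biUnion fun p => (range n).filter fun r => bad A n b p r with hPt
  set Q : ℕ → ℕ → Prop := fun p c => BP p c = true ∧ E' p c = false with hQ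
  set As := (range n).filter fun r => Asg A n M w P r with hAs
  refine ⟨B, H0.card, P.card, D.card,
    ∑ r ∈ As, ((range n).filter fun c => Q (π r) c).card, ?_, ?_, ?_, ?_, ?_, ?_⟩
  · -- freeness
    intro r1 r2 c1 c2 hr hr2 hc hc2 hcopy
    obtain ⟨h11, h12, h21, h22⟩ := hcopy
    rw [hB1] at h11 h12 h21
    have s1 := piv_spec A n M w P r1 h11.1
    have s2 := piv_spec A n M w P r2 h21.1
    have hdiv : π r1 / M ≤ π r2 / M := by
      rw [hπ, piv_div A n M w P r1 h11.1, piv_div A n M w P r2 h21.1]
      exact Nat.div_le_div_right (le_of_lt hr)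
    have := hBP1 (π r1) s1.1 (π r2) s2.1 hdiv c1 c2 hc hc2 h11.2 h12.2 h21.2
    have h22' : B r2 c2 = true := (hB1 r2 c2).mpr ⟨h21.1, this⟩
    rw [h22'] at h22
    exact absurd h22 (by simp)
  · -- distance
    rw [card_filter_product_eq_sum_left]
    have hrow1 : ∀ r ∈ As, ((range n).filter fun c => A r c ≠ B r c).card
        ≤ (8 * w + D.card + th) + ((range n).filter fun c => Q (π r) c).card := by
      intro r hr
      have hasg : Asg A n M w P r := (mem_filter.mp hr).2
      have s := piv_spec A n M w P r hasg
      have hsub : ((range n).filter fun c => A r c ≠ B r c)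
          ⊆ (((range n).filter fun c => A r c ≠ A (π r) c) ∪ D
            ∪ ((range n).filter fun c => E' (π r) c = true ∧ BP (π r) c = false))
            ∪ ((range n).filter fun c => Q (π r) c) := by
        intro c hc
        simp only [mem_filter, mem_union] at hc ⊢
        obtain ⟨hcn, hne⟩ := hc
        have hBrc : B r c = BP (π r) c := by
          simp only [hB, decide_eq_true hasg, Bool.true_and]
        rw [hBrc] at hne
        by_cases h1 : A r c = A (π r) c
        · by_cases h2 : c ∈ D
          · left; left; right; exact h2
          · have hE : E' (π r) c = A (π r) c := by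
              simp only [hE', decide_eq_true h2, Bool.and_true]
            rw [h1, ← hE] at hne
            cases hb : BP (π r) c
            · left; right
              refine ⟨hcn, ?_, rfl⟩
              rw [hb] at hne
              simpa using hne
            · right
              refine ⟨hcn, hb, ?_⟩
              rw [hb] at hne
              simpa using hne
        · left; left; left; exact ⟨hcn, h1⟩
      have c1 : ((range n).filter fun c => A r c ≠ A (π r) c).card < 8 * w := s.2.2
      have c2 := hBP2 (π r) s.1
      calc _ ≤ _ := card_le_card hsub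
        _ ≤ (((range n).filter fun c => A r c ≠ A (π r) c).card + D.card
            + ((range n).filter fun c => E' (π r) c = true ∧ BP (π r) c = false).card)
            + ((range n).filter fun c => Q (π r) c).card := by
            refine le_trans (card_union_le _ _) (Nat.add_le_add_right ?_ _)
            refine le_trans (card_union_le _ _) (Nat.add_le_add_right ?_ _)
            exact card_union_le _ _
        _ ≤ _ := by omega
    have hrow2 : ∀ r ∈ (range n).filter (fun r => ¬ Asg A n M w P r),
        ((range n).filter fun c => A r c ≠ B r c).card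
          ≤ w + n * (if r ∈ H0 ∪ Pt then 1 else 0) := by
      intro r hr
      have hrn := (mem_filter.mp hr).1
      have hna : ¬ Asg A n M w P r := (mem_filter.mp hr).2
      have e : ((range n).filter fun c => A r c ≠ B r c) = ones A n r := by
        unfold ones
        apply filter_congr
        intro c _
        have hBrc : B r c = false := by
          simp only [hB, decide_eq_false hna, Bool.false_and]
        rw [hBrc]
        simp
      rw [e]
      by_cases hH : r ∈ H0 ∪ Pt
      · rw [if_pos hH]
        have := card_ones_le A n r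
        omega
      · rw [if_neg hH]
        simp only [mem_union, not_or] at hH
        by_contra hcon
        have hheavy : w ≤ (ones A n r).card := by omega
        have hdeg : bdeg A n b r < d := by
          by_contra h
          exact hH.1 (mem_filter.mpr ⟨hrn, not_lt.mp h⟩)
        have hg : r ∈ good0 A n w b d := mem_filter.mpr ⟨hrn, hheavy, hdeg⟩
        rcases hPmax r hg with ⟨p, hp, h1, h2⟩ | ⟨p, hp, hb⟩
        · exact hna ⟨p, hp, h1, h2⟩
        · exact hH.2 (mem_biUnion.mpr ⟨p, hp, mem_filter.mpr ⟨hrn, hb⟩⟩)
    have hPt_card : Pt.card ≤ P.card * d := by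
      calc Pt.card ≤ ∑ p ∈ P, ((range n).filter fun r => bad A n b p r).card := card_biUnion_le
        _ ≤ ∑ _p ∈ P, d := by
            apply sum_le_sum
            intro p hp
            have := hPsub hp
            unfold good0 at this
            exact le_of_lt (mem_filter.mp this).2.2
        _ = _ := by rw [sum_const, smul_eq_mul]
    rw [← sum_filter_add_sum_filter_not (range n) (fun r => Asg A n M w P r)]
    have s1 : ∑ r ∈ As, ((range n).filter fun c => A r c ≠ B r c).card
        ≤ n * (8 * w + D.card + th) + ∑ r ∈ As, ((range n).filter fun c => Q (π r) c).card := by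
      calc _ ≤ ∑ r ∈ As, ((8 * w + D.card + th) + ((range n).filter fun c => Q (π r) c).card) :=
            sum_le_sum hrow1
        _ = As.card * (8 * w + D.card + th)
            + ∑ r ∈ As, ((range n).filter fun c => Q (π r) c).card := by
            rw [sum_add_distrib, sum_const, smul_eq_mul]
        _ ≤ _ := by
            apply Nat.add_le_add_right
            apply Nat.mul_le_mul_right
            calc As.card ≤ (range n).card := card_filter_le _ _
              _ = n := card_range n
    have s2 : ∑ r ∈ (range n).filter (fun r => ¬ Asg A n M w P r),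
        ((range n).filter fun c => A r c ≠ B r c).card ≤ n * w + n * (H0.card + P.card * d) := by
      calc _ ≤ ∑ r ∈ (range n).filter (fun r => ¬ Asg A n M w P r),
              (w + n * (if r ∈ H0 ∪ Pt then 1 else 0)) := sum_le_sum hrow2
        _ ≤ ∑ r ∈ range n, (w + n * (if r ∈ H0 ∪ Pt then 1 else 0)) :=
            sum_le_sum_of_subset (filter_subset _ _)
        _ = n * w + n * ((range n).filter fun r => r ∈ H0 ∪ Pt).card := by
            rw [sum_add_distrib, sum_const, card_range, smul_eq_mul, ← mul_sum, card_filter]
        _ ≤ _ := by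
            apply Nat.add_le_add_left
            apply Nat.mul_le_mul_left
            calc ((range n).filter fun r => r ∈ H0 ∪ Pt).card ≤ (H0 ∪ Pt).card := by
                  apply card_le_card
                  intro r hr
                  exact (mem_filter.mp hr).2
              _ ≤ H0.card + Pt.card := card_union_le _ _
              _ ≤ _ := by omega
    calc _ = ∑ r ∈ As, ((range n).filter fun c => A r c ≠ B r c).card
          + ∑ r ∈ (range n).filter (fun r => ¬ Asg A n M w P r),
            ((range n).filter fun c => A r c ≠ B r c).card := rfl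
      _ ≤ _ := by omega
  · exact card_high A n b d
  · exact card_pivots A n M w b d K hw P hPsub hPok hK1 hK2
  · exact card_delG A n tc b P hviol
  · -- additions
    rw [sum_card_swap As (range n) (fun r c => Q (π r) c), mul_sum]
    calc ∑ c ∈ range n, th * (As.filter fun r => Q (π r) c).card
        ≤ ∑ _c ∈ range n, n * M := by
          apply sum_le_sum
          intro c hc
          have h1 : (As.filter fun r => Q (π r) c).card
              ≤ M * ((As.filter fun r => Q (π r) c).image fun r => r / M).card := by
            apply card_le_mul_card_image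
            intro a _
            exact card_filter_div_le M hM _ a
          have h2 : ((As.filter fun r => Q (π r) c).image fun r => r / M)
              ⊆ (P.filter fun p => BP p c = true ∧ E' p c = false).image fun p => p / M := by
            intro a ha
            obtain ⟨r, hr, rfl⟩ := mem_image.mp ha
            have hr1 := mem_filter.mp hr
            have hasg : Asg A n M w P r := (mem_filter.mp hr1.1).2
            refine mem_image.mpr ⟨π r, mem_filter.mpr ⟨(piv_spec A n M w P r hasg).1, hr1.2⟩, ?_⟩
            exact piv_div A n M w P r hasg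
          have h3 := hBP3 c (mem_range.mp hc)
          calc th * (As.filter fun r => Q (π r) c).card
              ≤ th * (M * ((P.filter fun p => BP p c = true ∧ E' p c = false).image
                  fun p => p / M).card) :=
                Nat.mul_le_mul_left _ (le_trans h1 (Nat.mul_le_mul_left _ (card_le_card h2)))
            _ = (th * ((P.filter fun p => BP p c = true ∧ E' p c = false).image
                  fun p => p / M).card) * M := by ring
            _ ≤ n * M := Nat.mul_le_mul_right _ h3
      _ = n * n * M := by rw [sum_const, card_range, smul_eq_mul]; ring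

end Vale.Agent.P037
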