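import Vale.Agent.P037.GCell

/-! Selection of pivot rows. -/

namespace Vale.Agent.P037

open Finset

variable (A : ℕ → ℕ → Bool)

def gcell (n M w r : ℕ) : ℕ × ℕ := (r / M, (ones A n r).card / (2 * w))

def good0 (n w b d : ℕ) : Finset ℕ :=
  (range n).filter fun r => w ≤ (ones A n r).card ∧ bdeg A n b r < d

def PivOK (n M w b : ℕ) (P : Finset ℕ) : Prop :=
  ∀ p ∈ P, ∀ p' ∈ P, p ≠ p' →
    ¬ bad A n b p p' ∧ (gcell A n M w p = gcell A n M w p' → 8 * w ≤ sdist A n p p')

theorem exists_pivots (n M w b d : ℕ) (hw : 0 < w) :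
    ∃ P : Finset ℕ, P ⊆ good0 A n w b d ∧ PivOK A n M w b P ∧
      ∀ r ∈ good0 A n w b d,
        (∃ p ∈ P, gcell A n M w p = gcell A n M w r ∧ sdist A n r p < 8 * w) ∨
        (∃ p ∈ P, bad A n b p r) := by
  classical
  set F := (good0 A n w b d).powerset.filter fun P => PivOK A n M w b P with hF
  have hne : F.Nonempty := by
    refine ⟨∅, ?_⟩
    simp only [hF, mem_filter, mem_powerset, empty_subset, true_and]
    intro p hp
    exact absurd hp (notMem_empty p)
  obtain ⟨P, hP, hmax⟩ := exists_max_image F card hne
  simp only [hF, mem_filter, mem_powerset] at hP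
  refine ⟨P, hP.1, hP.2, ?_⟩
  intro r hr
  by_cases hrP : r ∈ P
  · left
    exact ⟨r, hrP, rfl, by rw [sdist_self]; omega⟩
  by_contra hcon
  have h1 : ∀ p ∈ P, gcell A n M w p = gcell A n M w r → 8 * w ≤ sdist A n r p := by
    intro p hp hc
    by_contra h
    exact hcon (Or.inl ⟨p, hp, hc, not_le.mp h⟩)
  have h2 : ∀ p ∈ P, ¬ bad A n b p r := fun p hp hb => hcon (Or.inr ⟨p, hp, hb⟩)
  have hins : insert r P ∈ F := by
    simp only [hF, mem_filter, mem_powerset]
    refine ⟨insert_subset hr hP.1, ?_⟩
    intro p hp p' hp' hne'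
    rcases mem_insert.mp hp with e1 | m1
    · rcases mem_insert.mp hp' with e2 | m2
      · exact absurd (e1.trans e2.symm) hne'
      · rw [e1]
        refine ⟨fun hb => h2 p' m2 ((bad_symm A n b _ _).mp hb), fun hc => ?_⟩
        exact h1 p' m2 hc.symm
    · rcases mem_insert.mp hp' with e2 | m2
      · rw [e2]
        refine ⟨fun hb => h2 p m1 hb, fun hc => ?_⟩
        rw [sdist_comm]
        exact h1 p m1 hc
      · exact hP.2 p m1 p' m2 hne'
  have := hmax _ hins
  rw [card_insert_of_notMem hrP] at this
  omega

theorem card_pivots (n M w b d K : ℕ) (hw : 0 < w) (P : Finset ℕ) (hP : P ⊆ good0 A n w b d)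
    (hok : PivOK A n M w b P) (hK1 : 2 * n ≤ w * K) (hK2 : K * K * b < 2 * w * n) :
    P.card ≤ K * ((n / M + 1) * (n / (2 * w) + 1)) := by
  classical
  have h1 : P.card ≤ K * (P.image (gcell A n M w)).card := by
    apply card_le_mul_card_image
    intro a _
    apply le_of_lt
    apply cell_bound A n w b K
    · intro r hr
      have := hP (mem_filter.mp hr).1
      unfold good0 at this
      exact (mem_filter.mp this).2.1
    · intro r hr r' hr' hlt
      have hr1 := mem_filter.mp hr
      have hr2 := mem_filter.mp hr'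
      have hh := hok r hr1.1 r' hr2.1 (ne_of_lt hlt)
      refine ⟨?_, hh.2 (hr1.2.trans hr2.2.symm), ?_⟩
      · by_contra hv
        exact hh.1 (Or.inl ⟨hlt, not_lt.mp hv⟩)
      · have hc : gcell A n M w r = gcell A n M w r' := hr1.2.trans hr2.2.symm
        unfold gcell at hc
        have hc2 : (ones A n r).card / (2 * w) = (ones A n r').card / (2 * w) :=
          (Prod.mk.inj hc).2
        have a1 := Nat.div_add_mod (ones A n r).card (2 * w)
        have a2 := Nat.div_add_mod (ones A n r').card (2 * w)
        have a3 := Nat.mod_lt (ones A n r').card (show 0 < 2 * w by omega)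
        rw [hc2] at a1
        omega
    · exact hK1
    · exact hK2
  have h2 : (P.image (gcell A n M w)).card ≤ (n / M + 1) * (n / (2 * w) + 1) := by
    have hsub : P.image (gcell A n M w) ⊆ range (n / M + 1) ×ˢ range (n / (2 * w) + 1) := by
      intro a ha
      obtain ⟨r, hr, rfl⟩ := mem_image.mp ha
      have hr' := hP hr
      unfold good0 at hr'
      have hrn := mem_range.mp (mem_filter.mp hr').1
      unfold gcell
      simp only [mem_product, mem_range]
      constructor
      · have := Nat.div_le_div_right (c := M) (le_of_lt hrn)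
        omega
      · have h3 : (ones A n r).card ≤ n := by
          unfold ones
          calc _ ≤ (range n).card := card_filter_le _ _
            _ = n := card_range n
        have := Nat.div_le_div_right (c := 2 * w) h3
        omega
    calc _ ≤ _ := card_le_card hsub
      _ = _ := by rw [card_product, card_range, card_range]
  exact le_trans h1 (Nat.mul_le_mul_left K h2)

end Vale.Agent.P037
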