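import Vale.Agent.P037.Core

/-! The parametric approximation theorem. -/

namespace Vale.Agent.P037

open Finset

variable (A : ℕ → ℕ → Bool)

theorem colw_strip_le (n M i c : ℕ) (hM : 0 < M) : colw A (strip n M i) c ≤ M :=
  le_trans (card_filter_le _ _) (card_strip_le n M i hM)

theorem lev_lt (g b L M x : ℕ) (hg : 0 < g) (hb : b < g) (hL : M + g ≤ L * g) (hx : x ≤ M) :
    lev g b x < L := by
  unfold lev
  rw [Nat.div_lt_iff_lt_mul hg]
  omega

theorem core (n M g m t1 t2 th L : ℕ) (hM : 0 < M) (hg : 0 < g) (hL : M + g ≤ L * g) :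
    ∃ (B : ℕ → ℕ → Bool) (E1 E2 d1 d2 : ℕ),
      (∀ r1 r2 c1 c2, r1 < r2 → r2 < n → c1 < c2 → c2 < n →
        ¬ (B r1 c1 = true ∧ B r1 c2 = false ∧ B r2 c1 = false ∧ B r2 c2 = true)) ∧
      ((range n ×ˢ range n).filter fun p => A p.1 p.2 ≠ B p.1 p.2).card
        ≤ E1 + E2 + n * (d1 + d2) ∧
      t1 * t2 * E1 ≤ (n / M + 1) * (2 * n * (t1 * t1) * t2 + 2 * (M * M) * (t2 * t2))
        + 4 * cnt A n + 4 * M * M * (n * n) ∧
      E2 ≤ (n / M + 1) * (n * g) ∧
      g * d1 ≤ 2 * m * ((n / M + 1) * n) ∧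
      (2 * m) * (2 * m) * th * d2
        ≤ (n / M + 1) * (n / M + 1) * (L * L) * ((2 * m) * (2 * m) * th * th + cnt A n) := by
  obtain ⟨b, hb, hnear⟩ := shift_exists (range (n / M + 1) ×ˢ range n)
    (fun x => colw A (strip n M x.1) x.2) g m hg
  have hb' := mem_range.mp hb
  set D1 := ((range (n / M + 1) ×ˢ range n).filter fun x =>
    near g b m (colw A (strip n M x.1) x.2)).image Prod.snd with hD1
  set G := (range n).filter fun c => c ∉ D1 with hG
  set l : ℕ → ℕ → ℕ := fun i c => lev g b (colw A (strip n M i) c) with hl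
  set D2 := dtwo G l (n / M + 1) L th with hD2
  set U1 : ℕ → ℕ → ℕ → Bool :=
    fun i r c => decide (rk (strip n M i) (key A n) r < colw A (strip n M i) c) with hU1
  set U2 : ℕ → ℕ → ℕ → Bool :=
    fun i r c => decide (lev g b (rk (strip n M i) (key A n) r) < l i c) with hU2
  refine ⟨fun r c => decide (c ∉ D1 ∧ c ∉ D2 ∧ U2 (r / M) r c = true),
    ∑ i ∈ range (n / M + 1), mis A (strip n M i) (range n) (key A n),
    ∑ i ∈ range (n / M + 1), ∑ c ∈ range n,
      ((strip n M i).filter fun r => U1 i r c ≠ U2 i r c).card,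
    D1.card, D2.card, ?_, ?_, ?_, ?_, ?_, ?_⟩
  · -- freeness
    intro r1 r2 c1 c2 hr hr2 hc hc2 hcopy
    obtain ⟨h11, h12, h21, h22⟩ := hcopy
    simp only [decide_eq_true_eq, decide_eq_false_iff_not] at h11 h12 h21 h22
    obtain ⟨a1, a2, a3⟩ := h11
    obtain ⟨b1, b2, b3⟩ := h22
    have a4 : ¬ U2 (r1 / M) r1 c2 = true := fun h => h12 ⟨b1, b2, h⟩
    have b4 : ¬ U2 (r2 / M) r2 c1 = true := fun h => h21 ⟨a1, a2, h⟩
    simp only [hU2, decide_eq_true_eq] at a3 a4 b3 b4
    have hij : r1 / M ≤ r2 / M := Nat.div_le_div_right (le_of_lt hr)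
    rcases lt_or_eq_of_le hij with hlt | heq
    · -- different strips
      have hj : r2 / M < n / M + 1 := by
        have := Nat.div_le_div_right (c := M) (le_of_lt hr2)
        omega
      have hk1 : lev g b (rk (strip n M (r1 / M)) (key A n) r1) < L :=
        lt_trans a3 (lev_lt g b L M _ hg hb' hL (colw_strip_le A n M _ _ hM))
      have hk2 : lev g b (rk (strip n M (r2 / M)) (key A n) r2) < L :=
        lt_trans b3 (lev_lt g b L M _ hg hb' hL (colw_strip_le A n M _ _ hM))
      set x : (ℕ × ℕ) × (ℕ × ℕ) := ((r1 / M, r2 / M),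
        (lev g b (rk (strip n M (r1 / M)) (key A n) r1),
          lev g b (rk (strip n M (r2 / M)) (key A n) r2))) with hx
      have hxi : x ∈ idx (n / M + 1) L := by
        unfold idx
        simp only [mem_filter, mem_product, mem_range, hx]
        exact ⟨⟨⟨lt_trans hlt hj, hj⟩, hk1, hk2⟩, hlt⟩
      have hc1X : c1 ∈ colX G l x := by
        unfold colX
        simp only [mem_filter, hG, mem_range, hx]
        exact ⟨⟨lt_trans hc hc2, a1⟩, a3, not_lt.mp b4⟩
      have hc2Y : c2 ∈ colY G l x := by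
        unfold colY
        simp only [mem_filter, hG, mem_range, hx]
        exact ⟨⟨hc2, b1⟩, not_lt.mp a4, b3⟩
      rcases xlo_or_yhi (colX G l x) (colY G l x) th hc1X hc2Y hc with h | h
      · apply a2
        rw [hD2]
        unfold dtwo
        exact mem_biUnion.mpr ⟨x, hxi, mem_union_left _ h⟩
      · apply b2
        rw [hD2]
        unfold dtwo
        exact mem_biUnion.mpr ⟨x, hxi, mem_union_right _ h⟩
    · -- same strip
      rw [← heq] at b3 b4
      omega
  · -- distance
    have hsub : ((range n ×ˢ range n).filter fun p =>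
          A p.1 p.2 ≠ decide (p.2 ∉ D1 ∧ p.2 ∉ D2 ∧ U2 (p.1 / M) p.1 p.2 = true))
        ⊆ (((range n ×ˢ range n).filter fun p =>
            (fun _ r c => A r c) (p.1 / M) p.1 p.2 ≠ U1 (p.1 / M) p.1 p.2)
          ∪ ((range n ×ˢ range n).filter fun p => U1 (p.1 / M) p.1 p.2 ≠ U2 (p.1 / M) p.1 p.2))
          ∪ (range n ×ˢ (D1 ∪ D2)) := by
      intro p hp
      simp only [mem_filter, mem_union, mem_product] at hp ⊢
      obtain ⟨⟨hp1, hp2⟩, hne⟩ := hp
      by_cases h1 : p.2 ∈ D1
      · right; exact ⟨hp1, Or.inl h1⟩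
      by_cases h2 : p.2 ∈ D2
      · right; exact ⟨hp1, Or.inr h2⟩
      left
      by_cases h3 : A p.1 p.2 = U1 (p.1 / M) p.1 p.2
      · right
        refine ⟨⟨hp1, hp2⟩, ?_⟩
        intro h4
        apply hne
        rw [h3, h4]
        cases hu : U2 (p.1 / M) p.1 p.2
        · symm; rw [decide_eq_false_iff_not]; intro h; exact absurd h.2.2 (by simp)
        · symm; rw [decide_eq_true_eq]; exact ⟨h1, h2, rfl⟩
      · left
        exact ⟨⟨hp1, hp2⟩, h3⟩
    calc _ ≤ _ := card_le_card hsub
      _ ≤ (((range n ×ˢ range n).filter fun p =>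
            (fun _ r c => A r c) (p.1 / M) p.1 p.2 ≠ U1 (p.1 / M) p.1 p.2).card
          + ((range n ×ˢ range n).filter fun p =>
            U1 (p.1 / M) p.1 p.2 ≠ U2 (p.1 / M) p.1 p.2).card)
          + (range n ×ˢ (D1 ∪ D2)).card :=
          le_trans (card_union_le _ _) (Nat.add_le_add_right (card_union_le _ _) _)
      _ ≤ _ := by
        rw [mism_eq n M (fun _ r c => A r c) U1, mism_eq n M U1 U2, card_product, card_range]
        have := Nat.mul_le_mul_left n (card_union_le D1 D2)
        have e : ∑ i ∈ range (n / M + 1), mis A (strip n M i) (range n) (key A n)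
            = ∑ i ∈ range (n / M + 1), ∑ c ∈ range n,
              ((strip n M i).filter fun r => A r c ≠ U1 i r c).card := rfl
        rw [e]
        omega
  · exact E1_bound A n M (n / M + 1) t1 t2 hM
  · calc _ ≤ ∑ _i ∈ range (n / M + 1), ∑ _c ∈ range n, g := by
          apply sum_le_sum
          intro i _
          apply sum_le_sum
          intro c _
          exact E2_col (strip n M i) (key A n) (key_injOn A n _ (strip_subset n M i)) g b _ hg
      _ = _ := by simp only [sum_const, card_range, smul_eq_mul]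
  · have hle : D1.card ≤ ((range (n / M + 1) ×ˢ range n).filter fun x =>
        near g b m (colw A (strip n M x.1) x.2)).card := by
      exact card_image_le
    calc g * D1.card ≤ _ := Nat.mul_le_mul_left g hle
      _ ≤ _ := hnear
      _ = _ := by rw [card_product, card_range, card_range]
  · apply dtwo_bound
    intro x hx
    unfold idx at hx
    simp only [mem_filter, mem_product, mem_range] at hx
    obtain ⟨⟨⟨hi, hj⟩, _, _⟩, hij⟩ := hx
    calc 2 * m * (2 * m) * ((colX G l x ×ˢ colY G l x).filter fun q => q.1 < q.2).card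
        = ∑ _q ∈ (colX G l x ×ˢ colY G l x).filter (fun q => q.1 < q.2), 2 * m * (2 * m) := by
          rw [sum_const, smul_eq_mul]; ring
      _ ≤ ∑ q ∈ (colX G l x ×ˢ colY G l x).filter (fun q => q.1 < q.2), vcount A n q := by
          apply sum_le_sum
          intro q hq
          unfold colX colY at hq
          simp only [mem_filter, mem_product, hG, mem_range] at hq
          obtain ⟨⟨⟨⟨q1n, q1D⟩, q1a, q1b⟩, ⟨⟨q2n, q2D⟩, q2a, q2b⟩⟩, hlt⟩ := hq
          have nn : ∀ c, c < n → c ∉ D1 → ∀ i, i < n / M + 1 →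
              ¬ near g b m (colw A (strip n M i) c) := by
            intro c hc hcD i hi hn
            apply hcD
            simp only [hD1, mem_image, mem_filter, mem_product, mem_range]
            exact ⟨(i, c), ⟨⟨hi, hc⟩, hn⟩, rfl⟩
          have g1 := gap g b m _ _ (nn q.1 q1n q1D x.1.1 hi) (nn q.2 q2n q2D x.1.1 hi)
            (lt_of_le_of_lt q2a q1a)
          have g2 := gap g b m _ _ (nn q.2 q2n q2D x.1.2 hj) (nn q.1 q1n q1D x.1.2 hj)
            (lt_of_le_of_lt q1b q2b)
          exact vcount_ge A n M x.1.1 x.1.2 q.1 q.2 (2 * m) hij hlt g1 g2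
      _ ≤ cnt A n := by
          unfold cnt
          apply sum_le_sum_of_subset
          intro q hq
          unfold colX colY at hq
          simp only [mem_filter, mem_product, hG] at hq
          exact mem_product.mpr ⟨hq.1.1.1.1, hq.1.2.1.1⟩

end Vale.Agent.P037
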