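import Vale.Agent.P037.Main
import Vale.Agent.P037.Arith

/-! The removal bound for matrices indexed by natural numbers. -/

namespace Vale.Agent.P037

open Finset

variable (A : ℕ → ℕ → Bool)

/-- no ordered copy of the identity pattern inside `[0,n) × [0,n)` -/
def FreeN (n : ℕ) (B : ℕ → ℕ → Bool) : Prop :=
  ∀ r1 r2 c1 c2, r1 < r2 → r2 < n → c1 < c2 → c2 < n →
    ¬ (B r1 c1 = true ∧ B r1 c2 = false ∧ B r2 c1 = false ∧ B r2 c2 = true)

theorem cnt_pos_of_copy (n r1 r2 c1 c2 : ℕ) (hr : r1 < r2) (hr2 : r2 < n) (hc : c1 < c2)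
    (hc2 : c2 < n)
    (h : A r1 c1 = true ∧ A r1 c2 = false ∧ A r2 c1 = false ∧ A r2 c2 = true) : 0 < cnt A n := by
  have h1 : 0 < vcount A n (c1, c2) := by
    unfold vcount
    rw [if_pos hc]
    apply card_pos.mpr
    refine ⟨(r1, r2), ?_⟩
    unfold typ
    simp only [mem_filter, mem_product, mem_range]
    exact ⟨⟨⟨lt_trans hr hr2, h.1, h.2.1⟩, ⟨hr2, h.2.2.2, h.2.2.1⟩⟩, hr⟩
  have h2 : vcount A n (c1, c2) ≤ cnt A n := by
    unfold cnt
    exact single_le_sum (f := fun q => vcount A n q) (fun _ _ => Nat.zero_le _)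
      (mem_product.mpr ⟨mem_range.mpr (lt_trans hc hc2), mem_range.mpr hc2⟩)
  omega

theorem nat_main (n K : ℕ) (hK : 0 < K) (hn : 0 < n)
    (hfar : ∀ B : ℕ → ℕ → Bool, FreeN n B →
      n * n ≤ K * ((range n ×ˢ range n).filter fun p => A p.1 p.2 ≠ B p.1 p.2).card) :
    n ^ 4 ≤ (68 * K) ^ 44 * cnt A n := by
  set Z := 68 * K with hZ
  have hZpos : 0 < Z := by omega
  rcases lt_or_ge n (Z ^ 11) with hsmall | hbig
  · have hpos : 0 < cnt A n := by
      by_contra h0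
      have hfree : FreeN n A := by
        intro r1 r2 c1 c2 hr hr2 hc hc2 h
        exact h0 (cnt_pos_of_copy A n r1 r2 c1 c2 hr hr2 hc hc2 h)
      have := hfar A hfree
      simp only [ne_eq, not_true_eq_false, filter_false, card_empty, mul_zero] at this
      have h3 : 0 < n * n := Nat.mul_pos hn hn
      omega
    calc n ^ 4 ≤ (Z ^ 11) ^ 4 := Nat.pow_le_pow_left (le_of_lt hsmall) 4
      _ = Z ^ 44 * 1 := by ring
      _ ≤ Z ^ 44 * cnt A n := Nat.mul_le_mul_left _ hpos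
  · set u := n / Z ^ 11 with hu
    have hZ11 : 0 < Z ^ 11 := by positivity
    have hupos : 0 < u := Nat.div_pos hbig hZ11
    have h1 : Z ^ 11 * u ≤ n := Nat.mul_div_le n (Z ^ 11)
    have h2 : n < 2 * (Z ^ 11 * u) := by
      have := Nat.lt_mul_div_succ n hZ11
      have e : Z ^ 11 * (n / Z ^ 11 + 1) = Z ^ 11 * u + Z ^ 11 := by rw [← hu]; ring
      have e2 : Z ^ 11 * 1 ≤ Z ^ 11 * u := Nat.mul_le_mul_left _ hupos
      omega
    have hM : 0 < Z ^ 7 * u := by positivity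
    have hg : 0 < Z ^ 6 * u := by positivity
    have hL : Z ^ 7 * u + Z ^ 6 * u ≤ (Z + 1) * (Z ^ 6 * u) := by
      apply le_of_eq; ring
    have ht : n / (Z ^ 7 * u) + 1 ≤ 2 * Z ^ 4 := by
      have : n / (Z ^ 7 * u) < 2 * Z ^ 4 := by
        rw [Nat.div_lt_iff_lt_mul hM]
        calc n < 2 * (Z ^ 11 * u) := h2
          _ = 2 * Z ^ 4 * (Z ^ 7 * u) := by ring
      omega
    obtain ⟨B, E1, E2, d1, d2, hfree, hD, hE1, hE2, hd1, hd2⟩ :=
      core A n (Z ^ 7 * u) (Z ^ 6 * u) (Z * u) (Z ^ 6 * u) (Z ^ 9 * u) u (Z + 1) hM hg hL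
    exact arith K Z u n (cnt A n) _ E1 E2 d1 d2 _ hZ hK hupos h1 h2 ht hD (hfar B hfree)
      hE1 hE2 hd1 hd2

end Vale.Agent.P037
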