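import Vale.Agent.P037.Cross

/-! Quadrant connectivity in matrices avoiding `[[1,1],[1,0]]`. -/

namespace Vale.Agent.P037

open Finset

/-- bipartite adjacency (rows on the left, columns on the right) restricted to rows satisfying `ρ`
and columns satisfying `κ` -/
def QAdj (F : ℕ → ℕ → Bool) (ρ κ : ℕ → Prop) : ℕ ⊕ ℕ → ℕ ⊕ ℕ → Prop
  | Sum.inl p, Sum.inr c => ρ p ∧ κ c ∧ F p c = true
  | Sum.inr c, Sum.inl p => ρ p ∧ κ c ∧ F p c = true
  | _, _ => False

def QReach (F : ℕ → ℕ → Bool) (ρ κ : ℕ → Prop) : ℕ ⊕ ℕ → ℕ ⊕ ℕ → Prop :=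
  Relation.ReflTransGen (QAdj F ρ κ)

theorem QAdj_symm (F : ℕ → ℕ → Bool) (ρ κ : ℕ → Prop) {a b : ℕ ⊕ ℕ} (h : QAdj F ρ κ a b) :
    QAdj F ρ κ b a := by
  cases a <;> cases b <;> simp only [QAdj] at h ⊢ <;> exact h

theorem QReach_symm (F : ℕ → ℕ → Bool) (ρ κ : ℕ → Prop) {a b : ℕ ⊕ ℕ}
    (h : QReach F ρ κ a b) : QReach F ρ κ b a := by
  unfold QReach at h ⊢
  induction h with
  | refl => exact Relation.ReflTransGen.refl
  | tail _ hbc ih => exact Relation.ReflTransGen.head (QAdj_symm F ρ κ hbc) ih

theorem QReach_trans (F : ℕ → ℕ → Bool) (ρ κ : ℕ → Prop) {a b c : ℕ ⊕ ℕ}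
    (h1 : QReach F ρ κ a b) (h2 : QReach F ρ κ b c) : QReach F ρ κ a c :=
  Relation.ReflTransGen.trans h1 h2

theorem QReach_mono {F F' : ℕ → ℕ → Bool} {ρ ρ' κ κ' : ℕ → Prop}
    (h1 : ∀ p, ρ p → ρ' p) (h2 : ∀ c, κ c → κ' c) (h3 : ∀ p c, F p c = true → F' p c = true)
    {a b : ℕ ⊕ ℕ} (h : QReach F ρ κ a b) : QReach F' ρ' κ' a b := by
  unfold QReach at h ⊢
  refine Relation.ReflTransGen.mono ?_ a b h
  intro x y hxy
  cases x <;> cases y <;> simp only [QAdj] at hxy ⊢
  · exact ⟨h1 _ hxy.1, h2 _ hxy.2.1, h3 _ _ hxy.2.2⟩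
  · exact ⟨h1 _ hxy.1, h2 _ hxy.2.1, h3 _ _ hxy.2.2⟩

theorem QReach_edge (F : ℕ → ℕ → Bool) (ρ κ : ℕ → Prop) {p c : ℕ} (h1 : ρ p) (h2 : κ c)
    (h3 : F p c = true) : QReach F ρ κ (Sum.inl p) (Sum.inr c) :=
  Relation.ReflTransGen.single (show QAdj F ρ κ (Sum.inl p) (Sum.inr c) from ⟨h1, h2, h3⟩)

theorem reach_row_mem (F : ℕ → ℕ → Bool) (ρ κ : ℕ → Prop) {g x : ℕ}
    (h : QReach F ρ κ (Sum.inr g) (Sum.inl x)) : ρ x := by
  rcases Relation.ReflTransGen.cases_tail h with h | ⟨z, _, hz⟩
  · exact absurd h (by simp)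
  · cases z
    · simp [QAdj] at hz
    · exact hz.1

theorem reach_col_mem (F : ℕ → ℕ → Bool) (ρ κ : ℕ → Prop) {g x : ℕ}
    (h : QReach F ρ κ (Sum.inr g) (Sum.inr x)) : x = g ∨ κ x := by
  rcases Relation.ReflTransGen.cases_tail h with h | ⟨z, _, hz⟩
  · left; exact Sum.inr.inj h
  · right
    cases z
    · exact hz.2.1
    · simp [QAdj] at hz

/-- Removing the two end points of a connection. -/
theorem split_ends (F : ℕ → ℕ → Bool) (Pi : Finset ℕ) (p c : ℕ) (hF : F p c = false)
    (h : QReach F (fun x => x ∈ Pi ∧ x ≤ p) (fun x => x ≤ c) (Sum.inl p) (Sum.inr c)) :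
    ∃ g l, g < c ∧ F p g = true ∧ l ∈ Pi ∧ l < p ∧ F l c = true ∧
      QReach F (fun x => x ∈ Pi ∧ x < p) (fun x => x < c) (Sum.inr g) (Sum.inl l) := by
  set G0 := QReach F (fun x => x ∈ Pi ∧ x < p) (fun x => x < c) with hG0
  set Goal : Prop := ∃ g l, g < c ∧ F p g = true ∧ l ∈ Pi ∧ l < p ∧ F l c = true ∧
      G0 (Sum.inr g) (Sum.inl l) with hGoal
  have key : ∀ z, QReach F (fun x => x ∈ Pi ∧ x ≤ p) (fun x => x ≤ c) (Sum.inl p) z →
      (z = Sum.inl p ∨ ∃ g, g < c ∧ F p g = true ∧ G0 (Sum.inr g) z) ∨ Goal := by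
    intro z hz
    induction hz with
    | refl => left; left; rfl
    | @tail a b _ hab ih =>
      rcases ih with ih | ih
      · rcases ih with rfl | ⟨g, hg, hFg, hreach⟩
        · -- a = inl p
          cases b with
          | inl x => simp [QAdj] at hab
          | inr x =>
            have hx : x ≤ c := hab.2.1
            have hFx : F p x = true := hab.2.2
            have hne : x ≠ c := by
              intro e
              rw [e, hF] at hFx
              exact absurd hFx (by simp)
            left; right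
            exact ⟨x, lt_of_le_of_ne hx hne, hFx, Relation.ReflTransGen.refl⟩
        · cases a with
          | inl x =>
            cases b with
            | inl y => simp [QAdj] at hab
            | inr y =>
              have hx := reach_row_mem F _ _ hreach
              have hy : y ≤ c := hab.2.1
              have hFxy : F x y = true := hab.2.2
              rcases lt_or_eq_of_le hy with hlt | heq
              · left; right
                refine ⟨g, hg, hFg, Relation.ReflTransGen.tail hreach ?_⟩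
                exact ⟨hx, hlt, hFxy⟩
              · right
                rw [heq] at hFxy
                exact ⟨g, x, hg, hFg, hx.1, hx.2, hFxy, hreach⟩
          | inr x =>
            cases b with
            | inr y => simp [QAdj] at hab
            | inl y =>
              have hx : x < c := by
                rcases reach_col_mem F _ _ hreach with e | e
                · rw [e]; exact hg
                · exact e
              have hy : y ∈ Pi ∧ y ≤ p := hab.1
              have hFyx : F y x = true := hab.2.2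
              rcases lt_or_eq_of_le hy.2 with hlt | heq
              · left; right
                refine ⟨g, hg, hFg, Relation.ReflTransGen.tail hreach ?_⟩
                exact ⟨⟨hy.1, hlt⟩, hx, hFyx⟩
              · left; left
                rw [heq]
      · right; exact ih
  rcases key _ h with h1 | h1
  · rcases h1 with h1 | ⟨g, hg, _, hreach⟩
    · exact absurd h1 (by simp)
    · exfalso
      rcases reach_col_mem F _ _ hreach with e | e
      · omega
      · exact lt_irrefl _ e
  · exact h1

end Vale.Agent.P037
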