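import Vale.Agent.P037.Quad

/-! Claim: in a matrix avoiding `[[1,1],[1,0]]`, a row and a column that are connected inside their
north-west quadrant are adjacent. -/

namespace Vale.Agent.P037

open Finset

open Classical in
theorem quad_adj (F : ℕ → ℕ → Bool) (Pi : Finset ℕ) (n : ℕ)
    (hG : ∀ p ∈ Pi, ∀ p' ∈ Pi, p < p' → ∀ c1 c2, c1 < c2 → c2 < n →
      F p c1 = true → F p c2 = true → F p' c1 = true → F p' c2 = true) :
    ∀ s p c, p + c = s → p ∈ Pi → c < n →
      QReach F (fun x => x ∈ Pi ∧ x ≤ p) (fun x => x ≤ c) (Sum.inl p) (Sum.inr c) →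
      F p c = true := by
  intro s
  induction s using Nat.strong_induction_on with
  | _ s ih =>
    intro p c hs hp hc hreach
    by_contra hF
    have hF' : F p c = false := by simpa using hF
    obtain ⟨g, l, hg, hFg, hl, hlp, hFl, hgl⟩ := split_ends F Pi p c hF' hreach
    set G0 := QReach F (fun x => x ∈ Pi ∧ x < p) (fun x => x < c) with hG0
    -- maxima of the component
    set Rs := Pi.filter fun x => G0 (Sum.inr g) (Sum.inl x) with hRs
    set Cs := (range c).filter fun x => G0 (Sum.inr g) (Sum.inr x) with hCs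
    have hRne : Rs.Nonempty := ⟨l, mem_filter.mpr ⟨hl, hgl⟩⟩
    have hCne : Cs.Nonempty :=
      ⟨g, mem_filter.mpr ⟨mem_range.mpr hg, Relation.ReflTransGen.refl⟩⟩
    obtain ⟨r', hr', hrmax⟩ := exists_max_image Rs id hRne
    obtain ⟨g', hg', hgmax⟩ := exists_max_image Cs id hCne
    have hr'1 := mem_filter.mp hr'
    have hg'1 := mem_filter.mp hg'
    have hr'p : r' < p := (reach_row_mem F _ _ hr'1.2).2
    have hg'c : g' < c := mem_range.mp hg'1.1
    -- the component lives inside the smaller quadrant
    have hbd : ∀ z, G0 (Sum.inr g) z →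
        QReach F (fun x => x ∈ Pi ∧ x ≤ r') (fun x => x ≤ g') (Sum.inr g) z := by
      intro z hz
      induction hz with
      | refl => exact Relation.ReflTransGen.refl
      | @tail a b hga hab ih2 =>
        have hgb : G0 (Sum.inr g) b := Relation.ReflTransGen.tail hga hab
        refine Relation.ReflTransGen.tail ih2 ?_
        have rowb : ∀ x, G0 (Sum.inr g) (Sum.inl x) → x ∈ Pi ∧ x ≤ r' := by
          intro x hx
          have hxPi := (reach_row_mem F _ _ hx).1
          exact ⟨hxPi, hrmax x (mem_filter.mpr ⟨hxPi, hx⟩)⟩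
        have colb : ∀ x, G0 (Sum.inr g) (Sum.inr x) → x ≤ g' := by
          intro x hx
          have hxc : x < c := by
            rcases reach_col_mem F _ _ hx with e | e
            · rw [e]; exact hg
            · exact e
          exact hgmax x (mem_filter.mpr ⟨mem_range.mpr hxc, hx⟩)
        cases a with
        | inl x =>
          cases b with
          | inl y => simp [QAdj] at hab
          | inr y => exact ⟨rowb x hga, colb y hgb, hab.2.2⟩
        | inr x =>
          cases b with
          | inr y => simp [QAdj] at hab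
          | inl y => exact ⟨rowb y hgb, colb x hga, hab.2.2⟩
    have b1 := hbd _ hr'1.2
    have b2 := hbd _ hg'1.2
    have b3 := hbd _ hgl
    have hlr' : l ≤ r' := hrmax l (mem_filter.mpr ⟨hl, hgl⟩)
    have hgg' : g ≤ g' := hgmax g (mem_filter.mpr ⟨mem_range.mpr hg, Relation.ReflTransGen.refl⟩)
    -- three applications of the induction hypothesis
    have e1 : F r' g' = true :=
      ih (r' + g') (by omega) r' g' rfl hr'1.1 (by omega)
        (QReach_trans F _ _ (QReach_symm F _ _ b1) b2)
    have e2 : F r' c = true := by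
      apply ih (r' + c) (by omega) r' c rfl hr'1.1 hc
      have q1 : QReach F (fun x => x ∈ Pi ∧ x ≤ r') (fun x => x ≤ c) (Sum.inl r') (Sum.inl l) :=
        QReach_mono (fun _ h => h) (fun x (h : x ≤ g') => by omega) (fun _ _ h => h)
          (QReach_trans F _ _ (QReach_symm F _ _ b1) b3)
      exact QReach_trans F _ _ q1 (QReach_edge F _ _ ⟨hl, hlr'⟩ (le_refl c) hFl)
    have e3 : F p g' = true := by
      apply ih (p + g') (by omega) p g' rfl hp (by omega)
      have q1 : QReach F (fun x => x ∈ Pi ∧ x ≤ p) (fun x => x ≤ g') (Sum.inr g) (Sum.inr g') :=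
        QReach_mono (fun x (h : x ∈ Pi ∧ x ≤ r') => ⟨h.1, by omega⟩) (fun _ h => h)
          (fun _ _ h => h) b2
      exact QReach_trans F _ _ (QReach_edge F _ _ ⟨hp, le_refl p⟩ hgg' hFg) q1
    exact hF (hG r' hr'1.1 p hp hr'p g' c hg'c hc e1 e2 e3)

end Vale.Agent.P037
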