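import Mathlib

/-! Generic counting lemmas: ranks inside a finite set, double counting, products. -/

namespace Vale.Agent.P037

open Finset

/-- rank of `x` inside `S` with respect to the key `f`. -/
def rk (S : Finset ℕ) (f : ℕ → ℕ) (x : ℕ) : ℕ := (S.filter fun y => f y < f x).card

theorem rk_mono (S : Finset ℕ) (f : ℕ → ℕ) {x y : ℕ} (h : f x ≤ f y) : rk S f x ≤ rk S f y := by
  unfold rk
  apply card_le_card
  intro z hz
  simp only [mem_filter] at hz ⊢
  exact ⟨hz.1, lt_of_lt_of_le hz.2 h⟩

theorem rk_lt_rk (S : Finset ℕ) (f : ℕ → ℕ) {x y : ℕ} (hx : x ∈ S) (h : f x < f y) :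
    rk S f x < rk S f y := by
  unfold rk
  apply card_lt_card
  rw [ssubset_iff_of_subset]
  · refine ⟨x, ?_, ?_⟩
    · simp only [mem_filter]; exact ⟨hx, h⟩
    · simp only [mem_filter]; intro hh; exact lt_irrefl _ hh.2
  · intro z hz
    simp only [mem_filter] at hz ⊢
    exact ⟨hz.1, lt_trans hz.2 h⟩

theorem rk_lt_card (S : Finset ℕ) (f : ℕ → ℕ) {x : ℕ} (hx : x ∈ S) : rk S f x < S.card := by
  unfold rk
  apply card_lt_card
  rw [ssubset_iff_of_subset (filter_subset _ _)]
  refine ⟨x, hx, ?_⟩
  simp only [mem_filter]; intro hh; exact lt_irrefl _ hh.2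

theorem key_lt_of_rk_lt (S : Finset ℕ) (f : ℕ → ℕ) {x y : ℕ} (h : rk S f x < rk S f y) :
    f x < f y := by
  by_contra hh
  exact absurd (rk_mono S f (not_lt.mp hh)) (not_le.mpr h)

theorem rk_injOn (S : Finset ℕ) (f : ℕ → ℕ) (hf : Set.InjOn f S) : Set.InjOn (rk S f) S := by
  intro x hx y hy hxy
  by_contra hne
  have hfne : f x ≠ f y := fun h => hne (hf hx hy h)
  rcases lt_or_gt_of_ne hfne with h | h
  · exact absurd hxy (ne_of_lt (rk_lt_rk S f hx h))
  · exact absurd hxy.symm (ne_of_lt (rk_lt_rk S f hy h))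

theorem card_rk_Ico_le (S : Finset ℕ) (f : ℕ → ℕ) (hf : Set.InjOn f S) (a b : ℕ) :
    (S.filter fun x => a ≤ rk S f x ∧ rk S f x < b).card ≤ b - a := by
  have h : (S.filter fun x => a ≤ rk S f x ∧ rk S f x < b).card ≤ (Finset.Ico a b).card := by
    apply card_le_card_of_injOn (rk S f)
    · intro x hx
      simp only [coe_filter, Set.mem_ofPred_eq] at hx
      simp only [coe_Ico, Set.mem_Ico]
      exact hx.2
    · intro x hx y hy hxy
      simp only [coe_filter, Set.mem_ofPred_eq] at hx hy
      exact rk_injOn S f hf hx.1 hy.1 hxy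
  simpa using h

theorem card_rk_lt_le (S : Finset ℕ) (f : ℕ → ℕ) (hf : Set.InjOn f S) (t : ℕ) :
    (S.filter fun x => rk S f x < t).card ≤ t := by
  have h := card_rk_Ico_le S f hf 0 t
  simpa using h

theorem image_rk (S : Finset ℕ) (f : ℕ → ℕ) (hf : Set.InjOn f S) :
    S.image (rk S f) = range S.card := by
  apply eq_of_subset_of_card_le
  · intro m hm
    simp only [mem_image] at hm
    obtain ⟨x, hx, rfl⟩ := hm
    exact mem_range.mpr (rk_lt_card S f hx)
  · rw [card_image_of_injOn (rk_injOn S f hf)]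
    simp

theorem card_rk_lt_eq (S : Finset ℕ) (f : ℕ → ℕ) (hf : Set.InjOn f S) {t : ℕ} (ht : t ≤ S.card) :
    (S.filter fun x => rk S f x < t).card = t := by
  apply le_antisymm (card_rk_lt_le S f hf t)
  have hsub : range t ⊆ (S.filter fun x => rk S f x < t).image (rk S f) := by
    intro m hm
    have hm' : m ∈ S.image (rk S f) := by
      rw [image_rk S f hf]
      exact mem_range.mpr (lt_of_lt_of_le (mem_range.mp hm) ht)
    simp only [mem_image] at hm'
    obtain ⟨x, hx, rfl⟩ := hm'
    simp only [mem_image, mem_filter]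
    exact ⟨x, ⟨hx, mem_range.mp hm⟩, rfl⟩
  calc t = (range t).card := (card_range t).symm
    _ ≤ ((S.filter fun x => rk S f x < t).image (rk S f)).card := card_le_card hsub
    _ ≤ _ := card_image_le

/-- double counting -/
theorem sum_card_swap {α β : Type*} (s : Finset α) (t : Finset β) (r : α → β → Prop)
    [∀ a b, Decidable (r a b)] :
    ∑ a ∈ s, (t.filter fun b => r a b).card = ∑ b ∈ t, (s.filter fun a => r a b).card := by
  simp only [card_filter]
  exact sum_comm

theorem card_filter_prod {α β : Type*} (s : Finset α) (t : Finset β) (p : α → Prop) (q : β → Prop)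
    [DecidablePred p] [DecidablePred q] :
    ((s ×ˢ t).filter fun x => p x.1 ∧ q x.2).card = (s.filter p).card * (t.filter q).card := by
  rw [filter_product, card_product]

theorem card_filter_product_eq_sum {α β : Type*} (s : Finset α) (t : Finset β)
    (p : α × β → Prop) [DecidablePred p] :
    ((s ×ˢ t).filter p).card = ∑ b ∈ t, (s.filter fun a => p (a, b)).card := by
  simp only [card_filter]
  rw [sum_product_right]

theorem mul_le_sq_add (t e : ℕ) : t * e ≤ t * t + e * e := by
  rcases le_total e t with h | h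
  · exact le_trans (Nat.mul_le_mul_left t h) (Nat.le_add_right _ _)
  · exact le_trans (Nat.mul_le_mul_right e h) (Nat.le_add_left _ _)

theorem mul_le_sq_add_mul (t a a' : ℕ) (h : a ≤ a') : t * a ≤ t * t + a * a' := by
  exact le_trans (mul_le_sq_add t a) (Nat.add_le_add_left (Nat.mul_le_mul_left a h) _)

end Vale.Agent.P037
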