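import Vale.Agent.P037.Rank

/-! Sorting lemma: a set of rows with few induced 2-matchings is close to a nested family
whose columns are determined by the column weights. -/

namespace Vale.Agent.P037

open Finset

variable (A : ℕ → ℕ → Bool)

def adiff (Cs : Finset ℕ) (r r' : ℕ) : ℕ :=
  (Cs.filter fun c => A r c = true ∧ A r' c = false).card

def colw (S : Finset ℕ) (c : ℕ) : ℕ := (S.filter fun r => A r c = true).card

def rowsz (Cs : Finset ℕ) (r : ℕ) : ℕ := (Cs.filter fun c => A r c = true).card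

/-- rows of `S` that are `1` in column `c` and `0` in column `c'` -/
def typ (S : Finset ℕ) (c c' : ℕ) : Finset ℕ := S.filter fun r => A r c = true ∧ A r c' = false

def conf (S Cs : Finset ℕ) : ℕ :=
  ∑ q ∈ Cs ×ˢ Cs, (typ A S q.1 q.2).card * (typ A S q.2 q.1).card

def mis (S Cs : Finset ℕ) (f : ℕ → ℕ) : ℕ :=
  ∑ c ∈ Cs, (S.filter fun r => A r c ≠ decide (rk S f r < colw A S c)).card

theorem rowsz_eq (Cs : Finset ℕ) (r r' : ℕ) :
    rowsz A Cs r = adiff A Cs r r' + (Cs.filter fun c => A r c = true ∧ A r' c = true).card := by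
  unfold rowsz adiff
  have h := Finset.card_filter_add_card_filter_not (s := Cs.filter fun c => A r c = true)
    (fun c => A r' c = true)
  rw [filter_filter, filter_filter] at h
  simp only [Bool.not_eq_true] at h
  omega

theorem adiff_le (Cs : Finset ℕ) (r r' : ℕ) (h : rowsz A Cs r ≤ rowsz A Cs r') :
    adiff A Cs r r' ≤ adiff A Cs r' r := by
  have h1 := rowsz_eq A Cs r r'
  have h2 := rowsz_eq A Cs r' r
  have h3 : (Cs.filter fun c => A r c = true ∧ A r' c = true).card
      = (Cs.filter fun c => A r' c = true ∧ A r c = true).card := by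
    congr 1
    apply filter_congr
    intro c _
    exact and_comm
  omega

theorem sum_adiff_mul (S Cs : Finset ℕ) :
    ∑ p ∈ S ×ˢ S, adiff A Cs p.1 p.2 * adiff A Cs p.2 p.1 = conf A S Cs := by
  unfold conf adiff typ
  have h1 : ∀ p ∈ S ×ˢ S, (Cs.filter fun c => A p.1 c = true ∧ A p.2 c = false).card
        * (Cs.filter fun c => A p.2 c = true ∧ A p.1 c = false).card
      = ((Cs ×ˢ Cs).filter fun q => (A p.1 q.1 = true ∧ A p.1 q.2 = false)
          ∧ (A p.2 q.2 = true ∧ A p.2 q.1 = false)).card := by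
    intro p _
    rw [← card_filter_prod]
    congr 1
    apply filter_congr
    intro q _
    tauto
  rw [sum_congr rfl h1]
  rw [sum_card_swap (S ×ˢ S) (Cs ×ˢ Cs) (fun p q => (A p.1 q.1 = true ∧ A p.1 q.2 = false)
          ∧ (A p.2 q.2 = true ∧ A p.2 q.1 = false))]
  apply sum_congr rfl
  intro q _
  exact card_filter_prod S S (fun r => A r q.1 = true ∧ A r q.2 = false)
    (fun r => A r q.2 = true ∧ A r q.1 = false)

/-- inversions in column `c` -/
def inv (S : Finset ℕ) (f : ℕ → ℕ) (c : ℕ) : ℕ :=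
  (((S ×ˢ S).filter fun p => f p.2 < f p.1).filter fun p => A p.1 c = true ∧ A p.2 c = false).card

theorem mis_col (S : Finset ℕ) (f : ℕ → ℕ) (hf : Set.InjOn f S) (c t : ℕ) :
    t * (S.filter fun r => A r c ≠ decide (rk S f r < colw A S c)).card
      ≤ 2 * (t * t + inv A S f c) := by
  set K := S.filter fun r => A r c = true with hK
  set T := S.filter fun r => rk S f r < colw A S c with hT
  have hKc : K.card = colw A S c := rfl
  have hTc : T.card = colw A S c := card_rk_lt_eq S f hf (card_filter_le _ _)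
  have hee : (K \ T).card = (T \ K).card := card_sdiff_comm (hKc.trans hTc.symm)
  have hsub : (S.filter fun r => A r c ≠ decide (rk S f r < colw A S c)) ⊆ (K \ T) ∪ (T \ K) := by
    intro r hr
    simp only [mem_filter, mem_union, mem_sdiff, hK, hT] at hr ⊢
    obtain ⟨hrS, hne⟩ := hr
    by_cases h1 : A r c = true
    · left
      refine ⟨⟨hrS, h1⟩, ?_⟩
      intro h2
      apply hne
      rw [h1, decide_eq_true h2.2]
    · right
      have h1' : A r c = false := by simpa using h1
      refine ⟨⟨hrS, ?_⟩, fun h => h1 h.2⟩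
      by_contra h2
      apply hne
      rw [h1', decide_eq_false h2]
  have hcard : (S.filter fun r => A r c ≠ decide (rk S f r < colw A S c)).card
      ≤ 2 * (K \ T).card := by
    calc _ ≤ ((K \ T) ∪ (T \ K)).card := card_le_card hsub
      _ ≤ (K \ T).card + (T \ K).card := card_union_le _ _
      _ = 2 * (K \ T).card := by omega
  have hprod : (K \ T).card * (K \ T).card ≤ inv A S f c := by
    have hrw : (K \ T).card * (K \ T).card = ((K \ T) ×ˢ (T \ K)).card := by
      rw [card_product, ← hee]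
    rw [hrw]
    unfold inv
    apply card_le_card
    intro p hp
    simp only [mem_product, mem_sdiff, mem_filter, hK, hT] at hp ⊢
    obtain ⟨⟨⟨h1S, h1A⟩, h1T⟩, ⟨⟨h2S, h2T⟩, h2K⟩⟩ := hp
    refine ⟨⟨⟨h1S, h2S⟩, ?_⟩, h1A, ?_⟩
    · apply key_lt_of_rk_lt S f
      have : ¬ rk S f p.1 < colw A S c := fun h => h1T ⟨h1S, h⟩
      omega
    · by_contra h
      exact h2K ⟨h2S, by simpa using h⟩
  calc t * (S.filter fun r => A r c ≠ decide (rk S f r < colw A S c)).card
      ≤ t * (2 * (K \ T).card) := Nat.mul_le_mul_left t hcard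
    _ = 2 * (t * (K \ T).card) := by ring
    _ ≤ 2 * (t * t + (K \ T).card * (K \ T).card) := Nat.mul_le_mul_left 2 (mul_le_sq_add _ _)
    _ ≤ 2 * (t * t + inv A S f c) := by omega

theorem sum_inv (S Cs : Finset ℕ) (f : ℕ → ℕ) :
    ∑ c ∈ Cs, inv A S f c = ∑ p ∈ (S ×ˢ S).filter (fun p => f p.2 < f p.1), adiff A Cs p.1 p.2 := by
  unfold inv adiff
  exact (sum_card_swap ((S ×ˢ S).filter fun p => f p.2 < f p.1) Cs
    (fun p c => A p.1 c = true ∧ A p.2 c = false)).symm

theorem sort_bound (S Cs : Finset ℕ) (f : ℕ → ℕ) (hf : Set.InjOn f S)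
    (hmono : ∀ r ∈ S, ∀ r' ∈ S, f r' < f r → rowsz A Cs r ≤ rowsz A Cs r') (t1 t2 : ℕ) :
    t1 * t2 * mis A S Cs f
      ≤ 2 * Cs.card * (t1 * t1) * t2 + 2 * (S.card * S.card) * (t2 * t2) + 2 * conf A S Cs := by
  have h1 : t1 * mis A S Cs f ≤ 2 * (Cs.card * (t1 * t1)) + 2 * ∑ c ∈ Cs, inv A S f c := by
    unfold mis
    rw [mul_sum]
    calc _ ≤ ∑ c ∈ Cs, 2 * (t1 * t1 + inv A S f c) := sum_le_sum fun c _ => mis_col A S f hf c t1
      _ = _ := by
        rw [← mul_sum, sum_add_distrib, sum_const, smul_eq_mul]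
        ring
  have h2 : t2 * ∑ c ∈ Cs, inv A S f c ≤ (S.card * S.card) * (t2 * t2) + conf A S Cs := by
    rw [sum_inv, mul_sum]
    calc _ ≤ ∑ p ∈ (S ×ˢ S).filter (fun p => f p.2 < f p.1),
              (t2 * t2 + adiff A Cs p.1 p.2 * adiff A Cs p.2 p.1) := by
          apply sum_le_sum
          intro p hp
          simp only [mem_filter, mem_product] at hp
          exact mul_le_sq_add_mul _ _ _ (adiff_le A Cs _ _ (hmono _ hp.1.1 _ hp.1.2 hp.2))
      _ ≤ ∑ p ∈ S ×ˢ S, (t2 * t2 + adiff A Cs p.1 p.2 * adiff A Cs p.2 p.1) :=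
          sum_le_sum_of_subset (filter_subset _ _)
      _ = _ := by
        rw [sum_add_distrib, sum_const, smul_eq_mul, card_product, sum_adiff_mul]
  calc t1 * t2 * mis A S Cs f = t2 * (t1 * mis A S Cs f) := by ring
    _ ≤ t2 * (2 * (Cs.card * (t1 * t1)) + 2 * ∑ c ∈ Cs, inv A S f c) := Nat.mul_le_mul_left _ h1
    _ = 2 * Cs.card * (t1 * t1) * t2 + 2 * (t2 * ∑ c ∈ Cs, inv A S f c) := by ring
    _ ≤ 2 * Cs.card * (t1 * t1) * t2 + 2 * ((S.card * S.card) * (t2 * t2) + conf A S Cs) := by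
        have := Nat.mul_le_mul_left 2 h2
        omega
    _ = _ := by ring

end Vale.Agent.P037
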