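import Vale.Agent.P037.Sort

/-! Strips of consecutive rows: induced 2-matchings inside strips are controlled by the number of
ordered copies. -/

namespace Vale.Agent.P037

open Finset

theorem seqG (M : ℕ) (p F : ℕ → ℕ) (hp : ∀ j, p j ≤ M) (hF : ∀ j, F j + p j ≤ F (j + 1)) (t : ℕ) :
    (∑ j ∈ range t, if F j < M then p j else 0) ≤ F t ∧
    (∑ j ∈ range t, if F j < M then p j else 0) ≤ 2 * M := by
  induction t with
  | zero => simp
  | succ t ih =>
    rw [sum_range_succ]
    have h1 := hF t
    have h2 := hp t
    by_cases h : F t < M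
    · rw [if_pos h]
      constructor <;> omega
    · rw [if_neg h]
      constructor <;> omega

theorem seqW (M : ℕ) (p q F : ℕ → ℕ) (hp : ∀ j, p j ≤ M) (hq : ∀ j, q j ≤ M)
    (hF : ∀ j, F j + p j ≤ F (j + 1)) (t : ℕ) :
    ∑ j ∈ range t, p j * q j ≤ ∑ j ∈ range t, F j * q j + 2 * M * M := by
  have h1 : ∀ j ∈ range t, p j * q j ≤ F j * q j + (if F j < M then p j else 0) * M := by
    intro j _
    by_cases h : F j < M
    · rw [if_pos h]
      exact le_trans (Nat.mul_le_mul_left _ (hq j)) (Nat.le_add_left _ _)
    · rw [if_neg h]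
      have : p j ≤ F j := le_trans (hp j) (not_lt.mp h)
      simpa using Nat.mul_le_mul_right (q j) this
  calc ∑ j ∈ range t, p j * q j
      ≤ ∑ j ∈ range t, (F j * q j + (if F j < M then p j else 0) * M) := sum_le_sum h1
    _ = ∑ j ∈ range t, F j * q j + (∑ j ∈ range t, if F j < M then p j else 0) * M := by
        rw [sum_add_distrib, sum_mul]
    _ ≤ ∑ j ∈ range t, F j * q j + 2 * M * M := by
        have := Nat.mul_le_mul_right M (seqG M p F hp hF t).2
        omega

theorem card_filter_div_le (M : ℕ) (hM : 0 < M) (P : Finset ℕ) (j : ℕ) :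
    (P.filter fun r => r / M = j).card ≤ M := by
  have h : (P.filter fun r => r / M = j) ⊆ Finset.Ico (j * M) (j * M + M) := by
    intro r hr
    simp only [mem_filter] at hr
    simp only [mem_Ico]
    obtain ⟨_, rfl⟩ := hr
    have h1 := Nat.div_add_mod r M
    have h2 := Nat.mod_lt r hM
    have h3 : r / M * M = M * (r / M) := Nat.mul_comm _ _
    omega
  calc _ ≤ (Finset.Ico (j * M) (j * M + M)).card := card_le_card h
    _ = M := by simp

theorem pairs_bound (M t : ℕ) (hM : 0 < M) (P Q : Finset ℕ) :
    ∑ j ∈ range t, (P.filter fun r => r / M = j).card * (Q.filter fun r => r / M = j).card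
      ≤ ((P ×ˢ Q).filter fun x => x.1 < x.2).card + 2 * M * M := by
  have h1 := seqW M (fun j => (P.filter fun r => r / M = j).card)
    (fun j => (Q.filter fun r => r / M = j).card) (fun j => (P.filter fun r => r / M < j).card)
    (card_filter_div_le M hM P) (card_filter_div_le M hM Q) (by
      intro j
      show (P.filter fun r => r / M < j).card + (P.filter fun r => r / M = j).card
        ≤ (P.filter fun r => r / M < j + 1).card
      rw [← card_union_of_disjoint]
      · apply card_le_card
        intro r hr
        simp only [mem_union, mem_filter] at hr ⊢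
        rcases hr with hr | hr
        · exact ⟨hr.1, by omega⟩
        · exact ⟨hr.1, by omega⟩
      · rw [disjoint_filter]
        intro r _ h1 h2
        omega) t
  refine le_trans h1 (Nat.add_le_add_right ?_ _)
  set U := (P ×ˢ Q).filter fun x => x.1 / M < x.2 / M ∧ x.2 / M < t with hU
  have hU1 : U.card = ∑ j ∈ range t, (U.filter fun x => x.2 / M = j).card := by
    apply card_eq_sum_card_fiberwise
    intro x hx
    simp only [hU, coe_filter, Set.mem_ofPred_eq] at hx
    simp only [coe_range, Set.mem_Iio]
    exact hx.2.2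
  have hU2 : U ⊆ (P ×ˢ Q).filter fun x => x.1 < x.2 := by
    intro x hx
    simp only [hU, mem_filter] at hx ⊢
    refine ⟨hx.1, ?_⟩
    by_contra h
    have := Nat.div_le_div_right (c := M) (not_lt.mp h)
    omega
  calc ∑ j ∈ range t, (P.filter fun r => r / M < j).card * (Q.filter fun r => r / M = j).card
      ≤ ∑ j ∈ range t, (U.filter fun x => x.2 / M = j).card := by
        apply sum_le_sum
        intro j hj
        rw [← card_product]
        apply card_le_card
        intro x hx
        simp only [hU, mem_product, mem_filter] at hx ⊢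
        have hj' := mem_range.mp hj
        refine ⟨⟨⟨hx.1.1, hx.2.1⟩, ?_, ?_⟩, hx.2.2⟩
        · rw [hx.2.2]; exact hx.1.2
        · rw [hx.2.2]; exact hj'
    _ = U.card := hU1.symm
    _ ≤ _ := card_le_card hU2

/-- the `i`-th strip of `M` consecutive rows -/
def strip (n M i : ℕ) : Finset ℕ := (range n).filter fun r => r / M = i

variable (A : ℕ → ℕ → Bool)

/-- copies of the pattern on the columns `c < c'` (zero if not `c < c'`) -/
def vcount (n : ℕ) (q : ℕ × ℕ) : ℕ :=
  if q.1 < q.2 then
    ((typ A (range n) q.1 q.2 ×ˢ typ A (range n) q.2 q.1).filter fun x => x.1 < x.2).card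
  else 0

/-- total number of copies -/
def cnt (n : ℕ) : ℕ := ∑ q ∈ range n ×ˢ range n, vcount A n q

theorem typ_strip (n M i c c' : ℕ) :
    typ A (strip n M i) c c' = (typ A (range n) c c').filter fun r => r / M = i := by
  unfold typ strip
  rw [filter_filter, filter_filter]
  apply filter_congr
  intro r _
  exact and_comm

theorem typ_self (S : Finset ℕ) (c : ℕ) : typ A S c c = ∅ := by
  unfold typ
  apply filter_eq_empty_iff.mpr
  intro r _ h
  rw [h.1] at h
  exact absurd h.2 (by simp)

theorem conf_col (n M t : ℕ) (hM : 0 < M) (q : ℕ × ℕ) :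
    ∑ i ∈ range t, (typ A (strip n M i) q.1 q.2).card * (typ A (strip n M i) q.2 q.1).card
      ≤ vcount A n q + vcount A n (q.2, q.1) + 2 * M * M := by
  simp only [typ_strip]
  rcases lt_trichotomy q.1 q.2 with h | h | h
  · have := pairs_bound M t hM (typ A (range n) q.1 q.2) (typ A (range n) q.2 q.1)
    unfold vcount
    rw [if_pos h]
    omega
  · rw [h]
    simp [typ_self]
  · have := pairs_bound M t hM (typ A (range n) q.2 q.1) (typ A (range n) q.1 q.2)
    have h2 : vcount A n (q.2, q.1)
        = ((typ A (range n) q.2 q.1 ×ˢ typ A (range n) q.1 q.2).filter fun x => x.1 < x.2).card := by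
      unfold vcount
      rw [if_pos h]
    rw [h2]
    simp only [Nat.mul_comm ((typ A (range n) q.1 q.2).filter _).card]
    omega

theorem sum_vcount_swap (n : ℕ) :
    ∑ q ∈ range n ×ˢ range n, vcount A n (q.2, q.1) = cnt A n := by
  unfold cnt
  rw [sum_product, sum_product, sum_comm]

theorem conf_sum_bound (n M t : ℕ) (hM : 0 < M) :
    ∑ i ∈ range t, conf A (strip n M i) (range n) ≤ 2 * cnt A n + 2 * M * M * (n * n) := by
  unfold conf
  rw [sum_comm]
  calc _ ≤ ∑ q ∈ range n ×ˢ range n, (vcount A n q + vcount A n (q.2, q.1) + 2 * M * M) :=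
        sum_le_sum fun q _ => conf_col A n M t hM q
    _ = _ := by
      rw [sum_add_distrib, sum_add_distrib, sum_vcount_swap, sum_const, card_product, card_range,
        smul_eq_mul]
      unfold cnt
      ring

end Vale.Agent.P037
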