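import Vale.Agent.P037.Transfer

/-! Symmetries of the removal problem: row reversal, column reversal, transposition, complement. -/

namespace Vale.Agent.P037

open Finset

/-- the removal bound for a `2 × 2` pattern with constants `a ^ (-C)` and `C` -/
def Removal (H : Matrix (Fin 2) (Fin 2) Bool) (a : ℝ) (C : ℕ) : Prop :=
  ∀ (n : ℕ) (ε : ℝ) (A : Matrix (Fin n) (Fin n) Bool), 1 ≤ n → 0 < ε → ε < 1 →
    (∀ B : Matrix (Fin n) (Fin n) Bool, numCopies H B = 0 →
      ε * (n : ℝ) ^ 2 ≤ (entryDist A B : ℝ)) →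
    (ε / a) ^ C * (n : ℝ) ^ 4 ≤ (numCopies H A : ℝ)

theorem Removal.transfer
    (Φ : ∀ {k : ℕ}, Matrix (Fin k) (Fin k) Bool → Matrix (Fin k) (Fin k) Bool)
    (hinv : ∀ (k : ℕ) (A : Matrix (Fin k) (Fin k) Bool), Φ (Φ A) = A)
    (hcop : ∀ (k n : ℕ) (H : Matrix (Fin k) (Fin k) Bool) (A : Matrix (Fin n) (Fin n) Bool),
      numCopies (Φ H) (Φ A) = numCopies H A)
    (hdist : ∀ (n : ℕ) (A B : Matrix (Fin n) (Fin n) Bool), entryDist (Φ A) (Φ B) = entryDist A B)
    {H : Matrix (Fin 2) (Fin 2) Bool} {a : ℝ} {C : ℕ} (h : Removal H a C) :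
    Removal (Φ H) a C := by
  intro n ε A hn h0 h1 hfar
  have h2 := h n ε (Φ A) hn h0 h1 (by
    intro B hB
    have a1 : numCopies (Φ H) (Φ B) = 0 := by rw [hcop]; exact hB
    have a2 := hfar (Φ B) a1
    have a3 : entryDist (Φ A) B = entryDist A (Φ B) := by
      rw [← hdist n A (Φ B), hinv]
    rw [a3]
    exact a2)
  have e : numCopies H (Φ A) = numCopies (Φ H) A := by
    rw [← hcop 2 n H (Φ A), hinv]
  rw [e] at h2
  exact h2

theorem Removal.mono {H : Matrix (Fin 2) (Fin 2) Bool} {a a' : ℝ} {C C' : ℕ}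
    (h : Removal H a C) (ha : 1 ≤ a) (haa : a ≤ a') (hC : C ≤ C') : Removal H a' C' := by
  intro n ε A hn h0 h1 hfar
  have h2 := h n ε A hn h0 h1 hfar
  have ha' : 0 < a' := by linarith
  have ha0 : 0 < a := by linarith
  have b1 : ε / a' ≤ ε / a := div_le_div_of_nonneg_left (le_of_lt h0) ha0 haa
  have b2 : ε / a' ≤ 1 := by
    rw [div_le_one ha']
    linarith
  have b0 : 0 ≤ ε / a' := by positivity
  calc (ε / a') ^ C' * (n : ℝ) ^ 4 ≤ (ε / a') ^ C * (n : ℝ) ^ 4 :=
        mul_le_mul_of_nonneg_right (pow_le_pow_of_le_one b0 b2 hC) (by positivity)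
    _ ≤ (ε / a) ^ C * (n : ℝ) ^ 4 := by gcongr
    _ ≤ _ := h2

/-- row reversal -/
def revR {k l : ℕ} (A : Matrix (Fin k) (Fin l) Bool) : Matrix (Fin k) (Fin l) Bool :=
  fun r c => A (Fin.rev r) c

/-- column reversal -/
def revC {k l : ℕ} (A : Matrix (Fin k) (Fin l) Bool) : Matrix (Fin k) (Fin l) Bool :=
  fun r c => A r (Fin.rev c)

/-- transposition -/
def trp {k l : ℕ} (A : Matrix (Fin k) (Fin l) Bool) : Matrix (Fin l) (Fin k) Bool :=
  fun r c => A c r

theorem revR_revR {k l : ℕ} (A : Matrix (Fin k) (Fin l) Bool) : revR (revR A) = A := by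
  funext r c
  simp [revR]

theorem revC_revC {k l : ℕ} (A : Matrix (Fin k) (Fin l) Bool) : revC (revC A) = A := by
  funext r c
  simp [revC]

theorem trp_trp {k l : ℕ} (A : Matrix (Fin k) (Fin l) Bool) : trp (trp A) = A := rfl

/-- conjugation of an index map by the two reversals -/
def conj {k n : ℕ} (f : Fin k → Fin n) : Fin k → Fin n := fun i => Fin.rev (f (Fin.rev i))

theorem conj_conj {k n : ℕ} (f : Fin k → Fin n) : conj (conj f) = f := by
  funext i
  simp [conj]

theorem conj_strictMono {k n : ℕ} {f : Fin k → Fin n} (hf : StrictMono f) :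
    StrictMono (conj f) := by
  intro i j hij
  unfold conj
  rw [Fin.rev_lt_rev]
  exact hf (Fin.rev_lt_rev.mpr hij)

def conjEquiv (k n : ℕ) : (Fin k → Fin n) ≃ (Fin k → Fin n) where
  toFun := conj
  invFun := conj
  left_inv := conj_conj
  right_inv := conj_conj

theorem numCopies_revR {k n : ℕ} (H : Matrix (Fin k) (Fin k) Bool)
    (A : Matrix (Fin n) (Fin n) Bool) : numCopies (revR H) (revR A) = numCopies H A := by
  unfold numCopies
  symm
  apply Nat.card_congr
  apply Equiv.subtypeEquiv ((conjEquiv k n).prodCongr (Equiv.refl _))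
  intro p
  constructor
  · rintro ⟨h1, h2, h3⟩
    refine ⟨conj_strictMono h1, h2, ?_⟩
    intro i j
    show A (Fin.rev (Fin.rev (p.1 (Fin.rev i)))) (p.2 j) = H (Fin.rev i) j
    rw [Fin.rev_rev]
    exact h3 _ _
  · rintro ⟨h1, h2, h3⟩
    refine ⟨?_, h2, ?_⟩
    · have := conj_strictMono h1
      have e : conj (conj p.1) = p.1 := conj_conj p.1
      exact e ▸ this
    · intro i j
      have := h3 (Fin.rev i) j
      have e : A (Fin.rev (Fin.rev (p.1 (Fin.rev (Fin.rev i))))) (p.2 j)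
          = H (Fin.rev (Fin.rev i)) j := this
      simpa only [Fin.rev_rev] using e

theorem numCopies_revC {k n : ℕ} (H : Matrix (Fin k) (Fin k) Bool)
    (A : Matrix (Fin n) (Fin n) Bool) : numCopies (revC H) (revC A) = numCopies H A := by
  unfold numCopies
  symm
  apply Nat.card_congr
  apply Equiv.subtypeEquiv ((Equiv.refl _).prodCongr (conjEquiv k n))
  intro p
  constructor
  · rintro ⟨h1, h2, h3⟩
    refine ⟨h1, conj_strictMono h2, ?_⟩
    intro i j
    show A (p.1 i) (Fin.rev (Fin.rev (p.2 (Fin.rev j)))) = H i (Fin.rev j)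
    rw [Fin.rev_rev]
    exact h3 _ _
  · rintro ⟨h1, h2, h3⟩
    refine ⟨h1, ?_, ?_⟩
    · have := conj_strictMono h2
      have e : conj (conj p.2) = p.2 := conj_conj p.2
      exact e ▸ this
    · intro i j
      have := h3 i (Fin.rev j)
      have e : A (p.1 i) (Fin.rev (Fin.rev (p.2 (Fin.rev (Fin.rev j)))))
          = H i (Fin.rev (Fin.rev j)) := this
      simpa only [Fin.rev_rev] using e

theorem numCopies_trp {k n : ℕ} (H : Matrix (Fin k) (Fin k) Bool)
    (A : Matrix (Fin n) (Fin n) Bool) : numCopies (trp H) (trp A) = numCopies H A := by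
  unfold numCopies
  symm
  apply Nat.card_congr
  apply Equiv.subtypeEquiv (Equiv.prodComm _ _)
  intro p
  constructor
  · rintro ⟨h1, h2, h3⟩
    exact ⟨h2, h1, fun i j => h3 j i⟩
  · rintro ⟨h1, h2, h3⟩
    exact ⟨h2, h1, fun i j => h3 j i⟩

theorem entryDist_revR {n : ℕ} (A B : Matrix (Fin n) (Fin n) Bool) :
    entryDist (revR A) (revR B) = entryDist A B := by
  unfold entryDist
  apply card_nbij' (fun p => (Fin.rev p.1, p.2)) (fun p => (Fin.rev p.1, p.2))
  · intro p hp
    have hp' := (mem_filter.mp (mem_coe.mp hp)).2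
    exact mem_coe.mpr (mem_filter.mpr ⟨mem_univ _, hp'⟩)
  · intro p hp
    have hp' := (mem_filter.mp (mem_coe.mp hp)).2
    refine mem_coe.mpr (mem_filter.mpr ⟨mem_univ _, ?_⟩)
    show A (Fin.rev (Fin.rev p.1)) p.2 ≠ B (Fin.rev (Fin.rev p.1)) p.2
    rw [Fin.rev_rev]
    exact hp'
  · intro p _
    simp
  · intro p _
    simp

theorem entryDist_revC {n : ℕ} (A B : Matrix (Fin n) (Fin n) Bool) :
    entryDist (revC A) (revC B) = entryDist A B := by
  unfold entryDist
  apply card_nbij' (fun p => (p.1, Fin.rev p.2)) (fun p => (p.1, Fin.rev p.2))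
  · intro p hp
    have hp' := (mem_filter.mp (mem_coe.mp hp)).2
    exact mem_coe.mpr (mem_filter.mpr ⟨mem_univ _, hp'⟩)
  · intro p hp
    have hp' := (mem_filter.mp (mem_coe.mp hp)).2
    refine mem_coe.mpr (mem_filter.mpr ⟨mem_univ _, ?_⟩)
    show A p.1 (Fin.rev (Fin.rev p.2)) ≠ B p.1 (Fin.rev (Fin.rev p.2))
    rw [Fin.rev_rev]
    exact hp'
  · intro p _
    simp
  · intro p _
    simp

theorem entryDist_trp {n : ℕ} (A B : Matrix (Fin n) (Fin n) Bool) :
    entryDist (trp A) (trp B) = entryDist A B := by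
  unfold entryDist
  apply card_nbij' (fun p => (p.2, p.1)) (fun p => (p.2, p.1))
  · intro p hp
    have hp' := (mem_filter.mp (mem_coe.mp hp)).2
    exact mem_coe.mpr (mem_filter.mpr ⟨mem_univ _, hp'⟩)
  · intro p hp
    have hp' := (mem_filter.mp (mem_coe.mp hp)).2
    exact mem_coe.mpr (mem_filter.mpr ⟨mem_univ _, hp'⟩)
  · intro p _
    rfl
  · intro p _
    rfl

theorem Removal.revR {H : Matrix (Fin 2) (Fin 2) Bool} {a : ℝ} {C : ℕ} (h : Removal H a C) :
    Removal (revR H) a C :=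
  Removal.transfer (fun A => Vale.Agent.P037.revR A) (fun _ A => revR_revR A)
    (fun _ _ H A => numCopies_revR H A) (fun _ A B => entryDist_revR A B) h

theorem Removal.revC {H : Matrix (Fin 2) (Fin 2) Bool} {a : ℝ} {C : ℕ} (h : Removal H a C) :
    Removal (revC H) a C :=
  Removal.transfer (fun A => Vale.Agent.P037.revC A) (fun _ A => revC_revC A)
    (fun _ _ H A => numCopies_revC H A) (fun _ A B => entryDist_revC A B) h

theorem Removal.trp {H : Matrix (Fin 2) (Fin 2) Bool} {a : ℝ} {C : ℕ} (h : Removal H a C) :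
    Removal (trp H) a C :=
  Removal.transfer (fun A => Vale.Agent.P037.trp A) (fun _ A => trp_trp A)
    (fun _ _ H A => numCopies_trp H A) (fun _ A B => entryDist_trp A B) h

theorem Removal.compl {H : Matrix (Fin 2) (Fin 2) Bool} {a : ℝ} {C : ℕ} (h : Removal H a C) :
    Removal (compl H) a C :=
  Removal.transfer (fun A => Vale.Agent.P037.compl A) (fun _ A => compl_compl A)
    (fun _ _ H A => numCopies_compl H A) (fun _ A B => entryDist_compl A B) h

end Vale.Agent.P037
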